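import Vale.Agent.P315.H784.Sum
import Vale.Agent.P315.H809.Exp

/-! The numerical side conditions of the accounting theorem, for `B = 2^m` and all large `m`. -/

set_option autoImplicit false

open Finset Filter

namespace Vale.Agent.P315.Par

/-! ### Thresholds in terms of `m` -/

/-- Threshold of scale `s`. -/
noncomputable def thm (m s : ℕ) : ℝ := (1 / 2) ^ (m * 2 ^ s)

/-- Precision of scale `s`. -/
noncomputable def dlm (m s : ℕ) : ℝ := (1 / 2) ^ (2 * m * 2 ^ s)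

/-- Upper threshold of scale `s`. -/
noncomputable def thpm (eps0 : ℝ) (m s : ℕ) : ℝ := 16 * 4 ^ s / eps0 * thm m (s - 1)

theorem th_two_pow (m s : ℕ) : th (2 ^ m) s = thm m s := by
  unfold th thm
  push_cast
  rw [one_div_pow, one_div_pow, ← pow_mul]

theorem dlt_two_pow (m s : ℕ) : dlt (2 ^ m) s = dlm m s := by
  unfold dlt dlm
  push_cast
  rw [one_div_pow, one_div_pow, ← pow_mul]
  congr 2
  ring

theorem th1_two_pow (eps0 : ℝ) (m s : ℕ) : th1 eps0 (2 ^ m) s = thpm eps0 m s := by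
  unfold th1 thpm
  rw [th_two_pow]

theorem thm_pos (m s : ℕ) : 0 < thm m s := by unfold thm; positivity

theorem thpm_pos {eps0 : ℝ} (he : 0 < eps0) (m s : ℕ) : 0 < thpm eps0 m s := by
  unfold thpm; have := thm_pos m (s - 1); positivity

theorem dlm_pos (m s : ℕ) : 0 < dlm m s := by unfold dlm; positivity

/-- (P1) for all large `m`. -/
theorem eventually_P1 {eps0 : ℝ} (he : 0 < eps0) (C : ℝ) : ∀ᶠ m : ℕ in atTop,
    ∀ s t : ℕ, s + 2 ≤ t → C * thpm eps0 m t ≤ thm m s := by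
  have h1 : ∀ᶠ m : ℕ in atTop, 256 * C / eps0 ≤ (2 : ℝ) ^ m :=
    (tendsto_pow_atTop_atTop_of_one_lt (one_lt_two : (1 : ℝ) < 2)).eventually_ge_atTop _
  filter_upwards [h1, eventually_ge_atTop 2] with m hm hm2 s t hst
  rw [← th_two_pow, ← th1_two_pow]
  refine P1 he ?_ ?_ hst
  · calc 4 = 2 ^ 2 := by norm_num
      _ ≤ 2 ^ m := Nat.pow_le_pow_right (by norm_num) hm2
  · rw [div_le_iff₀ he] at hm
    push_cast
    linarith

/-- (P2) for all large `m`. -/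
theorem eventually_P2 (C : ℝ) : ∀ᶠ m : ℕ in atTop, ∀ s : ℕ, C * dlm m s ≤ thm m s := by
  have h1 : ∀ᶠ m : ℕ in atTop, C ≤ (2 : ℝ) ^ m :=
    (tendsto_pow_atTop_atTop_of_one_lt (one_lt_two : (1 : ℝ) < 2)).eventually_ge_atTop _
  filter_upwards [h1] with m hm s
  rw [← th_two_pow, ← dlt_two_pow]
  refine P2 (Nat.one_le_two_pow) ?_ s
  push_cast
  exact hm

/-- The upper thresholds are small, for all large `m`. -/
theorem eventually_thpm {eps0 : ℝ} (he : 0 < eps0) (C : ℝ) : ∀ᶠ m : ℕ in atTop,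
    ∀ s : ℕ, 1 ≤ s → C * thpm eps0 m s ≤ 1 := by
  have h1 : ∀ᶠ m : ℕ in atTop, 64 * |C| / eps0 ≤ (2 : ℝ) ^ m :=
    (tendsto_pow_atTop_atTop_of_one_lt (one_lt_two : (1 : ℝ) < 2)).eventually_ge_atTop _
  filter_upwards [h1, eventually_ge_atTop 2] with m hm hm2 s hs
  obtain ⟨u, rfl⟩ : ∃ u, s = u + 1 := ⟨s - 1, by omega⟩
  unfold thpm thm
  rw [Nat.add_sub_cancel]
  have hu : u + 1 ≤ 2 ^ u := Nat.lt_two_pow_self
  have h2 : (1 / 2 : ℝ) ^ (m * 2 ^ u) ≤ (1 / 2) ^ (m + 2 * u) := by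
    refine pow_le_pow_of_le_one (by norm_num) (by norm_num) ?_
    calc m + 2 * u ≤ m + m * u := by nlinarith
      _ = m * (u + 1) := by ring
      _ ≤ m * 2 ^ u := Nat.mul_le_mul_left _ hu
  have h3 : (1 / 2 : ℝ) ^ (m + 2 * u) * (4 ^ u * 2 ^ m) = 1 := by
    have : (4 : ℝ) ^ u = 2 ^ (2 * u) := by rw [pow_mul]; norm_num
    rw [this, ← pow_add, add_comm (2 * u) m, ← mul_pow]
    norm_num
  rw [div_le_iff₀ he] at hm
  have h4 : 0 ≤ (1 / 2 : ℝ) ^ (m + 2 * u) := by positivity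
  calc C * (16 * 4 ^ (u + 1) / eps0 * (1 / 2) ^ (m * 2 ^ u))
      ≤ |C| * (16 * 4 ^ (u + 1) / eps0 * (1 / 2) ^ (m * 2 ^ u)) :=
        mul_le_mul_of_nonneg_right (le_abs_self C) (by positivity)
    _ ≤ |C| * (16 * 4 ^ (u + 1) / eps0 * (1 / 2) ^ (m + 2 * u)) := by gcongr
    _ = (64 * |C|) / eps0 * (4 ^ u * (1 / 2) ^ (m + 2 * u)) := by rw [pow_succ]; ring
    _ ≤ (2 ^ m * eps0) / eps0 * (4 ^ u * (1 / 2) ^ (m + 2 * u)) := by gcongr
    _ = (1 / 2 : ℝ) ^ (m + 2 * u) * (4 ^ u * 2 ^ m) := by field_simp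
    _ = 1 := h3

/-! ### The error sum -/

/-- **The numerical part of the accounting theorem.** The explicit error terms are at most
`eps0 G + 3 eps0 n`. -/
theorem eventually_budget {eps0 CL CN : ℝ} (he : 0 < eps0) (hCL : 0 ≤ CL) (hCN : 0 ≤ CN) :
    ∀ᶠ m : ℕ in atTop, ∀ (S : ℕ) (n G : ℝ) (D L N : ℕ → ℝ), 0 ≤ n → 0 ≤ G →
      (∀ s, 16 ^ s * (m : ℝ) ^ 2 ≤ D s) →
      (∀ s, 0 ≤ L s) → (∀ s, L s ≤ CL * m * 2 ^ s) →
      (∀ s, 0 ≤ N s) → (∀ s, N s ≤ CN * m * 2 ^ s) →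
      (5 / 2 + 5 / 2 * (CL * m) + 4 * (CN * m)) * 4 ^ S ≤ eps0 * n →
      G / (m : ℝ) ^ 2 + 2 ^ S * G / D S + ∑ s ∈ Icc 1 S, term eps0 G n D L N S s ≤
        eps0 * G + 3 * eps0 * n := by
  have h1 : ∀ᶠ m : ℕ in atTop, (21 + 18 * CL + 3 * CN) / eps0 ≤ (m : ℝ) :=
    (tendsto_natCast_atTop_atTop (R := ℝ)).eventually_ge_atTop _
  have h2 : ∀ᶠ m : ℕ in atTop, 3 / eps0 ≤ (m : ℝ) :=
    (tendsto_natCast_atTop_atTop (R := ℝ)).eventually_ge_atTop _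
  filter_upwards [h1, h2, eventually_ge_atTop 1] with m hm hm' hm1 S n G D L N hn hG hD hL0 hL hN0 hN hS
  have m1 : (1 : ℝ) ≤ m := by exact_mod_cast hm1
  have m0 : (0 : ℝ) < m := by linarith
  have h3 := sum_term_le (eps0 := eps0) he.le hn (by positivity : (0 : ℝ) < (m : ℝ) ^ 2) hD hG
    (by positivity : 0 ≤ CL * m) (by positivity : 0 ≤ CN * m) hL0 hL hN0 hN S
  rw [div_le_iff₀ he] at hm hm'
  -- the three fractions
  have h4 : 2 ^ S * G / D S ≤ G / (m : ℝ) ^ 2 := by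
    have hDS := D_pos (by positivity : (0 : ℝ) < (m : ℝ) ^ 2) hD S
    rw [div_le_div_iff₀ hDS (by positivity)]
    have e1 : (2 : ℝ) ^ S * (m : ℝ) ^ 2 ≤ D S := by
      refine le_trans ?_ (hD S)
      gcongr
      norm_num
    calc 2 ^ S * G * (m : ℝ) ^ 2 = G * (2 ^ S * (m : ℝ) ^ 2) := by ring
      _ ≤ G * D S := mul_le_mul_of_nonneg_left e1 hG
  have h5 : (21 + 18 * (CL * m) + 3 * (CN * m)) * (G / (m : ℝ) ^ 2) ≤ eps0 * G := by
    have e2 : (21 + 18 * (CL * m) + 3 * (CN * m)) ≤ eps0 * (m : ℝ) ^ 2 := by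
      calc (21 + 18 * (CL * m) + 3 * (CN * m)) ≤ (21 + 18 * CL + 3 * CN) * m := by nlinarith
        _ ≤ (m * eps0) * m := mul_le_mul_of_nonneg_right hm m0.le
        _ = eps0 * (m : ℝ) ^ 2 := by ring
    calc (21 + 18 * (CL * m) + 3 * (CN * m)) * (G / (m : ℝ) ^ 2)
        ≤ (eps0 * (m : ℝ) ^ 2) * (G / (m : ℝ) ^ 2) :=
          mul_le_mul_of_nonneg_right e2 (by positivity)
      _ = eps0 * G := by field_simp
  have h6 : 8 / 3 * (n / (m : ℝ) ^ 2) ≤ eps0 * n := by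
    have e3 : 8 / 3 ≤ eps0 * (m : ℝ) ^ 2 := by nlinarith
    calc 8 / 3 * (n / (m : ℝ) ^ 2) ≤ (eps0 * (m : ℝ) ^ 2) * (n / (m : ℝ) ^ 2) :=
          mul_le_mul_of_nonneg_right e3 (by positivity)
      _ = eps0 * n := by field_simp
  linarith

/-- The light part of the largest scale. -/
theorem last_scale_le {eps0 J : ℝ} (hJ : 0 ≤ J) {m S n : ℕ} {NB : ℝ}
    (hNB : NB ≤ J * n + 3) (hn : J + 3 ≤ eps0 * n)
    (hS : (n + 2) ^ 3 ≤ (2 ^ m) ^ (2 ^ S)) : n * (NB * thm m S) ≤ eps0 * n := by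
  have h1 : thm m S ≤ 1 / ((n : ℝ) + 2) ^ 3 := by
    unfold thm
    rw [one_div_pow]
    refine one_div_le_one_div_of_le (by positivity) ?_
    rw [pow_mul]
    exact_mod_cast hS
  have hn0 : (0 : ℝ) ≤ n := Nat.cast_nonneg n
  have h2 : NB * thm m S ≤ (J * n + 3) * (1 / ((n : ℝ) + 2) ^ 3) :=
    mul_le_mul hNB h1 (thm_pos m S).le (by positivity)
  have h3 : (J * n + 3) * (1 / ((n : ℝ) + 2) ^ 3) ≤ eps0 := by
    rw [mul_one_div, div_le_iff₀ (by positivity)]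
    have he : 0 ≤ eps0 := by
      by_contra h
      push Not at h
      nlinarith
    have h4 : J * n + 3 ≤ (J + 3) * (n + 2) := by nlinarith
    have h5 : (J + 3) * ((n : ℝ) + 2) ≤ eps0 * n * (n + 2) := by gcongr
    have h6 : eps0 * n * ((n : ℝ) + 2) ≤ eps0 * ((n : ℝ) + 2) ^ 3 := by
      have : (n : ℝ) * (n + 2) ≤ ((n : ℝ) + 2) ^ 3 := by nlinarith [sq_nonneg ((n : ℝ))]
      calc eps0 * n * ((n : ℝ) + 2) = eps0 * (n * (n + 2)) := by ring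
        _ ≤ _ := mul_le_mul_of_nonneg_left this he
    linarith
  calc (n : ℝ) * (NB * thm m S) ≤ n * eps0 := mul_le_mul_of_nonneg_left (h2.trans h3) hn0
    _ = eps0 * n := by ring

/-! ### The number of levels is large -/

/-- Every power of `2^S` is much smaller than the number of levels. -/
theorem exists_large {B M q : ℕ} (hB : 2 ≤ B) (hM : 2 ≤ M) (hq : 1 ≤ q) (K : ℝ) {η : ℝ}
    (hη : 0 < η) (p : ℕ) : ∃ N0 : ℕ, ∀ N : ℕ, N0 ≤ N →
      K * ((2 : ℝ) ^ H809.scalN B M q N) ^ p ≤ η * H809.lev B M q N := by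
  obtain ⟨C, hC1, hC⟩ := H809.polylog_le (p + 1) (η := 1 / 2) (by norm_num)
  -- `t = lev0`, `w = 2^S ≤ 6 (log t + 1)`
  set A : ℝ := (|K| + η + 1) * 6 ^ (p + 1) * C / η with hA
  have hA0 : 0 < A := by positivity
  refine ⟨M ^ (q * (⌈A ^ 2⌉₊ + 1)), fun N hN => ?_⟩
  set t : ℕ := H809.lev0 M q N with ht
  have htl : ⌈A ^ 2⌉₊ + 1 ≤ t := by
    rw [ht, H809.lev0]
    rw [Nat.le_div_iff_mul_le (by omega), mul_comm]
    exact Nat.le_log_of_pow_le (by omega) (by omega)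
  have hw1 : (2 : ℝ) ^ H809.scalN B M q N ≤ 6 * ((Nat.log 2 (t + 2) : ℝ) + 1) := by
    have := H809.two_pow_scal_le hB t
    have h2 : 2 ^ H809.scalN B M q N ≤ 6 * (Nat.log 2 (t + 2) + 1) := this
    exact_mod_cast h2
  have hw0 : (1 : ℝ) ≤ 2 ^ H809.scalN B M q N := one_le_pow₀ (by norm_num)
  have hL : (t : ℝ) ≤ H809.lev B M q N + 2 ^ H809.scalN B M q N := by
    have := H809.lev0_lt B M q N
    exact_mod_cast this.le
  set w : ℝ := 2 ^ H809.scalN B M q N with hw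
  have hlog := hC t
  have ht0 : (0 : ℝ) ≤ t := Nat.cast_nonneg t
  -- `(|K| + η) w^(p+1) ≤ η t`
  have h1 : (|K| + η + 1) * w ^ (p + 1) ≤ η * t := by
    have e1 : w ^ (p + 1) ≤ 6 ^ (p + 1) * (C * ((t : ℝ) + 1) ^ (1 / 2 : ℝ)) := by
      calc w ^ (p + 1) ≤ (6 * ((Nat.log 2 (t + 2) : ℝ) + 1)) ^ (p + 1) :=
            pow_le_pow_left₀ (by linarith) hw1 _
        _ = 6 ^ (p + 1) * ((Nat.log 2 (t + 2) : ℝ) + 1) ^ (p + 1) := by rw [mul_pow]
        _ ≤ _ := mul_le_mul_of_nonneg_left hlog (by positivity)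
    have e2 : (|K| + η + 1) * w ^ (p + 1) ≤ η * (A * ((t : ℝ) + 1) ^ (1 / 2 : ℝ)) := by
      calc (|K| + η + 1) * w ^ (p + 1)
          ≤ (|K| + η + 1) * (6 ^ (p + 1) * (C * ((t : ℝ) + 1) ^ (1 / 2 : ℝ))) := by gcongr
        _ = η * (A * ((t : ℝ) + 1) ^ (1 / 2 : ℝ)) := by rw [hA]; field_simp
    refine e2.trans (mul_le_mul_of_nonneg_left ?_ hη.le)
    rw [← Real.sqrt_eq_rpow]
    have e3 : A ^ 2 + 1 ≤ (t : ℝ) := by
      have : ((⌈A ^ 2⌉₊ + 1 : ℕ) : ℝ) ≤ t := by exact_mod_cast htl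
      push_cast at this
      linarith [Nat.le_ceil (A ^ 2)]
    -- `A sqrt(t+1) ≤ t` as `A^2 (t+1) ≤ (t-1)(t+1) ≤ t^2`
    have e4 : A * √((t : ℝ) + 1) = √(A ^ 2 * ((t : ℝ) + 1)) := by
      rw [Real.sqrt_mul (by positivity), Real.sqrt_sq hA0.le]
    rw [e4]
    refine Real.sqrt_le_iff.2 ⟨ht0, ?_⟩
    nlinarith
  have hp : w ^ p ≤ w ^ (p + 1) := pow_le_pow_right₀ hw0 (by omega)
  have hw' : w ≤ w ^ (p + 1) := by
    calc w = w ^ 1 := (pow_one w).symm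
      _ ≤ w ^ (p + 1) := pow_le_pow_right₀ hw0 (by omega)
  have h2 : K * w ^ p ≤ |K| * w ^ (p + 1) := by
    calc K * w ^ p ≤ |K| * w ^ p := mul_le_mul_of_nonneg_right (le_abs_self K) (by positivity)
      _ ≤ |K| * w ^ (p + 1) := mul_le_mul_of_nonneg_left hp (abs_nonneg K)
  have h3 : η * w ≤ η * w ^ (p + 1) := mul_le_mul_of_nonneg_left hw' hη.le
  have h4 : 0 ≤ w ^ (p + 1) := by positivity
  nlinarith

end Vale.Agent.P315.Par
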