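import Vale.Agent.P315.H784.FamNum
import Vale.Agent.P315.H508.CapR
import Vale.Agent.P315.C.Fam

/-! The numbers of the machine inequality of one region (`H132.region_h3b`) for the concrete family
of machines `C.famMP`: capacity, price, error of one round, thresholds. -/

set_option autoImplicit false

open Finset Filter

namespace Vale.Agent.P315.Par

open Vale.Agent.P315.H801 (cdiv)

theorem famMP_g (m s : ℕ) : (C.famMP m).g s = gF m s := rfl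
theorem famMP_T (m s : ℕ) : (C.famMP m).T s = TF m s := rfl
theorem famMP_Sh (m s : ℕ) : (C.famMP m).Sh s = ShF m s := rfl
theorem famMP_Dl (m s : ℕ) : (C.famMP m).Dl s = DF m s := rfl
theorem famMP_C (m : ℕ) : (C.famMP m).C = 10 := rfl
theorem famMP_NL (m s : ℕ) : (C.famMP m).NL s = 20 * m * 2 ^ s := rfl

theorem dlm_pos' (m s : ℕ) : 0 < dlm m s := by unfold dlm; positivity

theorem gF_dlm (m s : ℕ) : (gF m s : ℝ) * dlm m s = 1 := by
  unfold gF dlm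
  push_cast
  rw [← mul_pow]
  norm_num

/-- The distance of the nodes. -/
theorem div_gF (m s : ℕ) (x : ℝ) : x / gF m s = x * dlm m s := by
  have h := gF_dlm m s
  have h0 : (0 : ℝ) < gF m s := by unfold gF; positivity
  rw [div_eq_iff h0.ne', mul_assoc, mul_comm (dlm m s), h, mul_one]

theorem cdiv_ge (x : ℕ) {y : ℕ} (hy : 0 < y) : (x : ℝ) / y ≤ cdiv x y := by
  rw [div_le_iff₀ (by exact_mod_cast hy)]
  have h1 : x ≤ cdiv x y * y := by
    unfold cdiv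
    have h2 := Nat.div_add_mod' (x + y - 1) y
    have h3 := Nat.mod_lt (x + y - 1) hy
    omega
  exact_mod_cast h1

theorem cdiv_le (x : ℕ) {y : ℕ} (hy : 0 < y) : (cdiv x y : ℝ) ≤ (x : ℝ) / y + 1 := by
  have h1 : cdiv x y * y ≤ x + y := by
    unfold cdiv
    have h2 := Nat.div_mul_le_self (x + y - 1) y
    omega
  have hy' : (0 : ℝ) < y := by exact_mod_cast hy
  rw [← sub_le_iff_le_add, le_div_iff₀ hy', sub_mul, one_mul]
  have h2 : (cdiv x y : ℝ) * y ≤ x + y := by exact_mod_cast h1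
  linarith

section cls

variable {m s l : ℕ}

/-- The classes that can be active. -/
theorem cls_le (h : 3 / 32 * thm m s < (1 / 2 : ℝ) ^ l) : l ≤ m * 2 ^ s + 3 := by
  by_contra hc
  have h1 : (1 / 2 : ℝ) ^ l ≤ (1 / 2) ^ (m * 2 ^ s + 4) :=
    pow_le_pow_of_le_one (by norm_num) (by norm_num) (by omega)
  have h2 : (1 / 2 : ℝ) ^ (m * 2 ^ s + 4) = thm m s * (1 / 16) := by
    rw [pow_add]; unfold thm; norm_num
  have h3 := thm_pos m s
  rw [h2] at h1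
  linarith

theorem cls_le' (h : 3 / 4 * thm m s < (1 / 2 : ℝ) ^ l) : l ≤ m * 2 ^ s := by
  by_contra hc
  have h1 : (1 / 2 : ℝ) ^ l ≤ (1 / 2) ^ (m * 2 ^ s + 1) :=
    pow_le_pow_of_le_one (by norm_num) (by norm_num) (by omega)
  have h2 : (1 / 2 : ℝ) ^ (m * 2 ^ s + 1) = thm m s * (1 / 2) := by
    rw [pow_add, pow_one]; unfold thm; norm_num
  have h3 := thm_pos m s
  rw [h2] at h1
  linarith

theorem dlm_le_cls (h : 3 / 32 * thm m s < (1 / 2 : ℝ) ^ l) :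
    dlm m s ≤ 32 / 3 * (thm m s * (1 / 2) ^ l) := by
  have h0 := thm_pos m s
  rw [dlm_sq]
  nlinarith

theorem two_pow_cls {Tu : ℕ} (hm : 3 ≤ m * 2 ^ s) (hTu : 2 ^ (2 * m * 2 ^ s) ≤ Tu)
    (h : 3 / 32 * thm m s < (1 / 2 : ℝ) ^ l) : 2 ^ l ≤ Tu := by
  have h1 := cls_le h
  refine (Nat.pow_le_pow_right (by norm_num) ?_).trans hTu
  have : 2 * m * 2 ^ s = m * 2 ^ s + m * 2 ^ s := by ring
  omega

end cls

section cap

variable {m s l Tu : ℕ}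

/-- The capacity is at least `10 / 2 ^ l` units. -/
theorem cap_ge : 10 * (Tu : ℝ) * (1 / 2) ^ l ≤ (cdiv (10 * Tu) (2 ^ l) : ℝ) := by
  refine le_trans (le_of_eq ?_) (cdiv_ge (10 * Tu) (y := 2 ^ l) (by positivity))
  rw [one_div, inv_pow]
  push_cast
  ring

theorem cap_pos (hTu : 0 < Tu) : (0 : ℝ) < (cdiv (10 * Tu) (2 ^ l) : ℝ) := by
  refine lt_of_lt_of_le ?_ cap_ge
  have : (0 : ℝ) < Tu := by exact_mod_cast hTu
  positivity

theorem cap_le (hTu : 2 ^ l ≤ Tu) :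
    (cdiv (10 * Tu) (2 ^ l) : ℝ) / Tu ≤ 11 * (1 / 2) ^ l := by
  have h0 : 0 < Tu := lt_of_lt_of_le (by positivity) hTu
  have h0' : (0 : ℝ) < Tu := by exact_mod_cast h0
  have h1 := cdiv_le (10 * Tu) (y := 2 ^ l) (by positivity)
  rw [div_le_iff₀ h0']
  have h2 : (1 : ℝ) ≤ Tu * (1 / 2) ^ l := by
    have h3 : (2 : ℝ) ^ l ≤ Tu := by exact_mod_cast hTu
    have h4 : (2 : ℝ) ^ l * (1 / 2) ^ l = 1 := by rw [← mul_pow]; norm_num
    have h5 : (0 : ℝ) < (1 / 2) ^ l := by positivity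
    nlinarith
  have h6 : ((10 * Tu : ℕ) : ℝ) / ((2 ^ l : ℕ) : ℝ) = 10 * (Tu * (1 / 2) ^ l) := by
    rw [one_div, inv_pow]; push_cast; ring
  rw [h6] at h1
  linarith

/-- The factor of the rows: `K + 2` rows for `K` units. -/
theorem rows_le {K : ℕ} (hK : 2 ≤ K) : ((K + 2 : ℕ) : ℝ) / (K : ℝ) ≤ 2 := by
  have : (2 : ℝ) ≤ K := by exact_mod_cast hK
  rw [div_le_iff₀ (by linarith)]
  push_cast
  linarith

theorem capK_le {K : ℕ} (hK : 2 ≤ K) (hTu : 2 ^ l ≤ Tu) :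
    ((K + 2 : ℕ) : ℝ) / (K : ℝ) * ((cdiv (10 * Tu) (2 ^ l) : ℝ) / Tu) ≤ 22 * (1 / 2) ^ l := by
  have h1 := cap_le hTu
  have h2 := rows_le hK
  have h3 : 0 ≤ (cdiv (10 * Tu) (2 ^ l) : ℝ) / Tu := by positivity
  calc ((K + 2 : ℕ) : ℝ) / (K : ℝ) * ((cdiv (10 * Tu) (2 ^ l) : ℝ) / Tu)
      ≤ 2 * (11 * (1 / 2) ^ l) := mul_le_mul h2 h1 h3 (by norm_num)
    _ = _ := by ring

/-- `hcap` of `region_h3b`, with `cN = 8 / 2 ^ l`. -/
theorem hcap_num {ε r : ℝ} (hTu : 0 < Tu) (h : 3 / 32 * thm m s < (1 / 2 : ℝ) ^ l)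
    (hε : ε ≤ dlm m s) (hr : r ≤ 4 * (Tu * dlm m s)) (hth : 48 * thm m s ≤ 1) :
    (Tu : ℝ) * (8 * (1 / 2) ^ l + ε) + 2 * r ≤ (cdiv (10 * Tu) (2 ^ l) : ℝ) := by
  refine le_trans ?_ cap_ge
  have h0 : (0 : ℝ) < Tu := by exact_mod_cast hTu
  have h1 := thm_pos m s
  have h2 : 9 * dlm m s ≤ 2 * (1 / 2) ^ l := by
    rw [dlm_sq]
    nlinarith
  have h3 : (Tu : ℝ) * (9 * dlm m s) ≤ Tu * (2 * (1 / 2) ^ l) := mul_le_mul_of_nonneg_left h2 h0.le
  have h4 : (Tu : ℝ) * ε ≤ Tu * dlm m s := mul_le_mul_of_nonneg_left hε h0.le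
  nlinarith

/-- The price of a class. -/
theorem price_le {K : ℕ} (hm : 1 ≤ m) (hK : 2 ≤ K) (hTu : 2 ^ l ≤ Tu) :
    ((K + 2 : ℕ) : ℝ) / (K : ℝ) * ((cdiv (10 * Tu) (2 ^ l) : ℝ) / Tu * Real.log (EF m s)) ≤
      22 * (1 / 2) ^ l * (33 * m * 2 ^ s) := by
  rw [← mul_assoc]
  refine mul_le_mul (capK_le hK hTu) (log_EF hm s) (Real.log_natCast_nonneg _) (by positivity)

end cap

/-- **The error of one round.** -/
theorem eventually_er : ∀ᶠ m : ℕ in atTop, ∀ (s l K Tu : ℕ) (ε rb d : ℝ), 2 ≤ K → 2 ^ l ≤ Tu →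
    3 / 32 * thm m s < (1 / 2 : ℝ) ^ l → ε ≤ dlm m s → rb ≤ 8 * (Tu * dlm m s) →
    d ≤ 5 * (Tu * dlm m s) →
    2 * ε + (4 * rb + 2 * d) / Tu + ((K + 2 : ℕ) : ℝ) / (K : ℝ) *
      ((cdiv (10 * Tu) (2 ^ l) : ℝ) / Tu *
        (4 * dlm m s + H782.err1 (EF m s) (TF m s) (TF m s / ShF m s : ℝ) / dlm m s)) ≤
      640 * (thm m s * (1 / 2) ^ l) := by
  filter_upwards [eventually_err1] with m hm s l K Tu ε rb d hK hTu hl hε hrb hd
  have h0 := thm_pos m s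
  have hd0 := dlm_pos' m s
  have hT0 : 0 < Tu := lt_of_lt_of_le (by positivity) hTu
  have hT : (0 : ℝ) < Tu := by exact_mod_cast hT0
  have hp : (0 : ℝ) < (1 / 2) ^ l := by positivity
  have e1 := dlm_le_cls hl
  have e2 : (4 * rb + 2 * d) / Tu ≤ 42 * dlm m s := by
    rw [div_le_iff₀ hT]
    linarith
  have e3 : H782.err1 (EF m s) (TF m s) (TF m s / ShF m s : ℝ) / dlm m s ≤ 2 * dlm m s := by
    rw [div_le_iff₀ hd0]
    refine (hm s).trans (le_of_eq ?_)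
    ring
  have e4 := capK_le hK hTu (l := l)
  have e5 : dlm m s ≤ thm m s := by
    rw [dlm_sq]
    have : thm m s ≤ 1 := H508.th_le_one m s
    nlinarith
  have e6 : ((K + 2 : ℕ) : ℝ) / (K : ℝ) * ((cdiv (10 * Tu) (2 ^ l) : ℝ) / Tu *
        (4 * dlm m s + H782.err1 (EF m s) (TF m s) (TF m s / ShF m s : ℝ) / dlm m s)) ≤
      132 * (thm m s * (1 / 2) ^ l) := by
    rw [← mul_assoc]
    have f0 : (0 : ℝ) ≤ ((K + 2 : ℕ) : ℝ) / (K : ℝ) * ((cdiv (10 * Tu) (2 ^ l) : ℝ) / Tu) := by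
      positivity
    calc ((K + 2 : ℕ) : ℝ) / (K : ℝ) * ((cdiv (10 * Tu) (2 ^ l) : ℝ) / Tu) *
          (4 * dlm m s + H782.err1 (EF m s) (TF m s) (TF m s / ShF m s : ℝ) / dlm m s)
        ≤ ((K + 2 : ℕ) : ℝ) / (K : ℝ) * ((cdiv (10 * Tu) (2 ^ l) : ℝ) / Tu) * (6 * dlm m s) :=
          mul_le_mul_of_nonneg_left (by linarith) f0
      _ ≤ 22 * (1 / 2) ^ l * (6 * dlm m s) := mul_le_mul_of_nonneg_right e4 (by positivity)
      _ ≤ 22 * (1 / 2) ^ l * (6 * thm m s) := by gcongr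
      _ = _ := by ring
  nlinarith

/-- **The thresholds.** -/
theorem eventually_thr {eps0 : ℝ} (he : 0 < eps0) (C : ℝ) : ∀ᶠ m : ℕ in atTop,
    (∀ s, 1 ≤ s → 5 / 4 * thpm eps0 m s < 1 ∧ 3 * thpm eps0 m s < 1) ∧
    (∀ s, 48 * thm m s ≤ 1 ∧ C * dlm m s ≤ thm m s) ∧
    (∀ s, (1 / 2 : ℝ) ^ (20 * m * 2 ^ s) ≤ 3 / 32 * thm m s) ∧
    (∀ s, 3 ≤ m * 2 ^ s) := by
  have hA : ∀ᶠ m : ℕ in atTop, ∀ s, 1 ≤ s → 3 * thpm eps0 m s < 1 := by
    have h1 := H508.master (48 / eps0) 4 0 (ε := 1 / 32) (by norm_num) (by positivity)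
      (by norm_num)
    filter_upwards [h1, eventually_ge_atTop 1] with m hm hm1 s hs
    obtain ⟨s', rfl⟩ : ∃ s', s = s' + 1 := ⟨s - 1, by omega⟩
    have h2 := hm s'
    rw [pow_zero, mul_one] at h2
    have h3 : thpm eps0 m (s' + 1) = 4 * (16 / eps0 * 4 ^ s' * (1 / 2) ^ (m * 2 ^ s')) := by
      unfold thpm thm
      rw [Nat.add_sub_cancel]
      ring
    have h4 : (1 / 2 : ℝ) ^ s' ≤ 1 := pow_le_one₀ (by norm_num) (by norm_num)
    rw [h3]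
    have h5 : 48 / eps0 * 4 ^ s' * (1 / 2 : ℝ) ^ (m * 2 ^ s') =
        3 * (16 / eps0 * 4 ^ s' * (1 / 2) ^ (m * 2 ^ s')) := by ring
    rw [h5] at h2
    linarith
  have hB : ∀ᶠ m : ℕ in atTop, ∀ s, 48 * thm m s ≤ 1 ∧ C * dlm m s ≤ thm m s := by
    have h1 := H508.ev_pow_le (max 48 |C|) 0 one_pos
    filter_upwards [h1] with m hm s
    rw [pow_zero, mul_one] at hm
    have h2 : thm m s ≤ (1 / 2 : ℝ) ^ m := by
      unfold thm
      refine pow_le_pow_of_le_one (by norm_num) (by norm_num) ?_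
      exact Nat.le_mul_of_pos_right _ (by positivity)
    have h0 := thm_pos m s
    have h3 : max 48 |C| * thm m s ≤ 1 := by
      have : (0 : ℝ) ≤ max 48 |C| := le_max_of_le_left (by norm_num)
      nlinarith
    constructor
    · have : 48 ≤ max 48 |C| := le_max_left _ _
      nlinarith
    · rw [dlm_sq]
      have h4 : C ≤ max 48 |C| := (le_abs_self C).trans (le_max_right _ _)
      nlinarith
  filter_upwards [hA, hB, eventually_ge_atTop 3] with m h1 h2 hm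
  refine ⟨fun s hs => ⟨?_, h1 s hs⟩, h2, fun s => ?_, fun s => ?_⟩
  · have h3 := h1 s hs
    have h4 : 0 < thpm eps0 m s := by
      unfold thpm
      have := thm_pos m (s - 1)
      positivity
    linarith
  · have h3 : m * 2 ^ s + 4 ≤ 20 * m * 2 ^ s := by
      have : 3 ≤ m * 2 ^ s := hm.trans (Nat.le_mul_of_pos_right _ (by positivity))
      nlinarith
    have h4 : (1 / 2 : ℝ) ^ (20 * m * 2 ^ s) ≤ (1 / 2) ^ (m * 2 ^ s + 4) :=
      pow_le_pow_of_le_one (by norm_num) (by norm_num) h3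
    have h5 : (1 / 2 : ℝ) ^ (m * 2 ^ s + 4) = thm m s * (1 / 16) := by
      rw [pow_add]; unfold thm; norm_num
    have h6 := thm_pos m s
    rw [h5] at h4
    linarith
  · exact hm.trans (Nat.le_mul_of_pos_right _ (by positivity))

/-- The thresholds of two scales. -/
theorem eventually_thr2 {eps0 : ℝ} (he : 0 < eps0) (C : ℝ) (hC : 0 ≤ C) : ∀ᶠ m : ℕ in atTop,
    ∀ s t, 1 ≤ s → s + 2 ≤ t → C * thpm eps0 m t ≤ thm m s := by
  have h1 := H508.master (C * 16 / eps0 * 16) 4 0 (ε := 1) (by norm_num) (by positivity)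
    (by norm_num)
  filter_upwards [h1, eventually_ge_atTop 1] with m hm hm1 s t hs hst
  obtain ⟨t', rfl⟩ : ∃ t', t = t' + 2 := ⟨t - 2, by omega⟩
  have h2 := hm t'
  rw [pow_zero, mul_one, one_mul] at h2
  have h3 : thpm eps0 m (t' + 2) = 16 * 16 / eps0 * 4 ^ t' *
      ((1 / 2) ^ (m * 2 ^ t') * (1 / 2) ^ (m * 2 ^ t')) := by
    unfold thpm thm
    have : t' + 2 - 1 = t' + 1 := by omega
    rw [this, ← pow_add]
    have e : m * 2 ^ (t' + 1) = m * 2 ^ t' + m * 2 ^ t' := by ring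
    rw [e, pow_add 4 t' 2]
    ring
  have h4 : (1 / 2 : ℝ) ^ t' ≤ 1 := pow_le_one₀ (by norm_num) (by norm_num)
  have h5 : thm m t' ≤ thm m s := by
    unfold thm
    refine pow_le_pow_of_le_one (by norm_num) (by norm_num) ?_
    exact Nat.mul_le_mul_left _ (Nat.pow_le_pow_right (by norm_num) (by omega))
  have h6 := thm_pos m t'
  have h7 : (1 / 2 : ℝ) ^ (m * 2 ^ t') = thm m t' := rfl
  rw [h7] at h2 h3
  rw [h3]
  calc C * (16 * 16 / eps0 * 4 ^ t' * (thm m t' * thm m t'))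
      = (C * 16 / eps0 * 16 * 4 ^ t' * thm m t') * thm m t' := by ring
    _ ≤ 1 * thm m t' := mul_le_mul_of_nonneg_right (h2.trans h4) h6.le
    _ ≤ thm m s := by rw [one_mul]; exact h5

/-- Number of edges of a row. -/
theorem card_edges (m s : ℕ) : Fintype.card
    (Fin (2 * (2 ^ (20 * m)) ^ 2 ^ s * (C.famMP m).g s + 1) ×
      Fin (2 * (2 ^ (20 * m)) ^ 2 ^ s * (C.famMP m).g s + 1)) = EF m s := by
  rw [Fintype.card_prod, Fintype.card_fin, famMP_g]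
  unfold EF
  ring

/-- The number of units. -/
theorem two_le_units {m : ℕ} (hm : 1 ≤ m) (s : ℕ) : 2 ≤ (2 ^ (20 * m)) ^ 2 ^ s := by
  rw [← pow_mul]
  calc 2 = 2 ^ 1 := rfl
    _ ≤ 2 ^ (20 * m * 2 ^ s) := Nat.pow_le_pow_right (by norm_num)
        (Nat.mul_pos (by omega) (by positivity))

/-- The length of the blocks. -/
theorem famMP_Dl_cast (m s : ℕ) : (((C.famMP m).Dl s : ℕ) : ℝ) = 16 ^ s * (m : ℝ) ^ 2 := by
  rw [famMP_Dl]
  unfold DF
  push_cast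
  ring

/-- The unit lengths. -/
theorem unit_dvd {m S l' μ s j : ℕ} (hS : 2 ^ (2 * m * 2 ^ S) ∣ l' / μ) (hμ : μ ∣ l')
    (hs : s ≤ S) : μ ∣ l' * (2 ^ (20 * m)) ^ j / 2 ^ (2 * m * 2 ^ s) ∧
      2 ^ (2 * m * 2 ^ s) ∣ l' * (2 ^ (20 * m)) ^ j := by
  obtain ⟨c, rfl⟩ := hμ
  rcases Nat.eq_zero_or_pos μ with h0 | h0
  · subst h0
    simp
  rw [Nat.mul_div_cancel_left _ h0] at hS
  have h1 : 2 ^ (2 * m * 2 ^ s) ∣ c :=
    (pow_dvd_pow 2 (Nat.mul_le_mul_left _ (Nat.pow_le_pow_right (by norm_num) hs))).trans hS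
  obtain ⟨e, rfl⟩ := h1
  have h2 : (0 : ℕ) < 2 ^ (2 * m * 2 ^ s) := by positivity
  constructor
  · have : μ * (2 ^ (2 * m * 2 ^ s) * e) * (2 ^ (20 * m)) ^ j =
        2 ^ (2 * m * 2 ^ s) * (μ * (e * (2 ^ (20 * m)) ^ j)) := by ring
    rw [this, Nat.mul_div_cancel_left _ h2]
    exact Dvd.intro _ rfl
  · exact Dvd.dvd.mul_right (Dvd.dvd.mul_left (Dvd.intro _ rfl) _) _

end Vale.Agent.P315.Par
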