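import Vale.Agent.P315.H784.Levels

/-! The choice of the numbers of the query theorem: `ε → eps0, cd → m → k → n0`. -/

set_option autoImplicit false

open Finset Filter

namespace Vale.Agent.P315.Par

/-! ### The value -/

/-- Final arithmetic of the value half. `E` is the mean excess of the root (per unit of weight). -/
theorem value_arith {ε : ℝ} (hε : 0 < ε) : ∃ eps0 : ℝ, 0 < eps0 ∧ eps0 ≤ 1 ∧ ∃ cd : ℕ, 0 < cd ∧
    1 / (cd : ℝ) ≤ eps0 ∧
    ∀ (D0 J : ℝ), ∃ n0 : ℕ, ∀ n : ℕ, n0 ≤ n → ∀ S : ℕ, 2 ^ S ≤ 6 * (Nat.log 2 (n + 2) + 2) →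
      ∀ Gam He Cap Fail E : ℝ,
        Gam ≤ n / cd + 16 ^ S * D0 + J * √n / 2 + 1 → He ≤ eps0 * n → Cap ≤ eps0 * n →
        Fail ≤ eps0 * n →
        n * E ≤ (4 + eps0) * Gam + 4 * eps0 * n + He + Cap + Fail → E ≤ ε := by
  set e : ℝ := min 1 (ε / 40) with he
  have he0 : 0 < e := lt_min one_pos (by positivity)
  have he1 : e ≤ 1 := min_le_left _ _
  have heε : 40 * e ≤ ε := by
    have := min_le_right 1 (ε / 40)
    linarith
  obtain ⟨cd, hcd⟩ := exists_nat_ge (1 / e)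
  have hcd0 : (0 : ℝ) < cd := lt_of_lt_of_le (by positivity) hcd
  have hcd' : 1 / (cd : ℝ) ≤ e := by
    rw [div_le_iff₀ hcd0]
    rw [div_le_iff₀ he0] at hcd
    linarith
  refine ⟨e, he0, he1, cd, by exact_mod_cast hcd0, hcd', fun D0 J => ?_⟩
  obtain ⟨n1, h1⟩ := exists_smalls (max D0 1) he0 4
  obtain ⟨n2, hn2⟩ := exists_nat_ge ((|J| / e) ^ 2)
  refine ⟨max n1 (max n2 1), fun n hn S hS Gam He Cap Fail E hG hHe hCap hFail hE => ?_⟩
  have hn1 : n1 ≤ n := (le_max_left _ _).trans hn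
  have hn2' : n2 ≤ n := ((le_max_left _ _).trans (le_max_right _ _)).trans hn
  have hn3 : 1 ≤ n := ((le_max_right _ _).trans (le_max_right _ _)).trans hn
  have npos : (0 : ℝ) < n := by exact_mod_cast hn3
  have a1 := h1 n hn1 S hS 4 le_rfl
  have a2 := h1 n hn1 S hS 0 (by norm_num)
  rw [pow_zero, mul_one] at a2
  have b1 : (16 : ℝ) ^ S * D0 ≤ e * n := by
    refine le_trans ?_ a1
    have e16 : (16 : ℝ) ^ S = ((2 : ℝ) ^ S) ^ 4 := by
      rw [← pow_mul, mul_comm S 4, pow_mul]; norm_num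
    rw [e16, mul_comm]
    exact mul_le_mul_of_nonneg_right (le_max_left _ _) (by positivity)
  have b2 : (1 : ℝ) ≤ e * n := (le_max_right _ _).trans a2
  have b3 : J * √n ≤ e * n := by
    have c1 : |J| ≤ e * √n := by
      have c2 : (|J| / e) ^ 2 ≤ n := hn2.trans (by exact_mod_cast hn2')
      have c3 : |J| / e ≤ √n := Real.le_sqrt_of_sq_le c2
      rw [div_le_iff₀ he0] at c3
      linarith
    calc J * √n ≤ |J| * √n := mul_le_mul_of_nonneg_right (le_abs_self J) (Real.sqrt_nonneg _)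
      _ ≤ (e * √n) * √n := mul_le_mul_of_nonneg_right c1 (Real.sqrt_nonneg _)
      _ = e * n := by rw [mul_assoc, Real.mul_self_sqrt npos.le]
  have b4 : (n : ℝ) / cd ≤ e * n := by
    calc (n : ℝ) / cd = 1 / cd * n := by ring
      _ ≤ e * n := mul_le_mul_of_nonneg_right hcd' npos.le
  have b5 : Gam ≤ 4 * (e * n) := by
    have : 0 ≤ e * n := by positivity
    linarith
  have b6 : (4 + e) * Gam ≤ 5 * (4 * (e * n)) := by
    have c1 : (4 + e) * Gam ≤ (4 + e) * (4 * (e * n)) :=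
      mul_le_mul_of_nonneg_left b5 (by linarith)
    have c2 : (4 + e) * (4 * (e * n)) ≤ 5 * (4 * (e * n)) :=
      mul_le_mul_of_nonneg_right (by linarith) (by positivity)
    linarith
  have b7 : n * E ≤ n * ε := by
    have : 27 * (e * n) ≤ ε * n := by
      have : 27 * e ≤ ε := by linarith
      nlinarith
    linarith
  exact le_of_mul_le_mul_left b7 npos

/-! ### The jitters and the root index -/

/-- A power of two between `K1 m^2 2^m` and twice that. -/
theorem exists_k {K1 : ℝ} (hK1 : 1 ≤ K1) {m : ℕ} (hm : 1 ≤ m) : ∃ k : ℕ, 1 ≤ k ∧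
    K1 * (m : ℝ) ^ 2 * 2 ^ m ≤ 2 ^ k ∧ (2 : ℝ) ^ k ≤ 2 * (K1 * (m : ℝ) ^ 2 * 2 ^ m) := by
  have m1 : (1 : ℝ) ≤ m := by exact_mod_cast hm
  have h2m : (2 : ℝ) ≤ 2 ^ m := by
    calc (2 : ℝ) = 2 ^ 1 := by norm_num
      _ ≤ 2 ^ m := pow_le_pow_right₀ (by norm_num) hm
  set x : ℝ := K1 * (m : ℝ) ^ 2 * 2 ^ m with hx
  have hx2 : 2 ≤ x := by
    have : (1 : ℝ) ≤ K1 * (m : ℝ) ^ 2 := by nlinarith
    nlinarith
  classical
  have hex : ∃ k : ℕ, x ≤ 2 ^ k := pow_unbounded_of_one_lt x (by norm_num) |>.imp fun _ h => h.le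
  refine ⟨Nat.find hex, ?_, Nat.find_spec hex, ?_⟩
  · by_contra h
    have h0 : Nat.find hex = 0 := by omega
    have := Nat.find_spec hex
    rw [h0, pow_zero] at this
    linarith
  · rcases Nat.eq_zero_or_pos (Nat.find hex) with h0 | h0
    · rw [h0, pow_zero]; linarith
    · have h1 := Nat.find_min hex (m := Nat.find hex - 1) (by omega)
      have h2 : (2 : ℝ) ^ Nat.find hex = 2 * 2 ^ (Nat.find hex - 1) := by
        rw [← pow_succ']; congr 1; omega
      rw [h2]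
      linarith [not_le.1 h1]

end Vale.Agent.P315.Par
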