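import Vale.Agent.P315.H784.Select
import Vale.Agent.P315.H808.QT3
import Vale.Agent.P315.C.FamArea

/-! The query theorem `StmtQT fam` from the rows: all numbers chosen. -/

set_option autoImplicit false

open Finset Filter

namespace Vale.Agent.P315.H784

open Vale.Agent.P315.C Vale.Agent.P315.H808

/-- The numbers of the value half: `ε → eps0, cd → (m, k) → n0`. -/
theorem qt_numbers {ε : ℝ} (hε : 0 < ε) (CL : ℝ) :
    ∃ eps0 : ℝ, 0 < eps0 ∧ eps0 ≤ 1 ∧ ∃ cd : ℕ, 0 < cd ∧ ∀ m k : ℕ, 1 ≤ k → ∃ n0 : ℕ,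
      ∀ n S : ℕ, n0 ≤ n → (n + 2) ^ 3 ≤ (2 ^ m) ^ 2 ^ S →
      2 ^ S ≤ 6 * (Nat.log 2 (n + 2) + 2) →
      0 < n ∧ 0 ≤ famN k cd n ∧
      ((famN k cd n : ℤ) : ℝ) ≤ (n : ℝ) * ((2 ^ k - 1 : ℕ) : ℝ) / 2 ∧
      (5 / 2 + 5 / 2 * (CL * m) + 12 * m) * 4 ^ S ≤ eps0 * n ∧
      (n : ℝ) * (((n * (2 ^ k - 1) + 1 : ℕ) : ℝ) * Par.thm m S) ≤ eps0 * n ∧
      (4 + eps0) * (((n : ℝ) * ((2 ^ k - 1 : ℕ) : ℝ) / 2 - ((famN k cd n : ℤ) : ℝ) +
        16 ^ S * (m : ℝ) ^ 2) + ((2 ^ k - 1 : ℕ) : ℝ) * Real.sqrt n / 2) + 4 * eps0 * n +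
        eps0 * n + eps0 * n + eps0 * n ≤ ε * n := by
  set e : ℝ := min (1 / 4) (ε / 40) with he
  have he0 : 0 < e := lt_min (by norm_num) (by positivity)
  have he4 : e ≤ 1 / 4 := min_le_left _ _
  have heε : 40 * e ≤ ε := by
    have := min_le_right (1 / 4) (ε / 40)
    linarith
  obtain ⟨cd, hcd⟩ := exists_nat_ge (1 / e)
  have hcd0 : (0 : ℝ) < cd := lt_of_lt_of_le (by positivity) hcd
  have hcdN : 0 < cd := by exact_mod_cast hcd0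
  have hcd' : 1 / (cd : ℝ) ≤ e := by
    rw [div_le_iff₀ hcd0]
    rw [div_le_iff₀ he0] at hcd
    linarith
  refine ⟨e, he0, by linarith, cd, hcdN, fun m k hk => ?_⟩
  set J : ℕ := 2 ^ k - 1 with hJdef
  have hJ1 : (1 : ℝ) ≤ J := by
    have h2 : 2 ≤ 2 ^ k := by
      calc 2 = 2 ^ 1 := by norm_num
        _ ≤ 2 ^ k := Nat.pow_le_pow_right (by norm_num) hk
    have : 1 ≤ J := by omega
    exact_mod_cast this
  obtain ⟨n1, h1⟩ := Par.exists_smalls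
    (max (max ((m : ℝ) ^ 2) (5 / 2 + 5 / 2 * (CL * m) + 12 * m)) ((J : ℝ) + 8)) he0 4
  obtain ⟨n2, hn2⟩ := exists_nat_ge (((J : ℝ) / e) ^ 2)
  refine ⟨max n1 (max n2 1), fun n S hn hS3 hS => ?_⟩
  have hn1 : n1 ≤ n := (le_max_left _ _).trans hn
  have hn2' : n2 ≤ n := ((le_max_left _ _).trans (le_max_right _ _)).trans hn
  have hn3 : 1 ≤ n := ((le_max_right _ _).trans (le_max_right _ _)).trans hn
  have npos : (0 : ℝ) < n := by exact_mod_cast hn3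
  have a4 := h1 n hn1 S hS 4 le_rfl
  have a2 := h1 n hn1 S hS 2 (by norm_num)
  have a0 := h1 n hn1 S hS 0 (by norm_num)
  rw [pow_zero, mul_one] at a0
  have b1 : (16 : ℝ) ^ S * (m : ℝ) ^ 2 ≤ e * n := by
    refine le_trans ?_ a4
    have e16 : (16 : ℝ) ^ S = ((2 : ℝ) ^ S) ^ 4 := by
      rw [← pow_mul, mul_comm S 4, pow_mul]; norm_num
    rw [e16, mul_comm]
    exact mul_le_mul_of_nonneg_right ((le_max_left _ _).trans (le_max_left _ _)) (by positivity)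
  have b2 : (5 / 2 + 5 / 2 * (CL * m) + 12 * m) * 4 ^ S ≤ e * n := by
    refine le_trans ?_ a2
    have e4 : (4 : ℝ) ^ S = ((2 : ℝ) ^ S) ^ 2 := by
      rw [← pow_mul, mul_comm S 2, pow_mul]; norm_num
    rw [e4]
    exact mul_le_mul_of_nonneg_right ((le_max_right _ _).trans (le_max_left _ _)) (by positivity)
  have b3 : (J : ℝ) + 8 ≤ e * n := (le_max_right _ _).trans a0
  have b4 : (J : ℝ) * Real.sqrt n ≤ e * n := by
    have c1 : (J : ℝ) ≤ e * Real.sqrt n := by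
      have c2 : ((J : ℝ) / e) ^ 2 ≤ n := hn2.trans (by exact_mod_cast hn2')
      have c3 : (J : ℝ) / e ≤ Real.sqrt n := Real.le_sqrt_of_sq_le c2
      rw [div_le_iff₀ he0] at c3
      linarith
    calc (J : ℝ) * Real.sqrt n ≤ (e * Real.sqrt n) * Real.sqrt n :=
          mul_le_mul_of_nonneg_right c1 (Real.sqrt_nonneg _)
      _ = e * n := by rw [mul_assoc, Real.mul_self_sqrt npos.le]
  have b5 : (1 : ℝ) / cd * n ≤ e * n := mul_le_mul_of_nonneg_right hcd' npos.le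
  have b5' : 0 ≤ (1 : ℝ) / cd * n := by positivity
  have f1 := famN_le (k := k) (n := n) hcdN
  have f2 := famN_ge (k := k) (n := n) hcdN
  rw [← hJdef] at f1 f2
  set N : ℤ := famN k cd n with hN
  have en : e * n ≤ 1 / 4 * n := mul_le_mul_of_nonneg_right he4 npos.le
  have ff : ((J : ℝ) / 2 - 1 / cd) * n = (n : ℝ) * (J : ℝ) / 2 - 1 / cd * n := by ring
  rw [ff] at f1 f2
  have hJn : (1 : ℝ) * n ≤ J * n := mul_le_mul_of_nonneg_right hJ1 npos.le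
  refine ⟨hn3, ?_, ?_, b2, ?_, ?_⟩
  · have h0 : (0 : ℝ) ≤ (N : ℝ) := by linarith
    exact_mod_cast h0
  · linarith
  · refine Par.last_scale_le (J := (J : ℝ)) (by linarith) ?_ (by linarith) hS3
    push_cast
    linarith
  · have hen : 0 ≤ e * n := by positivity
    have g1 : (n : ℝ) * (J : ℝ) / 2 - (N : ℝ) ≤ e * n + 2 := by linarith
    have g2 : ((n : ℝ) * (J : ℝ) / 2 - (N : ℝ) + 16 ^ S * (m : ℝ) ^ 2) +
        (J : ℝ) * Real.sqrt n / 2 ≤ 4 * (e * n) := by linarith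
    have g3 : (4 + e) * (((n : ℝ) * (J : ℝ) / 2 - (N : ℝ) + 16 ^ S * (m : ℝ) ^ 2) +
        (J : ℝ) * Real.sqrt n / 2) ≤ 5 * (4 * (e * n)) := by
      have k1 := mul_le_mul_of_nonneg_left g2 (by linarith : 0 ≤ 4 + e)
      have k2 : (4 + e) * (4 * (e * n)) ≤ 5 * (4 * (e * n)) :=
        mul_le_mul_of_nonneg_right (by linarith) (by positivity)
      linarith
    have g4 : 27 * (e * n) ≤ ε * n := by
      have h27 : 27 * e ≤ ε := by linarith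
      calc 27 * (e * n) = 27 * e * n := by ring
        _ ≤ ε * n := mul_le_mul_of_nonneg_right h27 npos.le
    linarith

/-- What the machines and the jitters owe for one choice `Q` of the parameters. -/
def RowsQ (eps0 CL : ℝ) (m S : ℕ) (Q : QPar) (η : ℝ) : Prop :=
  ∀ (vis hid : Leaf) (C : Chain Q.P vis hid Q.n) (K : CutPar Q C)
    [Nonempty (Fin (Q.P.M ^ Q.n))] (hI : Inst Q.P vis hid Q.n η C),
    (∀ i, C.w i = Q.P.ℓ) → K.lo = Q.N - (16 ^ S * m ^ 2 : ℕ) → K.smax = S →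
    K.NB = Q.n * Q.P.J + 1 → K.D0 = m ^ 2 → K.pb = 0 →
    RowsOK eps0 CL m (eps0 * Q.n) (eps0 * Q.n) (eps0 * Q.n) K hI

/-- **What the machines and the jitters owe** for the family `F`: for every `eps0` there are
constants such that for all instances the three error terms are at most `eps0 n`. -/
def RowsFam (F : (m k cd n S ℓ μ B : ℕ) → QPar) (CL : ℝ) : Prop :=
  ∀ eps0 : ℝ, 0 < eps0 → eps0 ≤ 1 → ∃ K1 : ℕ, 1 ≤ K1 ∧ ∀ᶠ m : ℕ in atTop,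
    ∀ k cd : ℕ, 2 ≤ k → 0 < cd → K1 * m ^ 2 * 2 ^ m ≤ 2 ^ k → 2 ^ k ≤ 2 * K1 * m ^ 2 * 2 ^ m →
    ∃ a₀ n₀ : ℕ, ∀ n S ℓ μ B : ℕ, n₀ ≤ n → 2 ^ S ∣ n → (n + 2) ^ 3 ≤ (2 ^ m) ^ 2 ^ S →
      2 ^ S ≤ 6 * (Nat.log 2 (n + 2) + 2) → 0 < μ → μ ∣ ℓ → a₀ * (n + 2) ^ a₀ * μ ≤ ℓ →
      2 ^ (2 * m * 2 ^ S) ∣ ℓ / μ → 0 < ℓ →
      2 ^ (20 * m * n) * ℓ ≤ B → ∀ η : ℝ, 0 ≤ η → a₀ * (n + 2) ^ a₀ * η ≤ 1 →
      RowsQ eps0 CL m S (F m k cd n S ℓ μ B) η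

/-- **The query theorem from the rows.** -/
theorem stmtQT_of_rows {CL : ℝ} (hCL : 0 ≤ CL) (hrows : RowsFam fam CL) : StmtQT fam := by
  intro ε hε
  obtain ⟨eps0, he0, he1, cd, hcd, hnum⟩ := qt_numbers hε CL
  obtain ⟨K1, hK1, hR⟩ := hrows eps0 he0 he1
  have hall := (good_of_rows he0 hCL).and ((fam_area (2 * K1) (by omega) hcd).and
    (hR.and (eventually_ge_atTop 2)))
  obtain ⟨m, hgood, harea, hRm, hm2⟩ := hall.exists
  have hm1 : 1 ≤ m := by omega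
  obtain ⟨k, hk1, hk2, hk3⟩ := Par.exists_k (K1 := (K1 : ℝ)) (by exact_mod_cast hK1) hm1
  have hk2' : K1 * m ^ 2 * 2 ^ m ≤ 2 ^ k := by exact_mod_cast hk2
  have hk3' : 2 ^ k ≤ 2 * K1 * m ^ 2 * 2 ^ m := by
    have : (2 : ℝ) ^ k ≤ 2 * K1 * m ^ 2 * 2 ^ m := by linarith
    exact_mod_cast this
  have hk : 2 ≤ k := by
    by_contra h
    have h1 : k = 1 := by omega
    rw [h1, pow_one] at hk2'
    have h2 : 2 ^ 2 ≤ m ^ 2 := Nat.pow_le_pow_left hm2 2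
    have h3 : 1 ≤ 2 ^ m := Nat.one_le_two_pow
    have h4 : 4 ≤ K1 * m ^ 2 * 2 ^ m := by
      calc 4 = 1 * 2 ^ 2 * 1 := by norm_num
        _ ≤ K1 * m ^ 2 * 2 ^ m := by gcongr
    omega
  obtain ⟨a₀, n₁, hRk⟩ := hRm k cd hk hcd hk2' hk3'
  obtain ⟨n₂, hn₂⟩ := hnum m k hk1
  have hJ : (0 : ℝ) < ((2 ^ k - 1 : ℕ) : ℝ) := by
    have h2 : 4 ≤ 2 ^ k := by
      calc 4 = 2 ^ 2 := by norm_num
        _ ≤ 2 ^ k := Nat.pow_le_pow_right (by norm_num) hk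
    have : 0 < 2 ^ k - 1 := by omega
    exact_mod_cast this
  refine ⟨m, k, cd, a₀, max n₁ n₂, (1 / cd : ℝ) ^ 2 / ((2 ^ k - 1 : ℕ) : ℝ) ^ 2, 3, by omega,
    ?_, ?_⟩
  · have : (0 : ℝ) < cd := by exact_mod_cast hcd
    positivity
  intro n S ℓ μ B hn hSn hS3 hSl hμ hμℓ haμ hdvd hℓ hB η hη haη
  obtain ⟨q1, q2, q3, q4, q5, q6⟩ := hn₂ n S ((le_max_right _ _).trans hn) hS3 hSl
  refine hgood (fam m k cd n S ℓ μ B) S η ε _ (eps0 * n) (eps0 * n) (eps0 * n) fam_M_pos fam_q_pos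
    fam_J_dvd q1 hSn (fun _ _ _ _ => rfl) q2 q3 q4 q5 q6 ?_ ?_
  · exact hRk n S ℓ μ B ((le_max_left _ _).trans hn) hSn hS3 hSl hμ hμℓ haμ hdvd hℓ hB η hη haη
  · intro vis hid C hI hw
    have h := harea k hk hk3' n S ℓ μ B vis hid
    refine h.trans (le_of_eq ?_)
    rw [neg_mul]

end Vale.Agent.P315.H784
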