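import Vale.Agent.P315.H784.Final

/-! The error sum of the accounting theorem with arbitrary constants, along the levels of the
algorithm. -/

set_option autoImplicit false

open Finset Filter

namespace Vale.Agent.P315.Par

/-- One bracket with arbitrary constants `c1, c2, c3`. -/
noncomputable def bracketC (eps0 c1 c2 c3 : ℝ) (m : ℕ) (n : ℝ) (A B L N ED : ℕ → ℝ) (S s : ℕ) :
    ℝ :=
  16 * (thm m (s - 1) / thpm eps0 m s) * n + 2 ^ (s - 1) * A (s - 1) +
    2 ^ s * (1 + L s) * (c1 * (A s + B s) + c2 * ∑ t ∈ Icc (s + 2) S, 2 ^ (t - s + 1) * (1 + B t)) +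
    c3 * 2 ^ s * N s * (1 + B s) + 2 ^ s * ED s

theorem bracketC_le {eps0 c1 c2 c3 C : ℝ} (h1 : c1 ≤ 6 * C) (h2 : c2 ≤ 5 / 4 * C)
    (h3 : c3 ≤ 2 * C) {m : ℕ} {n : ℝ} {A B L N ED : ℕ → ℝ} {S s : ℕ}
    (hA : 0 ≤ A s) (hB : ∀ t, t ≤ S → 0 ≤ B t) (hs : s ≤ S) (hL : 0 ≤ L s) (hN : 0 ≤ N s) :
    bracketC eps0 c1 c2 c3 m n A B L N ED S s ≤
      bracket eps0 m n A B (fun s => C * (1 + L s)) (fun s => C * N s) ED S s := by
  unfold bracketC bracket
  have hBs := hB s hs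
  set Y := ∑ t ∈ Icc (s + 2) S, (2 : ℝ) ^ (t - s + 1) * (1 + B t) with hY
  have hY0 : 0 ≤ Y := sum_nonneg fun t ht => by
    have := hB t (mem_Icc.1 ht).2
    positivity
  have e1 : c1 * (A s + B s) + c2 * Y ≤ C * (6 * (A s + B s) + 5 / 4 * Y) := by
    have := mul_le_mul_of_nonneg_right h1 (add_nonneg hA hBs)
    have := mul_le_mul_of_nonneg_right h2 hY0
    linarith
  have e2 : 2 ^ s * (1 + L s) * (c1 * (A s + B s) + c2 * Y) ≤
      2 ^ s * (1 + C * (1 + L s)) * (6 * (A s + B s) + 5 / 4 * Y) := by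
    have f0 : 0 ≤ 6 * (A s + B s) + 5 / 4 * Y := by positivity
    calc 2 ^ s * (1 + L s) * (c1 * (A s + B s) + c2 * Y)
        ≤ 2 ^ s * (1 + L s) * (C * (6 * (A s + B s) + 5 / 4 * Y)) :=
          mul_le_mul_of_nonneg_left e1 (by positivity)
      _ = 2 ^ s * (C * (1 + L s)) * (6 * (A s + B s) + 5 / 4 * Y) := by ring
      _ ≤ _ := by
          refine mul_le_mul_of_nonneg_right ?_ f0
          refine mul_le_mul_of_nonneg_left ?_ (by positivity)
          linarith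
  have e3 : c3 * 2 ^ s * N s * (1 + B s) ≤ 2 ^ (s + 1) * (C * N s) * (1 + B s) := by
    have f1 : 0 ≤ 2 ^ s * N s * (1 + B s) := by positivity
    have := mul_le_mul_of_nonneg_right h3 f1
    calc c3 * 2 ^ s * N s * (1 + B s) = c3 * (2 ^ s * N s * (1 + B s)) := by ring
      _ ≤ 2 * C * (2 ^ s * N s * (1 + B s)) := this
      _ = _ := by rw [pow_succ]; ring
  linarith

/-- **The numbers of the conclusion, along the levels of the algorithm.** For all large `m`, all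
`M, q, J` and all long inputs (`n = lev`, `S = scalN`): the error terms of the accounting theorem
add up to at most `(4 + eps0) G + 4 eps0 n`. -/
theorem eventually_levels {eps0 : ℝ} (he : 0 < eps0) {CL CN c1 c2 c3 : ℝ} (hCL : 0 ≤ CL)
    (hCN : 0 ≤ CN) :
    ∀ᶠ m : ℕ in atTop, ∀ (M q : ℕ) (J : ℝ), 2 ≤ M → 1 ≤ q → 0 ≤ J → ∃ N0 : ℕ, ∀ N' : ℕ, N0 ≤ N' →
      ∀ (S n : ℕ), S = H809.scalN (2 ^ m) M q N' → n = H809.lev (2 ^ m) M q N' →
      ∀ (NB G : ℝ) (D A B L N ED : ℕ → ℝ), 0 ≤ G →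
      (∀ s, 16 ^ s * (m : ℝ) ^ 2 ≤ D s) →
      (∀ s, s ≤ S → 0 ≤ A s) → (∀ s, s ≤ S → 0 ≤ B s) →
      (∀ s, s ≤ S → A s ≤ G / D s) → (∀ s, s ≤ S → B s ≤ G / D s) →
      (∀ s, 1 ≤ s → s ≤ S → ED s ≤ 2 * n / D s) →
      (∀ s, 0 ≤ L s) → (∀ s, L s ≤ CL * m * 2 ^ s) →
      (∀ s, 0 ≤ N s) → (∀ s, N s ≤ CN * m * 2 ^ s) → NB ≤ J * n + 3 →
      4 * G + B 0 + n * (NB * thm m S) + 2 ^ S * A S +
        ∑ s ∈ Icc 1 S, bracketC eps0 c1 c2 c3 m n A B L N ED S s ≤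
          (4 + eps0) * G + 4 * eps0 * n := by
  set C : ℝ := max (max (c1 / 6) (4 / 5 * c2)) (max (c3 / 2) 0) with hCdef
  have hC0 : 0 ≤ C := (le_max_right _ _).trans (le_max_right _ _)
  have k1 : c1 ≤ 6 * C := by
    have : c1 / 6 ≤ C := (le_max_left _ _).trans (le_max_left _ _)
    linarith
  have k2 : c2 ≤ 5 / 4 * C := by
    have : 4 / 5 * c2 ≤ C := (le_max_right _ _).trans (le_max_left _ _)
    linarith
  have k3 : c3 ≤ 2 * C := by
    have : c3 / 2 ≤ C := (le_max_left _ _).trans (le_max_right _ _)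
    linarith
  have hCL' : 0 ≤ C * (1 + CL) := by positivity
  have hCN' : 0 ≤ C * CN := by positivity
  filter_upwards [eventually_budget he hCL' hCN', eventually_ge_atTop 1] with m hm hm1
  intro M q J hM hq hJ
  have m1 : (1 : ℝ) ≤ m := by exact_mod_cast hm1
  obtain ⟨N1, h1⟩ := exists_levels hM hq hm1
    (K := max (5 / 2 + 5 / 2 * (C * (1 + CL) * m) + 4 * (C * CN * m)) (J + 3)) he 2
  refine ⟨N1, fun N' hN' S n hS hn NB G D A B L N ED hG hD hA0 hB0 hA hB hED hL0 hL hN0 hN hNB => ?_⟩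
  obtain ⟨S', n', hS', hn', -, h3, h4, h5⟩ := h1 N' hN'
  obtain rfl : S' = S := by rw [hS, hS']
  obtain rfl : n' = n := by rw [hn, hn']
  have hn0 : (0 : ℝ) ≤ n' := Nat.cast_nonneg n'
  have hJn : J + 3 ≤ eps0 * n' := (le_max_right _ _).trans h5
  have h4S : (5 / 2 + 5 / 2 * (C * (1 + CL) * m) + 4 * (C * CN * m)) * 4 ^ S' ≤ eps0 * n' := by
    refine le_trans ?_ h4
    have e : (4 : ℝ) ^ S' = ((2 : ℝ) ^ S') ^ 2 := by rw [← pow_mul, mul_comm, pow_mul]; norm_num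
    rw [e]
    exact mul_le_mul_of_nonneg_right (le_max_left _ _) (by positivity)
  have hL' : ∀ s, C * (1 + L s) ≤ C * (1 + CL) * m * 2 ^ s := by
    intro s
    have f1 : (1 : ℝ) ≤ 2 ^ s := one_le_pow₀ (by norm_num)
    have f2 : (1 : ℝ) ≤ m * 2 ^ s := by nlinarith
    calc C * (1 + L s) ≤ C * (m * 2 ^ s + CL * m * 2 ^ s) := by
          have := hL s
          gcongr
      _ = _ := by ring
  have hN'' : ∀ s, C * N s ≤ C * CN * m * 2 ^ s := by
    intro s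
    calc C * N s ≤ C * (CN * m * 2 ^ s) := mul_le_mul_of_nonneg_left (hN s) hC0
      _ = _ := by ring
  have h6 := hm S' n' G D (fun s => C * (1 + L s)) (fun s => C * N s) hn0 hG hD
    (fun s => by have := hL0 s; positivity) hL' (fun s => by have := hN0 s; positivity) hN'' h4S
  have h7 : ∑ s ∈ Icc 1 S', bracketC eps0 c1 c2 c3 m n' A B L N ED S' s ≤
      ∑ s ∈ Icc 1 S', term eps0 G n' D (fun s => C * (1 + L s)) (fun s => C * N s) S' s := by
    refine sum_le_sum fun s hs => ?_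
    obtain ⟨hs1, hs2⟩ := mem_Icc.1 hs
    refine (bracketC_le k1 k2 k3 (hA0 s hs2) hB0 hs2 (hL0 s) (hN0 s)).trans ?_
    exact bracket_le he hs1 hs2 hA hB (by have := hL0 s; positivity)
      (by have := hN0 s; positivity) (hED s hs1 hs2)
  have h8 := last_scale_le hJ hNB hJn h3
  have h9 : B 0 ≤ G / (m : ℝ) ^ 2 := by
    refine (hB 0 (Nat.zero_le S')).trans ?_
    have h5 := hD 0
    rw [pow_zero, one_mul] at h5
    exact div_le_div_of_nonneg_left hG (by positivity) h5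
  have h10 : 2 ^ S' * A S' ≤ 2 ^ S' * G / D S' := by
    rw [mul_div_assoc]
    exact mul_le_mul_of_nonneg_left (hA S' le_rfl) (by positivity)
  linarith

end Vale.Agent.P315.Par
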