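import Vale.Agent.P315.H784.ErNum
import Vale.Agent.P315.H155.FamNum2
import Vale.Agent.P315.H155.MachWG

/-! The numbers of the weighted machine inequality (`H763.plugW`) for the machines of `fam2`: price
and error of one class, side conditions. -/

set_option autoImplicit false

open Finset Filter

namespace Vale.Agent.P315.H784

open Vale.Agent.P315.H155 (famMPW pW sF block_err_le size_pW_le)
open Vale.Agent.P315.H763 (errW)
open Vale.Agent.P315.Par (thm dlm thm_pos dlm_sq dlm_le_cls)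

theorem famMPW_g (m s : ℕ) : (famMPW m).g s = Par.gF m s := rfl
theorem famMPW_Dl (m s : ℕ) : (famMPW m).Dl s = Par.DF m s := rfl
theorem famMPW_C (m : ℕ) : (famMPW m).C = 66 := rfl
theorem famMPW_NL (m s : ℕ) : (famMPW m).NL s = m * 2 ^ s + 6 := rfl
theorem famMPW_R (m s : ℕ) : (famMPW m).R s = 2 ^ (m * 2 ^ s + 8) := rfl

theorem famMPW_Dl_cast (m s : ℕ) : (((famMPW m).Dl s : ℕ) : ℝ) = 16 ^ s * (m : ℝ) ^ 2 := by
  rw [famMPW_Dl]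
  unfold Par.DF
  push_cast
  ring

/-- **Price of a class.** -/
theorem num_Q {m s l : ℕ} (hm : 24 ≤ m) {LB : List ℕ}
    (hLB : LB.length ≤ 2 ^ (81 * m * 2 ^ s)) :
    ((2 ^ s : ℕ) : ℝ) * (80 * (((famMPW m).C : ℝ) + 1) * (((20 * m * 2 ^ s : ℕ) : ℝ) +
      2 * (Nat.size (pW ((2 ^ (20 * m)) ^ 2 ^ s) ((famMPW m).g s) LB) : ℝ)) * (1 / 2) ^ l) ≤
      2 ^ s * (5360 * (1 / 2) ^ l * (229 * m * 2 ^ s)) := by
  have h1 := size_pW_le hm hLB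
  have h2 : 24 ≤ m * 2 ^ s := hm.trans (Nat.le_mul_of_pos_right _ (by positivity))
  have h3 : 20 * m * 2 ^ s + 2 * Nat.size (pW ((2 ^ (20 * m)) ^ 2 ^ s) ((famMPW m).g s) LB) ≤
      229 * m * 2 ^ s := by nlinarith
  have h4 : ((20 * m * 2 ^ s : ℕ) : ℝ) +
      2 * (Nat.size (pW ((2 ^ (20 * m)) ^ 2 ^ s) ((famMPW m).g s) LB) : ℝ) ≤
      229 * m * 2 ^ s := by exact_mod_cast h3
  have h5 : (((famMPW m).C : ℕ) : ℝ) = 66 := by rw [famMPW_C]; norm_num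
  have h6 : ((2 ^ s : ℕ) : ℝ) = 2 ^ s := by push_cast; rfl
  rw [h5, h6]
  refine mul_le_mul_of_nonneg_left ?_ (by positivity)
  calc 80 * ((66 : ℝ) + 1) * (((20 * m * 2 ^ s : ℕ) : ℝ) +
        2 * (Nat.size (pW ((2 ^ (20 * m)) ^ 2 ^ s) ((famMPW m).g s) LB) : ℝ)) * (1 / 2) ^ l
      ≤ 80 * ((66 : ℝ) + 1) * (229 * m * 2 ^ s) * (1 / 2) ^ l := by gcongr
    _ = _ := by ring

/-- The error of the greedy picks, per class. -/
theorem bracket_le {m s p : ℕ} (hm : 24 ≤ m) (hp1 : 1 ≤ p) (hp : p ≤ 2 ^ (104 * m * 2 ^ s)) :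
    ((2 ^ (20 * m * 2 ^ s) : ℕ) : ℝ) *
        errW (Fintype.card (Fin p × Fin p)) ((famMPW m).T s) (sF m s) +
      (((famMPW m).T s : ℝ) / (sF m s : ℝ) + 1) *
        H155.etaW (20 * m * 2 ^ s) ((famMPW m).T s) ((famMPW m).Sh s) ((famMPW m).Rh s) p +
      3 * (((2 ^ (20 * m * 2 ^ s) : ℕ) : ℝ) *
        ((Fintype.card (Fin p × Fin p) : ℝ) / ((famMPW m).T s : ℝ))) ≤ thm m s := by
  refine (block_err_le hm hp1 hp).trans ?_
  unfold Par.thm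
  exact pow_le_pow_of_le_one (by norm_num) (by norm_num) (by omega)

/-- **Error of one block of a class**, `y` = all roundings (`2 rt + 16 r0 / Z + 2 d`). -/
theorem num_errY {m s l p : ℕ} {y : ℝ} (hm : 24 ≤ m) (hp1 : 1 ≤ p)
    (hp : p ≤ 2 ^ (104 * m * 2 ^ s)) (hl : 3 / 32 * thm m s < (1 / 2 : ℝ) ^ l)
    (hy : y ≤ 384 * dlm m s) :
    (((famMPW m).Dl s : ℕ) : ℝ) * (y +
      16 * (((famMPW m).C : ℝ) + 1) * (1 / 2) ^ l *
      (((2 ^ (20 * m * 2 ^ s) : ℕ) : ℝ) *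
        errW (Fintype.card (Fin p × Fin p)) ((famMPW m).T s) (sF m s) +
      (((famMPW m).T s : ℝ) / (sF m s : ℝ) + 1) *
        H155.etaW (20 * m * 2 ^ s) ((famMPW m).T s) ((famMPW m).Sh s) ((famMPW m).Rh s) p +
      3 * (((2 ^ (20 * m * 2 ^ s) : ℕ) : ℝ) *
        ((Fintype.card (Fin p × Fin p) : ℝ) / ((famMPW m).T s : ℝ))))) ≤
      16 ^ s * (m : ℝ) ^ 2 * (5200 * (thm m s * (1 / 2) ^ l)) := by
  have h0 := thm_pos m s
  have e1 := dlm_le_cls hl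
  have e3 := bracket_le (s := s) hm hp1 hp
  have h5 : (((famMPW m).C : ℕ) : ℝ) = 66 := by rw [famMPW_C]; norm_num
  rw [famMPW_Dl_cast, h5]
  refine mul_le_mul_of_nonneg_left ?_ (by positivity)
  have hp2 : (0 : ℝ) < (1 / 2) ^ l := by positivity
  have e4 := mul_le_mul_of_nonneg_left e3 (by positivity : (0 : ℝ) ≤ 16 * (66 + 1) * (1 / 2) ^ l)
  have e5 : 16 * ((66 : ℝ) + 1) * (1 / 2) ^ l * thm m s = 1072 * (thm m s * (1 / 2) ^ l) := by ring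
  rw [e5] at e4
  have e6 : 0 ≤ thm m s * (1 / 2) ^ l := by positivity
  linarith

/-- **Error of one block of a class.** -/
theorem num_err {m s l p : ℕ} {Z rt r0 d : ℝ} (hm : 24 ≤ m) (hp1 : 1 ≤ p)
    (hp : p ≤ 2 ^ (104 * m * 2 ^ s)) (hl : 3 / 32 * thm m s < (1 / 2 : ℝ) ^ l)
    (hrt : rt ≤ 80 * dlm m s) (hZ : 0 < Z) (hr0 : r0 ≤ 4 * (Z * dlm m s))
    (hd : d ≤ 80 * dlm m s) :
    (((famMPW m).Dl s : ℕ) : ℝ) * (2 * rt + 16 * r0 / Z + 2 * d +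
      16 * (((famMPW m).C : ℝ) + 1) * (1 / 2) ^ l *
      (((2 ^ (20 * m * 2 ^ s) : ℕ) : ℝ) *
        errW (Fintype.card (Fin p × Fin p)) ((famMPW m).T s) (sF m s) +
      (((famMPW m).T s : ℝ) / (sF m s : ℝ) + 1) *
        H155.etaW (20 * m * 2 ^ s) ((famMPW m).T s) ((famMPW m).Sh s) ((famMPW m).Rh s) p +
      3 * (((2 ^ (20 * m * 2 ^ s) : ℕ) : ℝ) *
        ((Fintype.card (Fin p × Fin p) : ℝ) / ((famMPW m).T s : ℝ))))) ≤
      16 ^ s * (m : ℝ) ^ 2 * (5200 * (thm m s * (1 / 2) ^ l)) := by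
  have e2 : 16 * r0 / Z ≤ 64 * dlm m s := by
    rw [div_le_iff₀ hZ]
    linarith
  exact num_errY hm hp1 hp hl (by linarith)

/-- The rounding of the comparison path. -/
theorem rt_le {m s : ℕ} (hm : 1 ≤ m) :
    64 / (((famMPW m).g s : ℕ) : ℝ) + 8 / (((2 ^ (20 * m)) ^ 2 ^ s : ℕ) : ℝ) ^ 3 ≤
      72 * dlm m s := by
  have h1 : 64 / (((famMPW m).g s : ℕ) : ℝ) = 64 * dlm m s := by
    rw [famMPW_g, Par.div_gF]
  have h2 : (8 : ℝ) / (((2 ^ (20 * m)) ^ 2 ^ s : ℕ) : ℝ) ^ 3 ≤ 8 * dlm m s := by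
    rw [div_eq_mul_one_div]
    refine mul_le_mul_of_nonneg_left ?_ (by norm_num)
    unfold Par.dlm
    rw [one_div_pow]
    refine one_div_le_one_div_of_le (by positivity) ?_
    have h3 : 2 ^ (2 * m * 2 ^ s) ≤ ((2 ^ (20 * m)) ^ 2 ^ s) ^ 3 := by
      rw [← pow_mul, ← pow_mul]
      refine Nat.pow_le_pow_right (by norm_num) ?_
      have : 0 < m * 2 ^ s := by positivity
      nlinarith
    exact_mod_cast h3
  rw [h1]
  linarith

/-- The capacity condition. -/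
theorem num_cap {m s l Z : ℕ} {r0 : ℝ} (hZ : 0 < Z) (hl : 3 / 32 * thm m s < (1 / 2 : ℝ) ^ l)
    (hth : 48 * thm m s ≤ 1) (hr0 : r0 ≤ 4 * (Z * dlm m s)) :
    (64 * (1 / 2 : ℝ) ^ l * Z + 2 * r0) * 2 ^ l ≤ (((famMPW m).C : ℕ) : ℝ) * Z := by
  have h5 : (((famMPW m).C : ℕ) : ℝ) = 66 := by rw [famMPW_C]; norm_num
  rw [h5]
  have hZ' : (0 : ℝ) < Z := by exact_mod_cast hZ
  have h0 := thm_pos m s
  have h1 : (1 / 2 : ℝ) ^ l * 2 ^ l = 1 := by rw [← mul_pow]; norm_num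
  have h2 : (0 : ℝ) < 2 ^ l := by positivity
  have h3 : thm m s * 2 ^ l ≤ 32 / 3 := by
    have := mul_lt_mul_of_pos_right hl h2
    rw [h1] at this
    linarith
  have h4 : dlm m s * 2 ^ l ≤ 2 / 9 := by
    rw [dlm_sq]
    calc thm m s ^ 2 * 2 ^ l = thm m s * (thm m s * 2 ^ l) := by ring
      _ ≤ thm m s * (32 / 3) := mul_le_mul_of_nonneg_left h3 h0.le
      _ ≤ 2 / 9 := by linarith
  have h6 : 2 * r0 * 2 ^ l ≤ 2 * Z := by
    calc 2 * r0 * 2 ^ l ≤ 2 * (4 * (Z * dlm m s)) * 2 ^ l := by gcongr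
      _ = 8 * Z * (dlm m s * 2 ^ l) := by ring
      _ ≤ 8 * Z * (2 / 9) := by gcongr
      _ ≤ 2 * Z := by linarith
  calc (64 * (1 / 2 : ℝ) ^ l * Z + 2 * r0) * 2 ^ l =
        64 * Z * ((1 / 2 : ℝ) ^ l * 2 ^ l) + 2 * r0 * 2 ^ l := by ring
    _ ≤ 64 * Z * 1 + 2 * Z := by rw [h1]; linarith
    _ = 66 * Z := by ring

/-- **Divisibility** of the unit widths: from `2 ^ (e₀ 2 ^ S) μ ∣ w0`, `2 m ≤ e₀`. -/
theorem width_dvd {m e₀ S s μ w0 m' j c : ℕ} (he : 2 * m ≤ e₀) (hs : s ≤ S)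
    (h : 2 ^ (e₀ * 2 ^ S) * μ ∣ w0) :
    μ * (famMPW m).g s ∣ w0 ∧ μ * (famMPW m).g s ∣ H95.wd m' w0 j c := by
  have h1 : μ * (famMPW m).g s ∣ w0 := by
    refine Dvd.dvd.trans ?_ h
    rw [mul_comm μ]
    refine Nat.mul_dvd_mul ?_ (dvd_refl _)
    show 2 ^ (2 * m * 2 ^ s) ∣ _
    exact pow_dvd_pow 2 (Nat.mul_le_mul he (Nat.pow_le_pow_right (by norm_num) hs))
  exact ⟨h1, Dvd.dvd.trans h1 (Dvd.dvd.mul_left (Dvd.intro _ rfl) _)⟩

/-- The unit widths are large. -/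
theorem two_pow_le_wd {m e₀ S s μ w0 m' j c l : ℕ} (he : 2 * m ≤ e₀) (hs : s ≤ S) (hμ : 0 < μ)
    (hw : 0 < w0) (h : 2 ^ (e₀ * 2 ^ S) * μ ∣ w0) (hm : 3 ≤ m * 2 ^ s)
    (hl : 3 / 32 * thm m s < (1 / 2 : ℝ) ^ l) : 2 ^ l ≤ H95.wd m' w0 j c := by
  have h1 := Par.cls_le hl
  have h2 : 2 ^ (e₀ * 2 ^ S) ≤ w0 :=
    (Nat.le_mul_of_pos_right _ hμ).trans (Nat.le_of_dvd hw h)
  have h3 : l ≤ e₀ * 2 ^ S := by
    calc l ≤ 2 * (m * 2 ^ s) := by omega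
      _ = 2 * m * 2 ^ s := by ring
      _ ≤ e₀ * 2 ^ S := Nat.mul_le_mul he (Nat.pow_le_pow_right (by norm_num) hs)
  have h4 : w0 ≤ H95.wd m' w0 j c := by
    unfold H95.wd
    exact (Nat.le_mul_of_pos_right _ (by positivity)).trans
      (Nat.le_mul_of_pos_left _ (by positivity))
  exact (Nat.pow_le_pow_right (by norm_num) h3).trans (h2.trans h4)

/-- The classes are below the number of classes, and the number of instances is large. -/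
theorem cls_numW {m s l : ℕ} (hl : 3 / 32 * thm m s < (1 / 2 : ℝ) ^ l) :
    l < (famMPW m).NL s ∧ 2 ^ (l + 3) ≤ (famMPW m).R s := by
  have h1 := Par.cls_le hl
  refine ⟨by rw [famMPW_NL]; omega, ?_⟩
  rw [famMPW_R]
  exact Nat.pow_le_pow_right (by norm_num) (by omega)

/-- From the range of a class with a ratio at least `1 / 8`. -/
theorem cls_of_ratio {m s l : ℕ} {r : ℝ} (hr : 1 / 8 ≤ r)
    (h : 3 / 4 * thm m s * r < (1 / 2 : ℝ) ^ l) : 3 / 32 * thm m s < (1 / 2 : ℝ) ^ l := by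
  refine lt_of_le_of_lt ?_ h
  have := thm_pos m s
  nlinarith

/-- The thresholds of the machines of `fam2`. -/
theorem eventually_thrW {eps0 : ℝ} (he : 0 < eps0) (C : ℝ) : ∀ᶠ m : ℕ in atTop,
    24 ≤ m ∧ (∀ s, 1 ≤ s → 5 / 4 * Par.thpm eps0 m s < 1 ∧ 3 * Par.thpm eps0 m s < 1) ∧
    (∀ s, 48 * thm m s ≤ 1 ∧ C * dlm m s ≤ thm m s) ∧
    (∀ s, (1 / 2 : ℝ) ^ (famMPW m).NL s ≤ 3 / 32 * thm m s) ∧
    (∀ s, 3 ≤ m * 2 ^ s) ∧
    (∀ s t, 1 ≤ s → s + 2 ≤ t → 80 * Par.thpm eps0 m t ≤ 3 * thm m s) := by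
  filter_upwards [Par.eventually_thr he C, Par.eventually_thr2 he (80 / 3) (by norm_num),
    eventually_ge_atTop 24] with m h1 h2 hm
  refine ⟨hm, h1.1, h1.2.1, fun s => ?_, h1.2.2.2, fun s t hs hst => ?_⟩
  · rw [famMPW_NL, pow_add]
    have h3 : (1 / 2 : ℝ) ^ (m * 2 ^ s) = thm m s := rfl
    have h4 := thm_pos m s
    rw [h3]
    linarith
  · have := h2 s t hs hst
    linarith

end Vale.Agent.P315.H784
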