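import Vale.Agent.P315.H784.Select
import Vale.Agent.P315.H508.CapSum
import Vale.Agent.P315.H220.Num
import Vale.Agent.P315.H782.Greedy

/-! The numbers of the family of machines: `M = 2^(20 m)`, all sizes powers of `2^(m 2^s)`. -/

set_option autoImplicit false

open Finset Filter

namespace Vale.Agent.P315.Par

/-- net points per unit length -/
def gF (m s : ℕ) : ℕ := 2 ^ (2 * m * 2 ^ s)
/-- length of the blocks -/
def DF (m s : ℕ) : ℕ := 16 ^ s * m ^ 2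
/-- number of classes -/
def NF (m s : ℕ) : ℕ := 20 * m * 2 ^ s
/-- number of instances -/
def RF (m s : ℕ) : ℕ := 2 ^ (m * 2 ^ s + 3)
/-- number of samples -/
def SF (m s : ℕ) : ℕ := 2 ^ (4 * m * 2 ^ s)
/-- number of stored paths -/
def TF (m s : ℕ) : ℕ := 2 ^ (50 * m * 2 ^ s)
/-- scaling of the harmonic numbers -/
def ShF (m s : ℕ) : ℕ := 2 ^ (54 * m * 2 ^ s)

theorem thm_eq (m s : ℕ) : thm m s = H508.th m s := rfl
theorem thpm_eq (eps0 : ℝ) (m s : ℕ) : thpm eps0 m s = H508.thp eps0 m s := rfl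
theorem dlm_eq (m s : ℕ) : dlm m s = H508.dl m s := rfl
theorem dlm_sq (m s : ℕ) : dlm m s = thm m s ^ 2 := H508.dl_eq m s

/-- (N1) The number of machines. -/
theorem eventually_cnt : ∀ᶠ m : ℕ in atTop, ∀ s : ℕ,
    2 ^ s * H220.cntQ (gF m s) (NF m s) (DF m s) (RF m s) (SF m s) ≤ 2 ^ (10 * m * 2 ^ s) := by
  filter_upwards [H508.nat_poly_le 960 64 3] with m hm s
  have h := hm s
  set h' : ℕ := m * 2 ^ s with hh'
  have g1 : 1 ≤ gF m s := Nat.one_le_two_pow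
  have e1 : H220.cntQ (gF m s) (NF m s) (DF m s) (RF m s) (SF m s) ≤
      (2 * gF m s) * ((3 * gF m s) * (NF m s * (DF m s * (RF m s * SF m s)))) := by
    unfold H220.cntQ
    gcongr
    · omega
    · omega
  have e2 : gF m s = 2 ^ h' * 2 ^ h' := by
    unfold gF; rw [← pow_add]; congr 1; rw [hh']; ring
  have e3 : RF m s = 2 ^ h' * 8 := by
    unfold RF; rw [pow_add]; rfl
  have e4 : SF m s = 2 ^ h' * 2 ^ h' * (2 ^ h' * 2 ^ h') := by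
    unfold SF; rw [← pow_add, ← pow_add]; congr 1; rw [hh']; ring
  have e5 : 2 ^ (10 * m * 2 ^ s) = 2 ^ h' * (2 ^ h') ^ 9 := by
    rw [← pow_succ', ← pow_mul]; congr 1; rw [hh']; ring
  have e6 : (64 : ℕ) ^ s = 2 ^ s * 2 ^ s * 16 ^ s := by
    rw [← mul_pow, ← mul_pow]; norm_num
  calc 2 ^ s * H220.cntQ (gF m s) (NF m s) (DF m s) (RF m s) (SF m s)
      ≤ 2 ^ s * ((2 * gF m s) * ((3 * gF m s) * (NF m s * (DF m s * (RF m s * SF m s))))) :=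
        Nat.mul_le_mul_left _ e1
    _ = (960 * m ^ 3 * 64 ^ s) * (2 ^ h') ^ 9 := by
        rw [e2, e3, e4, e6]
        unfold NF DF
        ring
    _ ≤ 2 ^ h' * (2 ^ h') ^ 9 := Nat.mul_le_mul_right _ h
    _ = _ := e5.symm

/-- (N2) The lanes cost less than the gain in the exponent: the numerical hypothesis of the area
theorem. `F s` = number of machines of scale `s`. -/
theorem eventually_lanes {c K1 : ℝ} (hc : 0 < c) (hK1 : 1 ≤ K1) : ∀ᶠ m : ℕ in atTop,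
    ∀ J : ℕ, 0 < J → (J : ℝ) ≤ 2 * (K1 * (m : ℝ) ^ 2 * 2 ^ m) → 4 * c ≤ (J : ℝ) ^ 2 →
    ∀ (F : ℕ → ℕ) (S : ℕ), (∀ s, 2 ^ s * F s ≤ 2 ^ (10 * m * 2 ^ s)) →
      ∑ s ∈ range S, 3 * ((2 ^ s * F s : ℕ) : ℝ) * Real.exp (4 * c / J ^ 2 * (2 ^ s : ℕ)) /
        ((2 ^ (20 * m) : ℕ) : ℝ) ^ 2 ^ s ≤ c ^ 2 / J ^ 2 := by
  filter_upwards [H508.ev_pow_le (24 * K1 ^ 2) 4 (pow_pos hc 2), eventually_ge_atTop 2]
    with m hm hm2 J hJ hJ2 hcJ F S hF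
  have hJ0 : (0 : ℝ) < J := by exact_mod_cast hJ
  have hlam : 4 * c / (J : ℝ) ^ 2 ≤ 1 := by
    rw [div_le_one (by positivity)]; exact hcJ
  have hterm : ∀ s ∈ range S, 3 * ((2 ^ s * F s : ℕ) : ℝ) *
      Real.exp (4 * c / J ^ 2 * (2 ^ s : ℕ)) / ((2 ^ (20 * m) : ℕ) : ℝ) ^ 2 ^ s ≤
      3 * (1 / 2) ^ (9 * m) * (1 / 2) ^ s := by
    intro s _
    have f1 : ((2 ^ s * F s : ℕ) : ℝ) ≤ 2 ^ (10 * m * 2 ^ s) := by exact_mod_cast hF s
    have f2 : Real.exp (4 * c / J ^ 2 * (2 ^ s : ℕ)) ≤ 2 ^ (2 * 2 ^ s) := by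
      have g1 : Real.exp (4 * c / J ^ 2 * (2 ^ s : ℕ)) ≤ Real.exp ((2 ^ s : ℕ) : ℝ) := by
        apply Real.exp_le_exp.2
        have : (0 : ℝ) ≤ ((2 ^ s : ℕ) : ℝ) := Nat.cast_nonneg _
        nlinarith
      refine g1.trans ?_
      have g2 : Real.exp ((2 ^ s : ℕ) : ℝ) = (Real.exp 1) ^ (2 ^ s) := by
        rw [← Real.exp_nat_mul, mul_one]
      rw [g2, pow_mul]
      refine pow_le_pow_left₀ (Real.exp_pos _).le ?_ _
      have := Real.exp_one_lt_d9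
      linarith
    have f3 : ((2 ^ (20 * m) : ℕ) : ℝ) ^ 2 ^ s = 2 ^ (20 * m * 2 ^ s) := by
      push_cast; rw [← pow_mul]
    have hs1 : s + 1 ≤ 2 ^ s := Nat.lt_two_pow_self
    have hexp : 10 * m * 2 ^ s + 2 * 2 ^ s + (9 * m + s) ≤ 20 * m * 2 ^ s := by
      have k1 : 2 * 2 ^ s ≤ m * 2 ^ s := Nat.mul_le_mul_right _ hm2
      have k2 : 9 * m + s ≤ 9 * m * 2 ^ s := by
        calc 9 * m + s ≤ 9 * m + 9 * m * s := by nlinarith
          _ = 9 * m * (s + 1) := by ring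
          _ ≤ 9 * m * 2 ^ s := Nat.mul_le_mul_left _ hs1
      nlinarith
    rw [f3, div_le_iff₀ (by positivity)]
    have f4 : (3 : ℝ) * (1 / 2) ^ (9 * m) * (1 / 2) ^ s * 2 ^ (20 * m * 2 ^ s) ≥
        3 * (2 ^ (10 * m * 2 ^ s) * 2 ^ (2 * 2 ^ s)) := by
      have k3 : (2 : ℝ) ^ (10 * m * 2 ^ s) * 2 ^ (2 * 2 ^ s) * (2 ^ (9 * m) * 2 ^ s) ≤
          2 ^ (20 * m * 2 ^ s) := by
        rw [← pow_add, ← pow_add, ← pow_add]
        exact pow_le_pow_right₀ (by norm_num) hexp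
      have k4 : (1 / 2 : ℝ) ^ (9 * m) * 2 ^ (9 * m) = 1 := by rw [← mul_pow]; norm_num
      have k5 : (1 / 2 : ℝ) ^ s * 2 ^ s = 1 := by rw [← mul_pow]; norm_num
      have k6 : (0 : ℝ) ≤ (1 / 2) ^ (9 * m) * (1 / 2) ^ s := by positivity
      have k7 := mul_le_mul_of_nonneg_left k3 k6
      have k8 : (1 / 2 : ℝ) ^ (9 * m) * (1 / 2) ^ s *
          (2 ^ (10 * m * 2 ^ s) * 2 ^ (2 * 2 ^ s) * (2 ^ (9 * m) * 2 ^ s)) =
          ((1 / 2 : ℝ) ^ (9 * m) * 2 ^ (9 * m)) * ((1 / 2 : ℝ) ^ s * 2 ^ s) *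
            (2 ^ (10 * m * 2 ^ s) * 2 ^ (2 * 2 ^ s)) := by ring
      rw [k8, k4, k5] at k7
      linarith
    calc 3 * ((2 ^ s * F s : ℕ) : ℝ) * Real.exp (4 * c / J ^ 2 * (2 ^ s : ℕ))
        ≤ 3 * 2 ^ (10 * m * 2 ^ s) * 2 ^ (2 * 2 ^ s) := by gcongr
      _ = 3 * (2 ^ (10 * m * 2 ^ s) * 2 ^ (2 * 2 ^ s)) := by ring
      _ ≤ _ := f4
  refine (sum_le_sum hterm).trans ?_
  rw [← mul_sum]
  have h2 := H508.sum_half_le (range S)
  have h3 : 3 * (1 / 2 : ℝ) ^ (9 * m) * ∑ s ∈ range S, (1 / 2 : ℝ) ^ s ≤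
      3 * (1 / 2) ^ (9 * m) * 2 := mul_le_mul_of_nonneg_left h2 (by positivity)
  refine h3.trans ?_
  rw [le_div_iff₀ (by positivity)]
  have h4 : (J : ℝ) ^ 2 ≤ (2 * (K1 * (m : ℝ) ^ 2 * 2 ^ m)) ^ 2 :=
    pow_le_pow_left₀ hJ0.le hJ2 2
  have h5 : (1 / 2 : ℝ) ^ (9 * m) = (1 / 2) ^ (6 * m) * ((1 / 2) ^ m * ((1 / 2) ^ m * (1 / 2) ^ m)) := by
    rw [← pow_add, ← pow_add, ← pow_add]; congr 1; ring
  have h6 : (1 / 2 : ℝ) ^ m * 2 ^ m = 1 := by rw [← mul_pow]; norm_num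
  have h7 : (1 / 2 : ℝ) ^ (6 * m) ≤ 1 := pow_le_one₀ (by norm_num) (by norm_num)
  calc 3 * (1 / 2 : ℝ) ^ (9 * m) * 2 * (J : ℝ) ^ 2
      ≤ 3 * (1 / 2 : ℝ) ^ (9 * m) * 2 * (2 * (K1 * (m : ℝ) ^ 2 * 2 ^ m)) ^ 2 := by gcongr
    _ = (24 * K1 ^ 2 * (m : ℝ) ^ 4 * (1 / 2) ^ m) * (1 / 2) ^ (6 * m) *
        (((1 / 2) ^ m * 2 ^ m) * ((1 / 2) ^ m * 2 ^ m)) := by rw [h5]; ring
    _ = (24 * K1 ^ 2 * (m : ℝ) ^ 4 * (1 / 2) ^ m) * (1 / 2) ^ (6 * m) := by rw [h6]; ring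
    _ ≤ (24 * K1 ^ 2 * (m : ℝ) ^ 4 * (1 / 2) ^ m) * 1 := by gcongr
    _ ≤ c ^ 2 := by rw [mul_one]; exact hm

/-- Number of edges of a row of the machine of scale `s`. -/
def EF (m s : ℕ) : ℕ := (2 * (2 ^ (20 * m)) ^ 2 ^ s * gF m s + 1) ^ 2

theorem EF_pos (m s : ℕ) : 0 < EF m s := by unfold EF; positivity

theorem EF_le (m s : ℕ) : (EF m s : ℝ) ≤ 9 * 2 ^ (44 * (m * 2 ^ s)) := by
  have h1 : EF m s ≤ (3 * ((2 ^ (20 * m)) ^ 2 ^ s * gF m s)) ^ 2 := by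
    unfold EF
    have : 1 ≤ (2 ^ (20 * m)) ^ 2 ^ s * gF m s := by
      unfold gF; exact Nat.mul_pos (by positivity) (by positivity)
    gcongr
    linarith
  have h2 : (3 * ((2 ^ (20 * m)) ^ 2 ^ s * gF m s)) ^ 2 = 9 * 2 ^ (44 * (m * 2 ^ s)) := by
    unfold gF
    rw [← pow_mul, ← pow_add, mul_pow, ← pow_mul]
    norm_num
    ring
  rw [h2] at h1
  exact_mod_cast h1

/-- (N4) The entropy of a row. -/
theorem log_EF {m : ℕ} (hm : 1 ≤ m) (s : ℕ) : Real.log (EF m s) ≤ 33 * m * 2 ^ s := by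
  have h0 : (0 : ℝ) < EF m s := by exact_mod_cast EF_pos m s
  have h1 := Real.log_le_log h0 (EF_le m s)
  rw [Real.log_mul (by norm_num) (by positivity), Real.log_pow] at h1
  have h2 : Real.log 9 ≤ 2.5 := by
    have : Real.log 9 = 2 * Real.log 3 := by
      rw [show (9 : ℝ) = 3 ^ 2 by norm_num, Real.log_pow]; norm_num
    rw [this]
    have h3 : Real.log 3 ≤ 1.25 := by
      rw [Real.log_le_iff_le_exp (by norm_num)]
      have e1 : Real.exp 1.25 = Real.exp 1 * Real.exp 0.25 := by rw [← Real.exp_add]; norm_num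
      have e2 := Real.exp_one_gt_d9
      have e3 : (1.25 : ℝ) ≤ Real.exp 0.25 := by
        have := Real.add_one_le_exp (0.25 : ℝ)
        linarith
      rw [e1]
      nlinarith
    linarith
  have h3 := Real.log_two_lt_d9
  have h4 : (1 : ℝ) ≤ m * 2 ^ s := by
    have a1 : (1 : ℝ) ≤ m := by exact_mod_cast hm
    have a2 : (1 : ℝ) ≤ 2 ^ s := one_le_pow₀ (by norm_num)
    nlinarith
  push_cast at h1
  have h5 : 44 * (m * 2 ^ s : ℝ) * Real.log 2 ≤ 44 * (m * 2 ^ s : ℝ) * 0.6931471808 :=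
    mul_le_mul_of_nonneg_left h3.le (by positivity)
  linarith

/-- (N3) The error of the greedy solver. -/
theorem eventually_err1 : ∀ᶠ m : ℕ in atTop, ∀ s : ℕ,
    H782.err1 (EF m s) (TF m s) (TF m s / ShF m s : ℝ) ≤ 2 * dlm m s ^ 2 := by
  filter_upwards [H508.ev_pow_le (9 * 52) 1 one_pos, eventually_ge_atTop 1,
    H508.master 468 2 1 one_pos (by norm_num) (by norm_num)] with m _ hm1 hmas s
  have h0 := hmas s
  have hx : (1 : ℝ) ≤ m * 2 ^ s := by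
    have a1 : (1 : ℝ) ≤ m := by exact_mod_cast hm1
    have a2 : (1 : ℝ) ≤ 2 ^ s := one_le_pow₀ (by norm_num)
    nlinarith
  have hcast : ((m * 2 ^ s : ℕ) : ℝ) = m * 2 ^ s := by push_cast; ring
  set h : ℕ := m * 2 ^ s with hh
  have hE0 : (0 : ℝ) < EF m s := by exact_mod_cast EF_pos m s
  have hT : (TF m s : ℝ) = 2 ^ (50 * h) := by
    unfold TF; push_cast; congr 1; rw [hh]; ring
  have hSh : (ShF m s : ℝ) = 2 ^ (54 * h) := by
    unfold ShF; push_cast; congr 1; rw [hh]; ring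
  have hdl : dlm m s ^ 2 = (1 / 2) ^ (4 * h) := by
    unfold dlm; rw [← pow_mul]; congr 1; rw [hh]; ring
  have hT0 : (0 : ℝ) < 2 ^ (50 * h) := by positivity
  have q1 : (EF m s : ℝ) / 2 ^ (50 * h) ≤ 9 * (1 / 2) ^ (6 * h) := by
    rw [div_le_iff₀ hT0]
    refine (EF_le m s).trans (le_of_eq ?_)
    have e1 : (2 : ℝ) ^ (50 * h) = 2 ^ (6 * h) * 2 ^ (44 * h) := by rw [← pow_add]; congr 1; ring
    have e2 : (1 / 2 : ℝ) ^ (6 * h) * 2 ^ (6 * h) = 1 := by rw [← mul_pow]; norm_num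
    calc (9 : ℝ) * 2 ^ (44 * h) = 9 * ((1 / 2 : ℝ) ^ (6 * h) * 2 ^ (6 * h)) * 2 ^ (44 * h) := by
          rw [e2]; ring
      _ = _ := by rw [e1]; ring
  have q2 : Real.log (((TF m s : ℝ) + EF m s) / EF m s) ≤ 51 * h := by
    have e1 : ((TF m s : ℝ) + EF m s) / EF m s ≤ 2 ^ (51 * h) := by
      rw [div_le_iff₀ hE0, hT]
      have hE1 : (1 : ℝ) ≤ EF m s := by exact_mod_cast EF_pos m s
      have h1h : 1 ≤ h := by
        have : (1 : ℝ) ≤ h := by rw [hcast]; exact hx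
        exact_mod_cast this
      have e2 : (2 : ℝ) * 2 ^ (50 * h) ≤ 2 ^ (51 * h) := by
        calc (2 : ℝ) * 2 ^ (50 * h) = 2 ^ (50 * h + 1) := by rw [pow_succ]; ring
          _ ≤ 2 ^ (51 * h) := pow_le_pow_right₀ (by norm_num) (by omega)
      have e3 : (1 : ℝ) ≤ 2 ^ (50 * h) := one_le_pow₀ (by norm_num)
      nlinarith
    have e4 := Real.log_le_log (by positivity) e1
    rw [Real.log_pow] at e4
    refine e4.trans ?_
    have := Real.log_two_lt_d9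
    push_cast
    have h00 : (0 : ℝ) ≤ h := Nat.cast_nonneg h
    nlinarith
  have q3 : (TF m s : ℝ) / ShF m s = (1 / 2) ^ (4 * h) := by
    rw [hT, hSh, div_eq_iff (by positivity)]
    have e1 : (2 : ℝ) ^ (54 * h) = 2 ^ (4 * h) * 2 ^ (50 * h) := by rw [← pow_add]; congr 1; ring
    have e2 : (1 / 2 : ℝ) ^ (4 * h) * 2 ^ (4 * h) = 1 := by rw [← mul_pow]; norm_num
    calc (2 : ℝ) ^ (50 * h) = ((1 / 2 : ℝ) ^ (4 * h) * 2 ^ (4 * h)) * 2 ^ (50 * h) := by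
          rw [e2, one_mul]
      _ = (1 / 2 : ℝ) ^ (4 * h) * (2 ^ (4 * h) * 2 ^ (50 * h)) := by ring
      _ = _ := by rw [e1]
  unfold H782.err1
  rw [q3, hdl]
  have q4 : (EF m s : ℝ) / (TF m s : ℝ) * (1 + Real.log (((TF m s : ℝ) + EF m s) / EF m s)) ≤
      (1 / 2) ^ (4 * h) := by
    have hh0 : (0 : ℝ) ≤ h := Nat.cast_nonneg h
    have hl0 : 0 ≤ Real.log (((TF m s : ℝ) + EF m s) / EF m s) := by
      apply Real.log_nonneg
      rw [one_le_div hE0]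
      have : (0 : ℝ) ≤ TF m s := Nat.cast_nonneg _
      linarith
    calc (EF m s : ℝ) / (TF m s : ℝ) * (1 + Real.log (((TF m s : ℝ) + EF m s) / EF m s))
        ≤ 9 * (1 / 2) ^ (6 * h) * (1 + 51 * h) := by
          rw [hT] at *
          exact mul_le_mul q1 (by linarith) (by linarith) (by positivity)
      _ ≤ 9 * (1 / 2) ^ (6 * h) * (52 * h) := by
          refine mul_le_mul_of_nonneg_left ?_ (by positivity)
          rw [hcast] at *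
          linarith
      _ = (468 * h * (1 / 2) ^ h) * ((1 / 2) ^ h * (1 / 2) ^ (4 * h)) := by
          have : (1 / 2 : ℝ) ^ (6 * h) = (1 / 2) ^ h * ((1 / 2) ^ h * (1 / 2) ^ (4 * h)) := by
            rw [← pow_add, ← pow_add]; congr 1; ring
          rw [this]; ring
      _ ≤ 1 * (1 * (1 / 2) ^ (4 * h)) := by
          have f1 : 468 * (h : ℝ) * (1 / 2) ^ h ≤ 1 := by
            have g1 : 468 * (h : ℝ) * (1 / 2) ^ h = 468 * (m : ℝ) ^ 1 * 2 ^ s * (1 / 2) ^ h := by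
              rw [hcast]; ring
            rw [g1]
            refine h0.trans ?_
            rw [one_mul]
            exact pow_le_one₀ (by norm_num) (by norm_num)
          have f2 : (1 / 2 : ℝ) ^ h ≤ 1 := pow_le_one₀ (by norm_num) (by norm_num)
          have f3 : (0 : ℝ) ≤ (1 / 2) ^ (4 * h) := by positivity
          exact mul_le_mul f1 (mul_le_mul_of_nonneg_right f2 f3) (by positivity) (by norm_num)
      _ = _ := by ring
  linarith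

/-- (N5) Sum of all errors of the machine inequalities, any constants. -/
theorem eventually_caps {eps0 A1 A2 CW AW : ℝ} (he : 0 < eps0) (hA1 : 0 ≤ A1) (hA2 : 0 ≤ A2)
    (hCW : 0 ≤ CW) (hAW : 0 ≤ AW) {ε : ℝ} (hε : 0 < ε) :
    ∀ᶠ m : ℕ in atTop, ∀ (T : Finset ℕ) (Lc : ℕ → Finset ℕ), (∀ s ∈ T, 1 ≤ s) →
      (∀ s ∈ T, ∀ l ∈ Lc s, (1 / 2 : ℝ) ^ l ≤ CW * AW ^ s * thpm eps0 m s ∧
        thm m s / 2 ≤ (1 / 2 : ℝ) ^ l) →
      ∑ s ∈ T, ∑ l ∈ Lc s, (A1 * (2 ^ s * (m * 2 ^ s)) * (1 / 2) ^ l +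
        A2 * 2 ^ l * ((16 ^ s * (m : ℝ) ^ 2) * dlm m s)) / 2 ^ s ≤ ε := by
  have hε2 : 0 < ε / 2 := by positivity
  filter_upwards [H508.caps_small' eps0 A1 2 CW AW 1 he hε2 hA1 (by norm_num) hCW hAW,
    H508.errs_small (2 * A2) 16 2 hε2 (by positivity) (by norm_num)] with m h1 h2 T Lc hT hL
  have k1 := h1 T Lc hT (fun s hs l hl => (hL s hs l hl).1)
  have k2 := h2 T Lc (fun s hs l hl => (hL s hs l hl).2)
  have key : ∀ s ∈ T, ∀ l ∈ Lc s, (A1 * (2 ^ s * (m * 2 ^ s)) * (1 / 2) ^ l +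
        A2 * 2 ^ l * ((16 ^ s * (m : ℝ) ^ 2) * dlm m s)) / 2 ^ s ≤
      A1 * (m : ℝ) ^ 1 * 2 ^ s * (1 / 2) ^ l + 2 * A2 * (m : ℝ) ^ 2 * 16 ^ s * H508.th m s := by
    intro s hs l hl
    have hth := (hL s hs l hl).2
    have ht := thm_pos m s
    have hp : (0 : ℝ) < 2 ^ s := by positivity
    have hp1 : (1 : ℝ) ≤ 2 ^ s := one_le_pow₀ (by norm_num)
    have e1 : (2 : ℝ) ^ l * dlm m s ≤ 2 * thm m s := by
      rw [dlm_sq]
      have g1 : (2 : ℝ) ^ l * (1 / 2) ^ l = 1 := by rw [← mul_pow]; norm_num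
      have g2 : (2 : ℝ) ^ l * thm m s ≤ 2 := by
        have := mul_le_mul_of_nonneg_left hth (by positivity : (0 : ℝ) ≤ 2 ^ l)
        rw [g1] at this
        linarith
      calc (2 : ℝ) ^ l * thm m s ^ 2 = (2 ^ l * thm m s) * thm m s := by ring
        _ ≤ 2 * thm m s := mul_le_mul_of_nonneg_right g2 ht.le
    rw [div_le_iff₀ hp]
    have e2 : A2 * 2 ^ l * ((16 ^ s * (m : ℝ) ^ 2) * dlm m s) ≤
        2 * A2 * (m : ℝ) ^ 2 * 16 ^ s * H508.th m s := by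
      calc A2 * 2 ^ l * ((16 ^ s * (m : ℝ) ^ 2) * dlm m s)
          = A2 * (16 ^ s * (m : ℝ) ^ 2) * (2 ^ l * dlm m s) := by ring
        _ ≤ A2 * (16 ^ s * (m : ℝ) ^ 2) * (2 * thm m s) :=
            mul_le_mul_of_nonneg_left e1 (by positivity)
        _ = _ := by rw [thm_eq]; ring
    have e3 : 0 ≤ 2 * A2 * (m : ℝ) ^ 2 * 16 ^ s * H508.th m s := by
      have := H508.th_pos m s; positivity
    have e4 : 2 * A2 * (m : ℝ) ^ 2 * 16 ^ s * H508.th m s ≤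
        2 * A2 * (m : ℝ) ^ 2 * 16 ^ s * H508.th m s * 2 ^ s := by nlinarith
    have e5 : A1 * (2 ^ s * (m * 2 ^ s)) * (1 / 2) ^ l =
        A1 * (m : ℝ) ^ 1 * 2 ^ s * (1 / 2) ^ l * 2 ^ s := by ring
    nlinarith
  calc _ ≤ ∑ s ∈ T, ∑ l ∈ Lc s, (A1 * (m : ℝ) ^ 1 * 2 ^ s * (1 / 2) ^ l +
        2 * A2 * (m : ℝ) ^ 2 * 16 ^ s * H508.th m s) :=
        sum_le_sum fun s hs => sum_le_sum fun l hl => key s hs l hl
    _ = ∑ s ∈ T, ∑ l ∈ Lc s, A1 * (m : ℝ) ^ 1 * 2 ^ s * (1 / 2) ^ l +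
        ∑ s ∈ T, ∑ l ∈ Lc s, 2 * A2 * (m : ℝ) ^ 2 * 16 ^ s * H508.th m s := by
        simp only [sum_add_distrib]
    _ ≤ ε := by linarith

/-- (N8) The losses of the instances and of the mesh are below every power of the smallest
threshold. -/
theorem exists_a0 (m p : ℕ) (C : ℝ) : ∃ a0 : ℕ, 0 < a0 ∧ ∀ n S : ℕ,
    2 ^ S ≤ 6 * (Nat.log 2 (n + 2) + 2) → ∀ x : ℝ, 0 ≤ x → a0 * ((n : ℝ) + 2) ^ a0 * x ≤ 1 →
      ∀ s, s ≤ S → C * x ≤ thm m s ^ p := by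
  obtain ⟨c, hc⟩ := exists_nat_ge |C|
  set e : ℕ := 6 * (m * p) with he
  refine ⟨max 1 (max e (c * 2 ^ (2 * e))), by omega, fun n S hS x hx h s hs => ?_⟩
  set a0 : ℕ := max 1 (max e (c * 2 ^ (2 * e))) with ha0
  have hn2 : (1 : ℝ) ≤ (n : ℝ) + 2 := by
    have : (0 : ℝ) ≤ n := Nat.cast_nonneg n
    linarith
  have h1 : ((2 : ℝ) ^ (m * 2 ^ s)) ^ p ≤ ((n : ℝ) + 2) ^ e * 2 ^ (2 * e) := by
    have g1 : m * 2 ^ s * p ≤ e * (Nat.log 2 (n + 2) + 2) := by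
      calc m * 2 ^ s * p ≤ m * 2 ^ S * p := by gcongr; norm_num
        _ = m * p * 2 ^ S := by ring
        _ ≤ m * p * (6 * (Nat.log 2 (n + 2) + 2)) := Nat.mul_le_mul_left _ hS
        _ = e * (Nat.log 2 (n + 2) + 2) := by rw [he]; ring
    rw [← pow_mul]
    calc (2 : ℝ) ^ (m * 2 ^ s * p) ≤ 2 ^ (e * (Nat.log 2 (n + 2) + 2)) :=
          pow_le_pow_right₀ (by norm_num) g1
      _ = (2 ^ (Nat.log 2 (n + 2))) ^ e * 2 ^ (2 * e) := by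
          rw [← pow_mul, ← pow_add]; congr 1; ring
      _ ≤ ((n : ℝ) + 2) ^ e * 2 ^ (2 * e) := by
          have : (2 : ℝ) ^ (Nat.log 2 (n + 2)) ≤ (n : ℝ) + 2 := by
            exact_mod_cast Nat.pow_log_le_self 2 (by omega : n + 2 ≠ 0)
          gcongr
  have h2 : C * ((2 : ℝ) ^ (m * 2 ^ s)) ^ p ≤ a0 * ((n : ℝ) + 2) ^ a0 := by
    have g1 : C ≤ c := (le_abs_self C).trans hc
    calc C * ((2 : ℝ) ^ (m * 2 ^ s)) ^ p ≤ c * ((2 : ℝ) ^ (m * 2 ^ s)) ^ p :=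
          mul_le_mul_of_nonneg_right g1 (by positivity)
      _ ≤ c * (((n : ℝ) + 2) ^ e * 2 ^ (2 * e)) := by gcongr
      _ = ((c * 2 ^ (2 * e) : ℕ) : ℝ) * ((n : ℝ) + 2) ^ e := by push_cast; ring
      _ ≤ a0 * ((n : ℝ) + 2) ^ a0 := by
          have k1 : c * 2 ^ (2 * e) ≤ a0 := (le_max_right _ _).trans (le_max_right _ _)
          have k2 : e ≤ a0 := (le_max_left _ _).trans (le_max_right _ _)
          have k3 : ((c * 2 ^ (2 * e) : ℕ) : ℝ) ≤ a0 := by exact_mod_cast k1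
          have k4 : ((n : ℝ) + 2) ^ e ≤ ((n : ℝ) + 2) ^ a0 := pow_le_pow_right₀ hn2 k2
          gcongr
  have h3 : thm m s ^ p * ((2 : ℝ) ^ (m * 2 ^ s)) ^ p = 1 := by
    unfold thm; rw [← mul_pow, ← mul_pow]; norm_num
  have h4 : (0 : ℝ) < ((2 : ℝ) ^ (m * 2 ^ s)) ^ p := by positivity
  have h5 : C * x * ((2 : ℝ) ^ (m * 2 ^ s)) ^ p ≤ thm m s ^ p * ((2 : ℝ) ^ (m * 2 ^ s)) ^ p := by
    rw [h3]
    calc C * x * ((2 : ℝ) ^ (m * 2 ^ s)) ^ p = (C * ((2 : ℝ) ^ (m * 2 ^ s)) ^ p) * x := by ring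
      _ ≤ (a0 * ((n : ℝ) + 2) ^ a0) * x := mul_le_mul_of_nonneg_right h2 hx
      _ ≤ 1 := h
  exact le_of_mul_le_mul_right h5 h4

end Vale.Agent.P315.Par
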