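import Vale.Agent.P315.H784.Budget

/-! The error sum in the form of the conclusion of the accounting theorem, for `B = 2^m`. -/

set_option autoImplicit false

open Finset Filter

namespace Vale.Agent.P315.Par

/-- One bracket of the conclusion (without capacities, failures and bad units): `A s`, `B s` are
the gains at the starts and ends of the blocks, `ED s` the mass at the ends of the blocks. -/
noncomputable def bracket (eps0 : ℝ) (m : ℕ) (n : ℝ) (A B L N ED : ℕ → ℝ) (S s : ℕ) : ℝ :=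
  16 * (thm m (s - 1) / thpm eps0 m s) * n + 2 ^ (s - 1) * A (s - 1) +
    2 ^ s * (1 + L s) * (6 * (A s + B s) + 5 / 4 * ∑ t ∈ Icc (s + 2) S, 2 ^ (t - s + 1) * (1 + B t)) +
    2 ^ (s + 1) * N s * (1 + B s) + 2 ^ s * ED s

theorem ratio_eq {eps0 : ℝ} (he : 0 < eps0) (m s : ℕ) :
    16 * (thm m (s - 1) / thpm eps0 m s) = eps0 / 4 ^ s := by
  have h1 : thm m (s - 1) ≠ 0 := (thm_pos m (s - 1)).ne'
  unfold thpm
  field_simp

theorem bracket_le {eps0 : ℝ} (he : 0 < eps0) {m : ℕ} {n G : ℝ} {A B L N ED D : ℕ → ℝ} {S s : ℕ}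
    (hs1 : 1 ≤ s) (hs : s ≤ S) (hA : ∀ t, t ≤ S → A t ≤ G / D t) (hB : ∀ t, t ≤ S → B t ≤ G / D t)
    (hL : 0 ≤ L s) (hN : 0 ≤ N s) (hED : ED s ≤ 2 * n / D s) :
    bracket eps0 m n A B L N ED S s ≤ term eps0 G n D L N S s := by
  unfold bracket term
  rw [ratio_eq he]
  have hU : ∑ t ∈ Icc (s + 2) S, 2 ^ (t - s + 1) * (1 + B t) ≤ U D G S s := by
    unfold U
    refine sum_le_sum fun t ht => ?_
    have := hB t (mem_Icc.1 ht).2
    gcongr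
  set Y := ∑ t ∈ Icc (s + 2) S, 2 ^ (t - s + 1) * (1 + B t) with hY
  have h1 : 2 ^ (s - 1) * A (s - 1) ≤ 2 ^ (s - 1) * G / D (s - 1) := by
    rw [mul_div_assoc]
    exact mul_le_mul_of_nonneg_left (hA (s - 1) (by omega)) (by positivity)
  have h2 : 2 ^ s * (1 + L s) * (6 * (A s + B s) + 5 / 4 * Y) ≤
      2 ^ s * (1 + L s) * (12 * (G / D s) + 5 / 4 * U D G S s) := by
    refine mul_le_mul_of_nonneg_left ?_ (by positivity)
    have := hA s hs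
    have := hB s hs
    linarith
  have h3 : 2 ^ (s + 1) * N s * (1 + B s) ≤ 2 ^ (s + 1) * N s * (1 + G / D s) := by
    refine mul_le_mul_of_nonneg_left ?_ (by positivity)
    have := hB s hs
    linarith
  have h4 : 2 ^ s * ED s ≤ 2 * 2 ^ s * n / D s := by
    calc 2 ^ s * ED s ≤ 2 ^ s * (2 * n / D s) := mul_le_mul_of_nonneg_left hED (by positivity)
      _ = 2 * 2 ^ s * n / D s := by ring
  have h5 : 2 ^ s * (1 + L s) * (12 * (G / D s) + 5 / 4 * U D G S s) =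
      12 * 2 ^ s * G / D s + 5 / 4 * 2 ^ s * U D G S s +
        2 ^ s * L s * (12 * G / D s + 5 / 4 * U D G S s) := by ring
  rw [h5] at h2
  linarith

/-- **The numerical part of the conclusion.** For all large `m`: the error terms of the
accounting theorem add up to at most `(4 + eps0) G + 4 eps0 n`. -/
theorem eventually_conclusion {eps0 CL CN J : ℝ} (he : 0 < eps0) (hCL : 0 ≤ CL) (hCN : 0 ≤ CN)
    (hJ : 0 ≤ J) :
    ∀ᶠ m : ℕ in atTop, ∀ (S n : ℕ) (NB G : ℝ) (D A B L N ED : ℕ → ℝ), 0 ≤ G →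
      (∀ s, 16 ^ s * (m : ℝ) ^ 2 ≤ D s) →
      (∀ s, s ≤ S → A s ≤ G / D s) → (∀ s, s ≤ S → B s ≤ G / D s) →
      (∀ s, 1 ≤ s → s ≤ S → ED s ≤ 2 * n / D s) →
      (∀ s, 0 ≤ L s) → (∀ s, L s ≤ CL * m * 2 ^ s) →
      (∀ s, 0 ≤ N s) → (∀ s, N s ≤ CN * m * 2 ^ s) →
      NB ≤ J * n + 3 → J + 3 ≤ eps0 * n → (n + 2) ^ 3 ≤ (2 ^ m) ^ (2 ^ S) →
      (5 / 2 + 5 / 2 * (CL * m) + 4 * (CN * m)) * 4 ^ S ≤ eps0 * n →
      4 * G + B 0 + n * (NB * thm m S) + 2 ^ S * A S +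
        ∑ s ∈ Icc 1 S, bracket eps0 m n A B L N ED S s ≤ (4 + eps0) * G + 4 * eps0 * n := by
  filter_upwards [eventually_budget he hCL hCN, eventually_ge_atTop 1] with m hm hm1
  intro S n NB G D A B L N ED hG hD hA hB hED hL0 hL hN0 hN hNB hJn hS3 hS4
  have m0 : (0 : ℝ) < m := by exact_mod_cast hm1
  have hn0 : (0 : ℝ) ≤ n := Nat.cast_nonneg n
  have h1 := hm S n G D L N hn0 hG hD hL0 hL hN0 hN hS4
  have h2 : ∑ s ∈ Icc 1 S, bracket eps0 m n A B L N ED S s ≤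
      ∑ s ∈ Icc 1 S, term eps0 G n D L N S s := by
    refine sum_le_sum fun s hs => ?_
    obtain ⟨hs1, hs2⟩ := mem_Icc.1 hs
    exact bracket_le he hs1 hs2 hA hB (hL0 s) (hN0 s) (hED s hs1 hs2)
  have h3 := last_scale_le hJ hNB hJn hS3
  have h4 : B 0 ≤ G / (m : ℝ) ^ 2 := by
    refine (hB 0 (Nat.zero_le S)).trans ?_
    have h5 := hD 0
    rw [pow_zero, one_mul] at h5
    exact div_le_div_of_nonneg_left hG (by positivity) h5
  have h6 : 2 ^ S * A S ≤ 2 ^ S * G / D S := by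
    rw [mul_div_assoc]
    exact mul_le_mul_of_nonneg_left (hA S le_rfl) (by positivity)
  linarith

/-- (P5), the numbers of STEP 1: `M = 2^(20 m)`, `D0 = m^2`, `J + 1 ≥ K1 m^2 2^m`. -/
theorem eventually_P5 {eps0 : ℝ} (he : 0 < eps0) (C : ℝ) : ∀ᶠ m : ℕ in atTop,
    ∀ (K1 : ℝ) (J : ℕ), 4 ≤ eps0 * K1 → K1 * (m : ℝ) ^ 2 * 2 ^ m ≤ (J : ℝ) + 1 →
      (thm m 0 / 2)⁻¹ * (C / 2 ^ (20 * m) + (m : ℝ) ^ 2 / ((J : ℝ) + 1)) ≤ eps0 := by
  have h1 : ∀ᶠ m : ℕ in atTop, 4 * |C| / eps0 ≤ (2 : ℝ) ^ m :=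
    (tendsto_pow_atTop_atTop_of_one_lt (one_lt_two : (1 : ℝ) < 2)).eventually_ge_atTop _
  filter_upwards [h1, eventually_ge_atTop 1] with m hm hm1 K1 J hK hJ
  have m0 : (0 : ℝ) < m := by exact_mod_cast hm1
  have hK0 : 0 < K1 := by
    by_contra h
    push Not at h
    nlinarith
  have e1 : (thm m 0 / 2)⁻¹ = 2 * 2 ^ m := by
    unfold thm
    rw [pow_zero, mul_one, one_div_pow]
    field_simp
  rw [e1]
  have hJ0 : (0 : ℝ) < (J : ℝ) + 1 := by positivity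
  have h2 : 2 * 2 ^ m * ((m : ℝ) ^ 2 / ((J : ℝ) + 1)) ≤ eps0 / 2 := by
    rw [mul_div_assoc', div_le_iff₀ hJ0]
    have h3 : 4 * ((m : ℝ) ^ 2 * 2 ^ m) ≤ eps0 * ((J : ℝ) + 1) := by
      calc 4 * ((m : ℝ) ^ 2 * 2 ^ m) ≤ (eps0 * K1) * ((m : ℝ) ^ 2 * 2 ^ m) :=
            mul_le_mul_of_nonneg_right hK (by positivity)
        _ = eps0 * (K1 * (m : ℝ) ^ 2 * 2 ^ m) := by ring
        _ ≤ eps0 * ((J : ℝ) + 1) := mul_le_mul_of_nonneg_left hJ he.le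
    linarith
  have h4 : 2 * 2 ^ m * (C / 2 ^ (20 * m)) ≤ eps0 / 2 := by
    have e2 : (2 : ℝ) ^ (20 * m) = 2 ^ m * (2 ^ m * 2 ^ (18 * m)) := by
      rw [← pow_add, ← pow_add]; congr 1; ring
    have e3 : (1 : ℝ) ≤ 2 ^ (18 * m) := one_le_pow₀ (by norm_num)
    have e4 : (0 : ℝ) < 2 ^ m := by positivity
    rw [div_le_iff₀ he] at hm
    have e5 : 2 * 2 ^ m * (C / 2 ^ (20 * m)) = 2 * C / (2 ^ m * 2 ^ (18 * m)) := by
      rw [e2]; field_simp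
    rw [e5, div_le_iff₀ (by positivity)]
    have e6 : (2 : ℝ) ^ m * eps0 ≤ eps0 * (2 ^ m * 2 ^ (18 * m)) := by
      have : (2 : ℝ) ^ m * 1 ≤ 2 ^ m * 2 ^ (18 * m) := by gcongr
      nlinarith
    have := le_abs_self C
    linarith
  rw [mul_add]
  linarith

/-- All conditions on the number of levels hold for all long inputs. -/
theorem exists_levels {M q m : ℕ} (hM : 2 ≤ M) (hq : 1 ≤ q) (hm : 1 ≤ m) {K η : ℝ}
    (hη : 0 < η) (p : ℕ) : ∃ N0 : ℕ, ∀ N : ℕ, N0 ≤ N → ∃ S n : ℕ,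
      S = H809.scalN (2 ^ m) M q N ∧ n = H809.lev (2 ^ m) M q N ∧ 2 ^ S ∣ n ∧
      (n + 2) ^ 3 ≤ (2 ^ m) ^ (2 ^ S) ∧ K * ((2 : ℝ) ^ S) ^ p ≤ η * n ∧ K ≤ η * n := by
  have hB : 2 ≤ 2 ^ m := by
    calc 2 = 2 ^ 1 := by norm_num
      _ ≤ 2 ^ m := Nat.pow_le_pow_right (by norm_num) hm
  obtain ⟨N1, h1⟩ := exists_large hB hM hq K hη p
  obtain ⟨N2, h2⟩ := exists_large hB hM hq K hη 0
  refine ⟨max N1 N2, fun N hN => ⟨_, _, rfl, rfl, H809.two_pow_dvd_lev _ _ _ _,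
    H809.cube_le hB M q N, h1 N ((le_max_left _ _).trans hN), ?_⟩⟩
  have := h2 N ((le_max_right _ _).trans hN)
  rwa [pow_zero, mul_one] at this

end Vale.Agent.P315.Par
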