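import Vale.Agent.P315.H784.Concl

/-! The numbers of the conclusion in the form of the query theorem: `n` levels, `S` scales with
`(n + 2)^3 ≤ (2^m)^(2^S)` and `2^S` at most logarithmic in `n`. -/

set_option autoImplicit false

open Finset Filter

namespace Vale.Agent.P315.Par

/-- Every power of `2^S` is much smaller than the number of levels. -/
theorem exists_small (K : ℝ) {η : ℝ} (hη : 0 < η) (p : ℕ) : ∃ n0 : ℕ, ∀ n : ℕ, n0 ≤ n →
    ∀ S : ℕ, 2 ^ S ≤ 6 * (Nat.log 2 (n + 2) + 2) → K * ((2 : ℝ) ^ S) ^ p ≤ η * n := by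
  obtain ⟨C, hC1, hC⟩ := H809.polylog_le p (η := 1 / 2) (by norm_num)
  set A : ℝ := |K| * 12 ^ p * C / η with hA
  have hA0 : 0 ≤ A := by positivity
  refine ⟨⌈A ^ 2⌉₊ + 1, fun n hn S hS => ?_⟩
  have hw : (2 : ℝ) ^ S ≤ 12 * ((Nat.log 2 (n + 2) : ℝ) + 1) := by
    have h1 : (2 : ℝ) ^ S ≤ 6 * ((Nat.log 2 (n + 2) : ℝ) + 2) := by exact_mod_cast hS
    have h2 : (0 : ℝ) ≤ Nat.log 2 (n + 2) := Nat.cast_nonneg _
    linarith
  have hn0 : (0 : ℝ) ≤ n := Nat.cast_nonneg n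
  have h1 : K * ((2 : ℝ) ^ S) ^ p ≤ η * (A * ((n : ℝ) + 1) ^ (1 / 2 : ℝ)) := by
    calc K * ((2 : ℝ) ^ S) ^ p ≤ |K| * ((2 : ℝ) ^ S) ^ p :=
          mul_le_mul_of_nonneg_right (le_abs_self K) (by positivity)
      _ ≤ |K| * (12 * ((Nat.log 2 (n + 2) : ℝ) + 1)) ^ p := by gcongr
      _ = |K| * (12 ^ p * ((Nat.log 2 (n + 2) : ℝ) + 1) ^ p) := by rw [mul_pow]
      _ ≤ |K| * (12 ^ p * (C * ((n : ℝ) + 1) ^ (1 / 2 : ℝ))) := by
          have := hC n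
          gcongr
      _ = η * (A * ((n : ℝ) + 1) ^ (1 / 2 : ℝ)) := by rw [hA]; field_simp
  refine h1.trans (mul_le_mul_of_nonneg_left ?_ hη.le)
  rw [← Real.sqrt_eq_rpow]
  have e3 : A ^ 2 + 1 ≤ (n : ℝ) := by
    have : ((⌈A ^ 2⌉₊ + 1 : ℕ) : ℝ) ≤ n := by exact_mod_cast hn
    push_cast at this
    linarith [Nat.le_ceil (A ^ 2)]
  have e4 : A * √((n : ℝ) + 1) = √(A ^ 2 * ((n : ℝ) + 1)) := by
    rw [Real.sqrt_mul (by positivity), Real.sqrt_sq hA0]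
  rw [e4]
  refine Real.sqrt_le_iff.2 ⟨hn0, ?_⟩
  nlinarith [sq_nonneg A]

/-- A finite list of such conditions at once. -/
theorem exists_smalls (K : ℝ) {η : ℝ} (hη : 0 < η) (p : ℕ) : ∃ n0 : ℕ, ∀ n : ℕ, n0 ≤ n →
    ∀ S : ℕ, 2 ^ S ≤ 6 * (Nat.log 2 (n + 2) + 2) → ∀ r : ℕ, r ≤ p →
      K * ((2 : ℝ) ^ S) ^ r ≤ η * n := by
  obtain ⟨n0, h⟩ := exists_small |K| hη p
  refine ⟨n0, fun n hn S hS r hr => ?_⟩
  have h1 : (1 : ℝ) ≤ 2 ^ S := one_le_pow₀ (by norm_num)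
  calc K * ((2 : ℝ) ^ S) ^ r ≤ |K| * ((2 : ℝ) ^ S) ^ r :=
        mul_le_mul_of_nonneg_right (le_abs_self K) (by positivity)
    _ ≤ |K| * ((2 : ℝ) ^ S) ^ p :=
        mul_le_mul_of_nonneg_left (pow_le_pow_right₀ h1 hr) (abs_nonneg K)
    _ ≤ η * n := h n hn S hS

/-- **The numbers of the conclusion**, in the form of the query theorem. -/
theorem eventually_n {eps0 : ℝ} (he : 0 < eps0) {CL CN c1 c2 c3 : ℝ} (hCL : 0 ≤ CL)
    (hCN : 0 ≤ CN) :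
    ∀ᶠ m : ℕ in atTop, ∀ J : ℝ, 0 ≤ J → ∃ n0 : ℕ, ∀ n : ℕ, n0 ≤ n →
      ∀ S : ℕ, (n + 2) ^ 3 ≤ (2 ^ m) ^ (2 ^ S) → 2 ^ S ≤ 6 * (Nat.log 2 (n + 2) + 2) →
      ∀ (NB G : ℝ) (D A B L N ED : ℕ → ℝ), 0 ≤ G →
      (∀ s, 16 ^ s * (m : ℝ) ^ 2 ≤ D s) →
      (∀ s, s ≤ S → 0 ≤ A s) → (∀ s, s ≤ S → 0 ≤ B s) →
      (∀ s, s ≤ S → A s ≤ G / D s) → (∀ s, s ≤ S → B s ≤ G / D s) →
      (∀ s, 1 ≤ s → s ≤ S → ED s ≤ 2 * n / D s) →
      (∀ s, 0 ≤ L s) → (∀ s, L s ≤ CL * m * 2 ^ s) →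
      (∀ s, 0 ≤ N s) → (∀ s, N s ≤ CN * m * 2 ^ s) → NB ≤ J * n + 3 →
      4 * G + B 0 + n * (NB * thm m S) + 2 ^ S * A S +
        ∑ s ∈ Icc 1 S, bracketC eps0 c1 c2 c3 m n A B L N ED S s ≤
          (4 + eps0) * G + 4 * eps0 * n := by
  set C : ℝ := max (max (c1 / 6) (4 / 5 * c2)) (max (c3 / 2) 0) with hCdef
  have hC0 : 0 ≤ C := (le_max_right _ _).trans (le_max_right _ _)
  have k1 : c1 ≤ 6 * C := by
    have : c1 / 6 ≤ C := (le_max_left _ _).trans (le_max_left _ _)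
    linarith
  have k2 : c2 ≤ 5 / 4 * C := by
    have : 4 / 5 * c2 ≤ C := (le_max_right _ _).trans (le_max_left _ _)
    linarith
  have k3 : c3 ≤ 2 * C := by
    have : c3 / 2 ≤ C := (le_max_left _ _).trans (le_max_right _ _)
    linarith
  have hCL' : 0 ≤ C * (1 + CL) := by positivity
  have hCN' : 0 ≤ C * CN := by positivity
  filter_upwards [eventually_budget he hCL' hCN', eventually_ge_atTop 1] with m hm hm1
  intro J hJ
  have m1 : (1 : ℝ) ≤ m := by exact_mod_cast hm1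
  obtain ⟨N1, h1⟩ := exists_smalls
    (max (5 / 2 + 5 / 2 * (C * (1 + CL) * m) + 4 * (C * CN * m)) (J + 3)) he 2
  refine ⟨N1, fun n hn S h3 hSl NB G D A B L N ED hG hD hA0 hB0 hA hB hED hL0 hL hN0 hN hNB => ?_⟩
  have h4 := h1 n hn S hSl 2 le_rfl
  have h5 := h1 n hn S hSl 0 (by norm_num)
  rw [pow_zero, mul_one] at h5
  have hn0 : (0 : ℝ) ≤ n := Nat.cast_nonneg n
  have hJn : J + 3 ≤ eps0 * n := (le_max_right _ _).trans h5
  have h4S : (5 / 2 + 5 / 2 * (C * (1 + CL) * m) + 4 * (C * CN * m)) * 4 ^ S ≤ eps0 * n := by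
    refine le_trans ?_ h4
    have e : (4 : ℝ) ^ S = ((2 : ℝ) ^ S) ^ 2 := by rw [← pow_mul, mul_comm, pow_mul]; norm_num
    rw [e]
    exact mul_le_mul_of_nonneg_right (le_max_left _ _) (by positivity)
  have hL' : ∀ s, C * (1 + L s) ≤ C * (1 + CL) * m * 2 ^ s := by
    intro s
    have f1 : (1 : ℝ) ≤ 2 ^ s := one_le_pow₀ (by norm_num)
    have f2 : (1 : ℝ) ≤ m * 2 ^ s := by nlinarith
    calc C * (1 + L s) ≤ C * (m * 2 ^ s + CL * m * 2 ^ s) := by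
          have := hL s
          gcongr
      _ = _ := by ring
  have hN'' : ∀ s, C * N s ≤ C * CN * m * 2 ^ s := by
    intro s
    calc C * N s ≤ C * (CN * m * 2 ^ s) := mul_le_mul_of_nonneg_left (hN s) hC0
      _ = _ := by ring
  have h6 := hm S n G D (fun s => C * (1 + L s)) (fun s => C * N s) hn0 hG hD
    (fun s => by have := hL0 s; positivity) hL' (fun s => by have := hN0 s; positivity) hN'' h4S
  have h7 : ∑ s ∈ Icc 1 S, bracketC eps0 c1 c2 c3 m n A B L N ED S s ≤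
      ∑ s ∈ Icc 1 S, term eps0 G n D (fun s => C * (1 + L s)) (fun s => C * N s) S s := by
    refine sum_le_sum fun s hs => ?_
    obtain ⟨hs1, hs2⟩ := mem_Icc.1 hs
    refine (bracketC_le k1 k2 k3 (hA0 s hs2) hB0 hs2 (hL0 s) (hN0 s)).trans ?_
    exact bracket_le he hs1 hs2 hA hB (by have := hL0 s; positivity)
      (by have := hN0 s; positivity) (hED s hs1 hs2)
  have h8 := last_scale_le hJ hNB hJn h3
  have h9 : B 0 ≤ G / (m : ℝ) ^ 2 := by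
    refine (hB 0 (Nat.zero_le S)).trans ?_
    have h5 := hD 0
    rw [pow_zero, one_mul] at h5
    exact div_le_div_of_nonneg_left hG (by positivity) h5
  have h10 : 2 ^ S * A S ≤ 2 ^ S * G / D S := by
    rw [mul_div_assoc]
    exact mul_le_mul_of_nonneg_left (hA S le_rfl) (by positivity)
  linarith

end Vale.Agent.P315.Par
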