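import Mathlib

/-! Parameters of the multi-scale accounting: thresholds as natural powers of one small number,
block lengths, choice of the largest scale, and the sums over the scales. -/

set_option autoImplicit false

open Finset

namespace Vale.Agent.P315.Par

/-- Threshold of scale `s`. -/
noncomputable def th (B s : ℕ) : ℝ := (1 / (B : ℝ)) ^ (2 ^ s)

/-- Precision of scale `s` (square of the threshold). -/
noncomputable def dlt (B s : ℕ) : ℝ := (1 / (B : ℝ)) ^ (2 * 2 ^ s)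

/-- Upper threshold of scale `s`. -/
noncomputable def th1 (eps0 : ℝ) (B s : ℕ) : ℝ := 16 * 4 ^ s / eps0 * th B (s - 1)

theorem th_pos {B : ℕ} (hB : 0 < B) (s : ℕ) : 0 < th B s := by
  unfold th; positivity

theorem th_le_one {B : ℕ} (hB : 1 ≤ B) (s : ℕ) : th B s ≤ 1 := by
  unfold th
  have h1 : (1 : ℝ) ≤ B := by exact_mod_cast hB
  exact pow_le_one₀ (by positivity) (by rw [div_le_one (by linarith)]; exact h1)

theorem th_zero (B : ℕ) : th B 0 = 1 / (B : ℝ) := by simp [th]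

theorem dlt_eq (B s : ℕ) : dlt B s = th B s * th B s := by
  unfold dlt th; rw [two_mul, pow_add]

theorem dlt_pos {B : ℕ} (hB : 0 < B) (s : ℕ) : 0 < dlt B s := by
  unfold dlt; positivity

theorem th_succ (B s : ℕ) : th B (s + 1) = th B s * th B s := by
  unfold th; rw [pow_succ 2 s, mul_two, pow_add]

theorem th1_pos {eps0 : ℝ} (he : 0 < eps0) {B : ℕ} (hB : 0 < B) (s : ℕ) : 0 < th1 eps0 B s := by
  unfold th1; have := th_pos hB (s - 1); positivity

theorem th_anti {B : ℕ} (hB : 1 ≤ B) {s t : ℕ} (h : s ≤ t) : th B t ≤ th B s := by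
  unfold th
  have h1 : (1 : ℝ) ≤ B := by exact_mod_cast hB
  exact pow_le_pow_of_le_one (by positivity) (by rw [div_le_one (by linarith)]; exact h1)
    (Nat.pow_le_pow_right (by norm_num) h)

/-- The lower threshold is below the upper one. -/
theorem th_le_th1 {eps0 : ℝ} (he : 0 < eps0) (he1 : eps0 ≤ 1) {B : ℕ} (hB : 1 ≤ B) (s : ℕ) :
    16 * th B s ≤ th1 eps0 B s := by
  unfold th1
  have h0 : 0 < th B (s - 1) := th_pos hB _
  have h1 : th B s ≤ th B (s - 1) := th_anti hB (Nat.sub_le s 1)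
  have h2 : (1 : ℝ) ≤ 4 ^ s := one_le_pow₀ (by norm_num)
  have h3 : (16 : ℝ) ≤ 16 * 4 ^ s / eps0 := by
    rw [le_div_iff₀ he]; nlinarith
  nlinarith

/-- (P1) The upper threshold two scales up is far below the lower one. -/
theorem P1 {eps0 C : ℝ} (he : 0 < eps0) {B : ℕ} (hB : 4 ≤ B) (hC : 256 * C ≤ eps0 * B)
    {s t : ℕ} (hst : s + 2 ≤ t) : C * th1 eps0 B t ≤ th B s := by
  by_cases hC0 : C ≤ 0
  · exact (mul_nonpos_of_nonpos_of_nonneg hC0 (th1_pos he (by omega) t).le).trans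
      (th_pos (by omega) s).le
  push Not at hC0
  obtain ⟨u, rfl⟩ : ∃ u, t = u + 2 := ⟨t - 2, by omega⟩
  have hsu : s ≤ u := by omega
  have hB1 : (4 : ℝ) ≤ B := by exact_mod_cast hB
  have hB0 : (0 : ℝ) < B := by linarith
  -- reduce to `s = u`
  refine le_trans ?_ (th_anti (by omega) hsu)
  have hu : u < 2 ^ u := Nat.lt_two_pow_self
  have e1 : th B (u + 2 - 1) = th B u * th B u := by
    rw [show u + 2 - 1 = u + 1 by omega, th_succ]
  unfold th1
  rw [e1]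
  have hthu := th_pos (B := B) (by omega) u
  -- C * 16 * 4^(u+2) / eps0 * th u ≤ 1
  have key : C * (16 * 4 ^ (u + 2)) * th B u ≤ eps0 := by
    have h4 : (4 : ℝ) ^ u ≤ (B : ℝ) ^ (2 ^ u - 1) :=
      (pow_le_pow_left₀ (by norm_num) hB1 u).trans
        (pow_le_pow_right₀ (by linarith) (by omega))
    have h5 : th B u * (B : ℝ) ^ (2 ^ u - 1) = 1 / B := by
      unfold th
      have h6 : (2 : ℕ) ^ u = (2 ^ u - 1) + 1 := by omega
      conv_lhs => rw [h6]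
      rw [pow_succ]
      simp only [one_div, Nat.add_sub_cancel]
      rw [mul_right_comm, ← mul_pow, inv_mul_cancel₀ hB0.ne', one_pow, one_mul]
    calc C * (16 * 4 ^ (u + 2)) * th B u = 256 * C * (th B u * 4 ^ u) := by ring
      _ ≤ 256 * C * (th B u * (B : ℝ) ^ (2 ^ u - 1)) := by gcongr
      _ = 256 * C / B := by rw [h5]; ring
      _ ≤ eps0 := by rw [div_le_iff₀ hB0]; exact hC
  calc C * (16 * 4 ^ (u + 2) / eps0 * (th B u * th B u))
      = (C * (16 * 4 ^ (u + 2)) * th B u) / eps0 * th B u := by ring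
    _ ≤ eps0 / eps0 * th B u := by gcongr
    _ = th B u := by rw [div_self he.ne', one_mul]

/-- (P2) The precision is far below the threshold. -/
theorem P2 {C : ℝ} {B : ℕ} (hB : 1 ≤ B) (hC : C ≤ B) (s : ℕ) :
    C * dlt B s ≤ th B s := by
  rw [dlt_eq]
  have h0 := th_pos (B := B) (by omega) s
  have h1 : th B s ≤ th B 0 := th_anti hB (Nat.zero_le s)
  rw [th_zero] at h1
  have hB0 : (0 : ℝ) < B := by exact_mod_cast (by omega : 0 < B)
  have h2 : C * th B s ≤ 1 := by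
    calc C * th B s ≤ B * (1 / B) := mul_le_mul hC h1 h0.le hB0.le
      _ = 1 := by field_simp
  nlinarith

/-- The thresholds at the passage from scale `s - 1` to scale `s`. -/
theorem th_sub_eq {eps0 : ℝ} (he : 0 < eps0) (B : ℕ) (s : ℕ) :
    16 * th B (s - 1) = eps0 / 4 ^ s * th1 eps0 B s := by
  unfold th1
  have : (4 : ℝ) ^ s ≠ 0 := by positivity
  field_simp

/-! ### Sums over the scales -/

theorem sum_geom_quarter (S : ℕ) : ∑ s ∈ range S, ((1 : ℝ) / 4) ^ s ≤ 4 / 3 := by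
  have h := geom_sum_eq (x := (1 : ℝ) / 4) (by norm_num) S
  rw [h]
  have : (0 : ℝ) ≤ (1 / 4) ^ S := by positivity
  rw [div_le_iff_of_neg (by norm_num)]
  linarith

theorem sum_two_pow (S : ℕ) : ∑ s ∈ range S, (2 : ℝ) ^ s = 2 ^ S - 1 := by
  induction S with
  | zero => simp
  | succ S ih => rw [sum_range_succ, ih, pow_succ]; ring

theorem sum_four_pow_le (S : ℕ) : ∑ s ∈ range (S + 1), (4 : ℝ) ^ s ≤ 2 * 4 ^ S := by
  induction S with
  | zero => simp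
  | succ S ih => rw [sum_range_succ, pow_succ]; nlinarith [pow_pos (show (0 : ℝ) < 4 by norm_num) S]

/-- If `f s ≤ c 2^s`, the sum of `2^s f s / (16^s D0)` is at most `(4/3) c / D0`. -/
theorem sum_div_D {f : ℕ → ℝ} {c D0 : ℝ} (hD : 0 < D0) (hc : 0 ≤ c)
    (hf : ∀ s, f s ≤ c * 2 ^ s) (S : ℕ) :
    ∑ s ∈ range S, 2 ^ s * f s / (16 ^ s * D0) ≤ 4 / 3 * (c / D0) := by
  have h1 : ∀ s ∈ range S, 2 ^ s * f s / (16 ^ s * D0) ≤ c / D0 * (1 / 4) ^ s := by
    intro s _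
    have h2 : (16 : ℝ) ^ s = 4 ^ s * 4 ^ s := by rw [← mul_pow]; norm_num
    have h3 : (4 : ℝ) ^ s = 2 ^ s * 2 ^ s := by rw [← mul_pow]; norm_num
    rw [div_le_iff₀ (by positivity)]
    have h4 : c / D0 * (1 / 4 : ℝ) ^ s * (16 ^ s * D0) = c * 4 ^ s := by
      rw [h2]
      have : (1 / 4 : ℝ) ^ s * 4 ^ s = 1 := by rw [← mul_pow]; norm_num
      calc c / D0 * (1 / 4 : ℝ) ^ s * (4 ^ s * 4 ^ s * D0)
          = (c / D0 * D0) * ((1 / 4 : ℝ) ^ s * 4 ^ s) * 4 ^ s := by ring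
        _ = c * 4 ^ s := by rw [this, div_mul_cancel₀ c hD.ne']; ring
    rw [h4, h3]
    calc 2 ^ s * f s ≤ 2 ^ s * (c * 2 ^ s) := by gcongr; exact hf s
      _ = c * (2 ^ s * 2 ^ s) := by ring
  calc _ ≤ ∑ s ∈ range S, c / D0 * (1 / 4) ^ s := sum_le_sum h1
    _ = c / D0 * ∑ s ∈ range S, (1 / 4 : ℝ) ^ s := by rw [mul_sum]
    _ ≤ c / D0 * (4 / 3) := by
        gcongr
        exact sum_geom_quarter S
    _ = _ := by ring

/-- Partial sums of a sequence below `c 2^s`. -/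
theorem sum_lt_le {f : ℕ → ℝ} {c : ℝ} (hc : 0 ≤ c) (hf : ∀ s, f s ≤ c * 2 ^ s) (t : ℕ) :
    ∑ s ∈ range t, f s ≤ c * 2 ^ t := by
  calc ∑ s ∈ range t, f s ≤ ∑ s ∈ range t, c * 2 ^ s := sum_le_sum fun s _ => hf s
    _ = c * (2 ^ t - 1) := by rw [← mul_sum, sum_two_pow]
    _ ≤ c * 2 ^ t := by nlinarith

/-- If `f s ≤ c 2^s`, the sum of `2^s f s` is at most `2 c 4^S`. -/
theorem sum_mul_le {f : ℕ → ℝ} {c : ℝ} (hc : 0 ≤ c) (hf : ∀ s, f s ≤ c * 2 ^ s) (S : ℕ) :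
    ∑ s ∈ range (S + 1), 2 ^ s * f s ≤ 2 * c * 4 ^ S := by
  calc ∑ s ∈ range (S + 1), 2 ^ s * f s ≤ ∑ s ∈ range (S + 1), c * 4 ^ s := by
        refine sum_le_sum fun s _ => ?_
        have h3 : (4 : ℝ) ^ s = 2 ^ s * 2 ^ s := by rw [← mul_pow]; norm_num
        rw [h3]
        calc 2 ^ s * f s ≤ 2 ^ s * (c * 2 ^ s) := by gcongr; exact hf s
          _ = c * (2 ^ s * 2 ^ s) := by ring
    _ = c * ∑ s ∈ range (S + 1), (4 : ℝ) ^ s := by rw [mul_sum]
    _ ≤ c * (2 * 4 ^ S) := by gcongr; exact sum_four_pow_le S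
    _ = _ := by ring

/-- (P4) The sum of all the losses at the ends of the blocks. -/
theorem P4 {L N : ℕ → ℝ} {cL cN D0 c : ℝ} (hD : 0 < D0) (hcL : 0 ≤ cL) (hcN : 0 ≤ cN)
    (hL : ∀ s, L s ≤ cL * 2 ^ s) (hN : ∀ s, N s ≤ cN * 2 ^ s)
    (h : 4 / 3 * (1 + 2 * cL + cN) ≤ c * D0) (S : ℕ) :
    ∑ s ∈ range S, 2 ^ s * (1 + L s + N s + ∑ r ∈ range s, L r) / (16 ^ s * D0) ≤ c := by
  have hf : ∀ s, 1 + L s + N s + ∑ r ∈ range s, L r ≤ (1 + 2 * cL + cN) * 2 ^ s := by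
    intro s
    have h1 := sum_lt_le hcL hL s
    have h2 : (1 : ℝ) ≤ 2 ^ s := one_le_pow₀ (by norm_num)
    nlinarith [hL s, hN s]
  refine (sum_div_D hD (by positivity) hf S).trans ?_
  rw [← mul_div_assoc, div_le_iff₀ hD]
  exact h

/-- The polylogarithmic total of the blow-up terms. -/
theorem sum_blow_le {L : ℕ → ℝ} {cL : ℝ} (hcL : 0 ≤ cL) (hL : ∀ s, L s ≤ cL * 2 ^ s) (S : ℕ) :
    ∑ t ∈ range (S + 1), 2 ^ t * ∑ s ∈ range t, L s ≤ 2 * cL * 4 ^ S :=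
  sum_mul_le hcL (fun t => sum_lt_le hcL hL t) S

/-! ### The number of levels and the largest scale -/

/-- Choice of the largest scale: `2^S` divides the number of levels `n`, `n^p ≤ B^(2^S)`, and
every fixed power of `2^S` is much smaller than `n`. -/
theorem exists_scale {c : ℝ} (hc : 0 < c) (p q S0 : ℕ) : ∃ n0 : ℕ, ∀ n' : ℕ, n0 ≤ n' →
    ∃ S n : ℕ, S0 ≤ S ∧ 2 ^ S ∣ n ∧ n ≤ n' ∧ n' ≤ 2 * n ∧
      (∀ B : ℕ, 2 ≤ B → n ^ p ≤ B ^ (2 ^ S)) ∧ ((2 : ℝ) ^ S) ^ q ≤ c * n := by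
  -- `(2 (p+1) 2^S0 (log₂ n + 1))^(q+1) ≤ (min c 1 / 4) n` for large `n`
  set C : ℝ := 2 * (p + 1) * 2 ^ S0 with hC
  have hCpos : 0 < C := by positivity
  have hlo : ∃ n0 : ℕ, ∀ n' : ℕ, n0 ≤ n' →
      (C * ((Nat.log 2 n' : ℝ) + 1)) ^ (q + 1) ≤ min c 1 / 4 * n' := by
    have h1 := (Real.isLittleO_pow_log_id_atTop (n := q + 1))
    have hk : 0 < min c 1 / 4 / (C * 3) ^ (q + 1) := by
      have : 0 < min c 1 := lt_min hc one_pos
      positivity
    have h2 := (h1.bound hk)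
    rw [Filter.eventually_atTop] at h2
    obtain ⟨x0, hx0⟩ := h2
    refine ⟨max ⌈x0⌉₊ 3, fun n' hn => ?_⟩
    have hn3 : 3 ≤ n' := (le_max_right _ _).trans hn
    have hx : x0 ≤ (n' : ℝ) := (Nat.le_ceil x0).trans (by exact_mod_cast (le_max_left _ _).trans hn)
    have h3 := hx0 n' hx
    have hn0 : (0 : ℝ) ≤ n' := by positivity
    rw [Real.norm_eq_abs, Real.norm_eq_abs, id, abs_of_nonneg hn0] at h3
    have hlog1 : 1 ≤ Real.log n' := by
      rw [Real.le_log_iff_exp_le (by positivity)]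
      have : (3 : ℝ) ≤ n' := by exact_mod_cast hn3
      linarith [Real.exp_one_lt_d9]
    rw [abs_of_nonneg (by positivity)] at h3
    have h4 : (Nat.log 2 n' : ℝ) ≤ 2 * Real.log n' := by
      have h5 : (2 : ℝ) ^ (Nat.log 2 n') ≤ n' := by
        exact_mod_cast Nat.pow_log_le_self 2 (by omega)
      have h6 := Real.log_le_log (by positivity) h5
      rw [Real.log_pow] at h6
      have h7 := Real.log_two_gt_d9
      have h8 : (0 : ℝ) ≤ Nat.log 2 n' := by positivity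
      nlinarith
    have h9 : C * ((Nat.log 2 n' : ℝ) + 1) ≤ C * 3 * Real.log n' := by
      have : (Nat.log 2 n' : ℝ) + 1 ≤ 3 * Real.log n' := by linarith
      nlinarith
    calc (C * ((Nat.log 2 n' : ℝ) + 1)) ^ (q + 1) ≤ (C * 3 * Real.log n') ^ (q + 1) :=
          pow_le_pow_left₀ (by positivity) h9 _
      _ = (C * 3) ^ (q + 1) * Real.log n' ^ (q + 1) := by rw [mul_pow]
      _ ≤ (C * 3) ^ (q + 1) * (min c 1 / 4 / (C * 3) ^ (q + 1) * n') := by gcongr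
      _ = min c 1 / 4 * n' := by field_simp
  obtain ⟨n0, hn0⟩ := hlo
  refine ⟨max n0 1, fun n' hn => ?_⟩
  have hn0' := hn0 n' ((le_max_left _ _).trans hn)
  have hn1 : 1 ≤ n' := (le_max_right _ _).trans hn
  set S : ℕ := S0 + Nat.clog 2 (p * (Nat.log 2 n' + 1)) with hS
  have hS2 : (2 : ℝ) ^ S ≤ C * ((Nat.log 2 n' : ℝ) + 1) := by
    have h1 : 2 ^ Nat.clog 2 (p * (Nat.log 2 n' + 1)) ≤ 2 * ((p + 1) * (Nat.log 2 n' + 1)) := by
      rcases Nat.lt_or_ge 1 (p * (Nat.log 2 n' + 1)) with h | h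
      · have h2 := Nat.pow_pred_clog_lt_self (b := 2) (by norm_num) h
        have h3 : 0 < Nat.clog 2 (p * (Nat.log 2 n' + 1)) :=
          Nat.clog_pos (by norm_num) (by omega)
        have h4 : 2 ^ Nat.clog 2 (p * (Nat.log 2 n' + 1)) =
            2 ^ (Nat.clog 2 (p * (Nat.log 2 n' + 1)) - 1) * 2 := by
          rw [← pow_succ]; congr 1; omega
        rw [h4]
        have h5 : (Nat.clog 2 (p * (Nat.log 2 n' + 1))).pred =
          Nat.clog 2 (p * (Nat.log 2 n' + 1)) - 1 := rfl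
        rw [h5] at h2
        nlinarith
      · have h2 : Nat.clog 2 (p * (Nat.log 2 n' + 1)) = 0 := Nat.clog_of_right_le_one h 2
        rw [h2]
        nlinarith
    have h2 : ((2 : ℝ) ^ Nat.clog 2 (p * (Nat.log 2 n' + 1))) ≤
        2 * ((p + 1) * ((Nat.log 2 n' : ℝ) + 1)) := by exact_mod_cast h1
    rw [hS, pow_add, hC]
    calc (2 : ℝ) ^ S0 * 2 ^ Nat.clog 2 (p * (Nat.log 2 n' + 1)) ≤
        2 ^ S0 * (2 * ((p + 1) * ((Nat.log 2 n' : ℝ) + 1))) := by gcongr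
      _ = _ := by ring
  have h1S : (1 : ℝ) ≤ 2 ^ S := one_le_pow₀ (by norm_num)
  have hpowS : ((2 : ℝ) ^ S) ^ (q + 1) ≤ min c 1 / 4 * n' :=
    (pow_le_pow_left₀ (by positivity) hS2 _).trans hn0'
  have hSn : (2 : ℝ) ^ S ≤ n' / 4 := by
    have h1 : (2 : ℝ) ^ S ≤ ((2 : ℝ) ^ S) ^ (q + 1) := by
      calc (2 : ℝ) ^ S = ((2 : ℝ) ^ S) ^ 1 := (pow_one _).symm
        _ ≤ _ := pow_le_pow_right₀ h1S (by omega)
    have h2 : min c 1 / 4 * (n' : ℝ) ≤ n' / 4 := by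
      have := min_le_right c 1
      have hn0'' : (0 : ℝ) ≤ n' := by positivity
      nlinarith
    linarith
  have hSn' : 4 * 2 ^ S ≤ n' := by
    have h3 : (4 : ℝ) * 2 ^ S ≤ n' := by linarith
    exact_mod_cast h3
  have hdm : 2 ^ S * (n' / 2 ^ S) + n' % 2 ^ S = n' := Nat.div_add_mod n' (2 ^ S)
  have hmod : n' % 2 ^ S < 2 ^ S := Nat.mod_lt _ (by positivity)
  refine ⟨S, 2 ^ S * (n' / 2 ^ S), by omega, Dvd.intro _ rfl, by omega, by omega, ?_, ?_⟩
  · intro B hB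
    calc (2 ^ S * (n' / 2 ^ S)) ^ p ≤ n' ^ p := Nat.pow_le_pow_left (by omega) p
      _ ≤ (2 ^ (Nat.log 2 n' + 1)) ^ p :=
          Nat.pow_le_pow_left (Nat.lt_pow_succ_log_self (by norm_num) n').le p
      _ = 2 ^ (p * (Nat.log 2 n' + 1)) := by rw [← pow_mul, mul_comm]
      _ ≤ 2 ^ (2 ^ S) := by
          refine Nat.pow_le_pow_right (by norm_num) ?_
          exact (Nat.le_pow_clog (b := 2) (by norm_num) (p * (Nat.log 2 n' + 1))).trans
            (Nat.pow_le_pow_right (by norm_num) (by omega))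
      _ ≤ B ^ (2 ^ S) := Nat.pow_le_pow_left hB _
  · have h1 : ((2 : ℝ) ^ S) ^ q ≤ ((2 : ℝ) ^ S) ^ (q + 1) := pow_le_pow_right₀ h1S (by omega)
    have h2 : (n' : ℝ) ≤ 2 * (2 ^ S * (n' / 2 ^ S) : ℕ) := by
      have : n' ≤ 2 * (2 ^ S * (n' / 2 ^ S)) := by omega
      exact_mod_cast this
    have h3 : min c 1 / 4 * (n' : ℝ) ≤ c * (2 ^ S * (n' / 2 ^ S) : ℕ) := by
      have h4 := min_le_left c 1
      have h5 : 0 < min c 1 := lt_min hc one_pos
      have h6 : (0 : ℝ) ≤ (2 ^ S * (n' / 2 ^ S) : ℕ) := by positivity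
      nlinarith
    linarith

end Vale.Agent.P315.Par
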