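import Vale.Agent.P315.H784.ErNumW

/-! Numbers of `H763.plugTop` for the machines of `fam2`: the roundings, and the coarse nodes. -/

set_option autoImplicit false

open Finset Filter

namespace Vale.Agent.P315.H784

open Vale.Agent.P315.H155 (famMPW)
open Vale.Agent.P315.Par (thm dlm thm_pos dlm_sq dlm_le_cls)

/-- Distance of the nodes. -/
theorem natdiv_g {m s Z : ℕ} (h : (famMPW m).g s ∣ Z) :
    ((Z / (famMPW m).g s : ℕ) : ℝ) = Z * dlm m s := by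
  have h0 : (((famMPW m).g s : ℕ) : ℝ) ≠ 0 := by
    rw [famMPW_g]
    unfold Par.gF
    positivity
  rw [Nat.cast_div h h0, famMPW_g, Par.div_gF]

/-- **All roundings** of `plugTop`: `rt = 64 / g + 8 / K ^ 3`, `r0 = 4 (Z / g)`, `dl = dlm`,
`e2 = 32 / g`. -/
theorem num_y {m s Z : ℕ} (hm : 1 ≤ m) (hZ : 0 < Z) (h : (famMPW m).g s ∣ Z) :
    2 * (64 / (((famMPW m).g s : ℕ) : ℝ) + 8 / (((2 ^ (20 * m)) ^ 2 ^ s : ℕ) : ℝ) ^ 3) +
      16 * (4 * ((Z / (famMPW m).g s : ℕ) : ℝ)) / (Z : ℝ) +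
      2 * (8 * dlm m s + 32 / (((famMPW m).g s : ℕ) : ℝ)) ≤ 384 * dlm m s := by
  have h1 := rt_le (s := s) hm
  have h2 : (0 : ℝ) < Z := by exact_mod_cast hZ
  have h3 : 32 / (((famMPW m).g s : ℕ) : ℝ) = 32 * dlm m s := by rw [famMPW_g, Par.div_gF]
  have h4 : 16 * (4 * ((Z / (famMPW m).g s : ℕ) : ℝ)) / (Z : ℝ) = 64 * dlm m s := by
    rw [natdiv_g h, div_eq_iff h2.ne']
    ring
  have h5 := Par.dlm_pos' m s
  rw [h3, h4]
  linarith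

/-- `rt ≤ 1`, `e2 ≤ 1`. -/
theorem num_one {m s : ℕ} (hm : 1 ≤ m) (h : 72 * dlm m s ≤ 1) :
    64 / (((famMPW m).g s : ℕ) : ℝ) + 8 / (((2 ^ (20 * m)) ^ 2 ^ s : ℕ) : ℝ) ^ 3 ≤ 1 ∧
      32 / (((famMPW m).g s : ℕ) : ℝ) ≤ 1 := by
  have h1 := rt_le (s := s) hm
  have h3 : 32 / (((famMPW m).g s : ℕ) : ℝ) = 32 * dlm m s := by rw [famMPW_g, Par.div_gF]
  have h5 := Par.dlm_pos' m s
  refine ⟨by linarith, ?_⟩
  rw [h3]
  linarith

end Vale.Agent.P315.H784
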