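import Vale.Agent.P315.H784.Select
import Vale.Agent.P315.H155.Fam2
import Vale.Agent.P315.H248.AreaQ2
import Vale.Agent.P315.H846.He2

/-! The query theorem of milestone 2 from the rows: all numbers chosen. -/

set_option autoImplicit false

open Finset Filter

namespace Vale.Agent.P315.H784

open Vale.Agent.P315.C Vale.Agent.P315.H95 Vale.Agent.P315.H846
open Vale.Agent.P315.H155 (fam2 famMach fam2_q_pos fam2_J_dvd)
open Vale.Agent.P315.H731 (av)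
open Vale.Agent.P315.H808 (Chain)

/-- The penalties cost little if the classes are few. -/
theorem pen_line {e : ℝ} (he : 0 < e) (D1 : ℕ) : ∃ a₀ : ℕ, 1 ≤ a₀ ∧ ∀ n Kc κr : ℕ,
    a₀ * (Kc + 1) ≤ n → κr ≤ Kc + 3 →
    (D1 : ℝ) * (2 / Real.log 2 * (Kc * Real.log 2 + 2 * √(2 * n * (Kc * Real.log 2))) +
      (κr + 2)) ≤ e * n := by
  obtain ⟨A, hA⟩ := exists_nat_ge (16 * ((D1 : ℝ) + 1) / e)
  have hA0 : (0 : ℝ) < A := lt_of_lt_of_le (by positivity) hA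
  have hA1 : 1 ≤ A := by exact_mod_cast hA0
  refine ⟨A ^ 2, Nat.pos_of_ne_zero (by positivity), fun n Kc κr hn hκ => ?_⟩
  have l1 := Real.log_two_gt_d9
  have l2 := Real.log_two_lt_d9
  have l0 : (0 : ℝ) < Real.log 2 := by linarith
  have hn' : (A : ℝ) ^ 2 * ((Kc : ℝ) + 1) ≤ n := by exact_mod_cast hn
  have hκ' : (κr : ℝ) ≤ Kc + 3 := by exact_mod_cast hκ
  have hK0 : (0 : ℝ) ≤ Kc := Nat.cast_nonneg _
  have hn0 : (0 : ℝ) ≤ n := Nat.cast_nonneg _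
  have hA1' : (1 : ℝ) ≤ A := by exact_mod_cast hA1
  -- `A (Kc + 1) ≤ n / A`
  have h1 : (Kc : ℝ) + 1 ≤ n / A := by
    rw [le_div_iff₀ hA0]
    nlinarith
  have h2 : √(2 * n * (Kc * Real.log 2)) ≤ 3 / 2 * (n / A) := by
    apply Real.sqrt_le_iff.2
    refine ⟨by positivity, ?_⟩
    have h3 : (Kc : ℝ) * (A : ℝ) ^ 2 ≤ n := by nlinarith
    have h4 : (3 / 2 * ((n : ℝ) / A)) ^ 2 = 9 / 4 * n * (n / A ^ 2) := by
      rw [mul_pow, div_pow]; ring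
    rw [h4]
    have h5 : (Kc : ℝ) ≤ n / A ^ 2 := by
      rw [le_div_iff₀ (by positivity)]; exact h3
    calc 2 * (n : ℝ) * (Kc * Real.log 2) ≤ 2 * n * (Kc * 1) := by gcongr; linarith
      _ ≤ 2 * n * ((n : ℝ) / A ^ 2 * 1) := by gcongr
      _ ≤ 9 / 4 * n * (n / A ^ 2) := by
          have : (0 : ℝ) ≤ n * (n / A ^ 2) := by positivity
          nlinarith
  have h6 : 2 / Real.log 2 * (Kc * Real.log 2 + 2 * √(2 * n * (Kc * Real.log 2))) =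
      2 * Kc + 4 / Real.log 2 * √(2 * n * (Kc * Real.log 2)) := by
    field_simp
    ring
  have h7 : 4 / Real.log 2 ≤ 6 := by
    rw [div_le_iff₀ l0]; linarith
  have h8 : 4 / Real.log 2 * √(2 * n * (Kc * Real.log 2)) ≤ 6 * (3 / 2 * (n / A)) :=
    mul_le_mul h7 h2 (Real.sqrt_nonneg _) (by norm_num)
  have h9 : 2 / Real.log 2 * (Kc * Real.log 2 + 2 * √(2 * n * (Kc * Real.log 2))) +
      ((κr : ℝ) + 2) ≤ 16 * (n / A) := by
    rw [h6]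
    linarith
  have hD : (0 : ℝ) ≤ D1 := Nat.cast_nonneg _
  have h10 : 16 * (D1 : ℝ) ≤ e * A := by
    rw [div_le_iff₀ he] at hA
    linarith
  calc (D1 : ℝ) * (2 / Real.log 2 * (Kc * Real.log 2 + 2 * √(2 * n * (Kc * Real.log 2))) +
        (κr + 2)) ≤ D1 * (16 * (n / A)) := mul_le_mul_of_nonneg_left h9 hD
    _ = 16 * (D1 : ℝ) * (n / A) := by ring
    _ ≤ e * A * (n / A) := mul_le_mul_of_nonneg_right h10 (by positivity)
    _ = e * n := by field_simp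

/-- The last scale, with the penalties. -/
theorem last_scale2 {e : ℝ} {J D1 Kc n m S : ℕ} (hK : Kc + 1 ≤ n)
    (hn : ((J : ℝ) + D1 + 1) ≤ e * n) (hS : (n + 2) ^ 3 ≤ (2 ^ m) ^ 2 ^ S) :
    (n : ℝ) * (((n * (J + D1 * (Kc + 3)) + 1 : ℕ) : ℝ) * Par.thm m S) ≤ e * n := by
  have hn0 : (0 : ℝ) ≤ n := Nat.cast_nonneg _
  have h1 : Par.thm m S ≤ 1 / ((n : ℝ) + 2) ^ 3 := by
    unfold Par.thm
    rw [one_div_pow]
    refine one_div_le_one_div_of_le (by positivity) ?_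
    rw [pow_mul]
    exact_mod_cast hS
  have h2 : ((n * (J + D1 * (Kc + 3)) + 1 : ℕ) : ℝ) ≤ ((J : ℝ) + D1 + 1) * ((n : ℝ) + 2) ^ 2 := by
    have h3 : n * (J + D1 * (Kc + 3)) + 1 ≤ (J + D1 + 1) * (n + 2) ^ 2 := by
      have g1 : D1 * (Kc + 3) ≤ D1 * (n + 2) := Nat.mul_le_mul_left _ (by omega)
      have g2 : n * (J + D1 * (Kc + 3)) ≤ n * J + D1 * (n * (n + 2)) := by
        calc n * (J + D1 * (Kc + 3)) ≤ n * (J + D1 * (n + 2)) :=
              Nat.mul_le_mul_left _ (Nat.add_le_add_left g1 _)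
          _ = n * J + D1 * (n * (n + 2)) := by ring
      have g3 : n * J ≤ J * (n + 2) ^ 2 := by
        rw [mul_comm]
        exact Nat.mul_le_mul_left _ (by nlinarith)
      have g4 : D1 * (n * (n + 2)) ≤ D1 * (n + 2) ^ 2 := Nat.mul_le_mul_left _ (by nlinarith)
      have g5 : 1 ≤ (n + 2) ^ 2 := Nat.pos_of_ne_zero (by positivity)
      calc n * (J + D1 * (Kc + 3)) + 1 ≤ J * (n + 2) ^ 2 + D1 * (n + 2) ^ 2 + (n + 2) ^ 2 := by
            omega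
        _ = (J + D1 + 1) * (n + 2) ^ 2 := by ring
    exact_mod_cast h3
  have h4 : ((n * (J + D1 * (Kc + 3)) + 1 : ℕ) : ℝ) * Par.thm m S ≤
      ((J : ℝ) + D1 + 1) * ((n : ℝ) + 2) ^ 2 * (1 / ((n : ℝ) + 2) ^ 3) :=
    mul_le_mul h2 h1 (Par.thm_pos m S).le (by positivity)
  have h5 : ((J : ℝ) + D1 + 1) * ((n : ℝ) + 2) ^ 2 * (1 / ((n : ℝ) + 2) ^ 3) ≤ e := by
    have h6 : ((J : ℝ) + D1 + 1) * ((n : ℝ) + 2) ^ 2 * (1 / ((n : ℝ) + 2) ^ 3) =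
        ((J : ℝ) + D1 + 1) / ((n : ℝ) + 2) := by
      field_simp
    rw [h6, div_le_iff₀ (by positivity)]
    have he : 0 ≤ e := by
      by_contra hc
      have : e * n ≤ 0 := mul_nonpos_of_nonpos_of_nonneg (by linarith) hn0
      have : (0 : ℝ) ≤ (J : ℝ) + D1 := by positivity
      linarith
    nlinarith
  rw [mul_comm e]
  exact mul_le_mul_of_nonneg_left (h4.trans h5) hn0

/-- The numbers of the value half of milestone 2: `ε → eps0, cd → (m, k, D1) → a₀, n0`. -/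
theorem qt2_numbers {ε : ℝ} (hε : 0 < ε) (CL : ℝ) :
    ∃ eps0 : ℝ, 0 < eps0 ∧ eps0 ≤ 1 ∧ ∃ cd : ℕ, 0 < cd ∧ ∀ m k D1 : ℕ, 1 ≤ k →
      8 / (2 ^ (20 * m) : ℝ) ^ 3 ≤ eps0 → ∃ a₀ n0 : ℕ, 1 ≤ a₀ ∧
      ∀ n S Kc κr : ℕ, n0 ≤ n → (n + 2) ^ 3 ≤ (2 ^ m) ^ 2 ^ S →
      2 ^ S ≤ 6 * (Nat.log 2 (n + 2) + 2) → a₀ * (Kc + 1) ≤ n → κr ≤ Kc + 3 →
      0 < n ∧ 0 ≤ famN k cd n ∧
      ((famN k cd n : ℤ) : ℝ) ≤ (n : ℝ) * ((2 ^ k - 1 : ℕ) : ℝ) / 2 ∧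
      (5 / 2 + 5 / 2 * (CL * m) + 12 * m) * 4 ^ S ≤ eps0 * n ∧
      (n : ℝ) * (((n * ((2 ^ k - 1) + D1 * (Kc + 3)) + 1 : ℕ) : ℝ) * Par.thm m S) ≤ eps0 * n ∧
      (4 + eps0) * (((n : ℝ) * ((2 ^ k - 1 : ℕ) : ℝ) / 2 - ((famN k cd n : ℤ) : ℝ) +
        16 ^ S * (m : ℝ) ^ 2) + ((2 ^ k - 1 : ℕ) : ℝ) * Real.sqrt n / 2 +
          D1 * (2 / Real.log 2 * (Kc * Real.log 2 + 2 * √(2 * n * (Kc * Real.log 2))) +
            (κr + 2))) + 4 * eps0 * n +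
        eps0 * n + eps0 * n + (eps0 * n + 2 ^ (S + 1)) + 8 * n / (2 ^ (20 * m)) ^ 3 ≤ ε * n := by
  set e : ℝ := min (1 / 4) (ε / 60) with he
  have he0 : 0 < e := lt_min (by norm_num) (by positivity)
  have he4 : e ≤ 1 / 4 := min_le_left _ _
  have heε : 60 * e ≤ ε := by
    have := min_le_right (1 / 4) (ε / 60)
    linarith
  obtain ⟨cd, hcd⟩ := exists_nat_ge (1 / e)
  have hcd0 : (0 : ℝ) < cd := lt_of_lt_of_le (by positivity) hcd
  have hcdN : 0 < cd := by exact_mod_cast hcd0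
  have hcd' : 1 / (cd : ℝ) ≤ e := by
    rw [div_le_iff₀ hcd0]
    rw [div_le_iff₀ he0] at hcd
    linarith
  refine ⟨e, he0, by linarith, cd, hcdN, fun m k D1 hk h8 => ?_⟩
  set J : ℕ := 2 ^ k - 1 with hJdef
  have hJ1 : (1 : ℝ) ≤ J := by
    have h2 : 2 ≤ 2 ^ k := by
      calc 2 = 2 ^ 1 := by norm_num
        _ ≤ 2 ^ k := Nat.pow_le_pow_right (by norm_num) hk
    have : 1 ≤ J := by omega
    exact_mod_cast this
  obtain ⟨a₀, ha1, hpen⟩ := pen_line he0 D1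
  obtain ⟨n1, h1⟩ := Par.exists_smalls
    (max (max ((m : ℝ) ^ 2) (5 / 2 + 5 / 2 * (CL * m) + 12 * m)) ((J : ℝ) + D1 + 8)) he0 4
  obtain ⟨n2, hn2⟩ := exists_nat_ge (((J : ℝ) / e) ^ 2)
  refine ⟨a₀, max n1 (max n2 1), ha1, fun n S Kc κr hn hS3 hS hKc hκ => ?_⟩
  have hn1 : n1 ≤ n := (le_max_left _ _).trans hn
  have hn2' : n2 ≤ n := ((le_max_left _ _).trans (le_max_right _ _)).trans hn
  have hn3 : 1 ≤ n := ((le_max_right _ _).trans (le_max_right _ _)).trans hn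
  have npos : (0 : ℝ) < n := by exact_mod_cast hn3
  have a4 := h1 n hn1 S hS 4 le_rfl
  have a2 := h1 n hn1 S hS 2 (by norm_num)
  have a1 := h1 n hn1 S hS 1 (by norm_num)
  have a0 := h1 n hn1 S hS 0 (by norm_num)
  rw [pow_zero, mul_one] at a0
  rw [pow_one] at a1
  have b1 : (16 : ℝ) ^ S * (m : ℝ) ^ 2 ≤ e * n := by
    refine le_trans ?_ a4
    have e16 : (16 : ℝ) ^ S = ((2 : ℝ) ^ S) ^ 4 := by
      rw [← pow_mul, mul_comm S 4, pow_mul]; norm_num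
    rw [e16, mul_comm]
    exact mul_le_mul_of_nonneg_right ((le_max_left _ _).trans (le_max_left _ _)) (by positivity)
  have b2 : (5 / 2 + 5 / 2 * (CL * m) + 12 * m) * 4 ^ S ≤ e * n := by
    refine le_trans ?_ a2
    have e4 : (4 : ℝ) ^ S = ((2 : ℝ) ^ S) ^ 2 := by
      rw [← pow_mul, mul_comm S 2, pow_mul]; norm_num
    rw [e4]
    exact mul_le_mul_of_nonneg_right ((le_max_right _ _).trans (le_max_left _ _)) (by positivity)
  have hD0 : (0 : ℝ) ≤ D1 := Nat.cast_nonneg _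
  have b3 : (J : ℝ) + D1 + 8 ≤ e * n := (le_max_right _ _).trans a0
  have b6 : (2 : ℝ) ^ (S + 1) ≤ e * n := by
    refine le_trans ?_ a1
    rw [pow_succ, mul_comm]
    refine mul_le_mul_of_nonneg_right ?_ (by positivity)
    refine le_trans ?_ (le_max_right _ _)
    linarith
  have b4 : (J : ℝ) * Real.sqrt n ≤ e * n := by
    have c1 : (J : ℝ) ≤ e * Real.sqrt n := by
      have c2 : ((J : ℝ) / e) ^ 2 ≤ n := hn2.trans (by exact_mod_cast hn2')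
      have c3 : (J : ℝ) / e ≤ Real.sqrt n := Real.le_sqrt_of_sq_le c2
      rw [div_le_iff₀ he0] at c3
      linarith
    calc (J : ℝ) * Real.sqrt n ≤ (e * Real.sqrt n) * Real.sqrt n :=
          mul_le_mul_of_nonneg_right c1 (Real.sqrt_nonneg _)
      _ = e * n := by rw [mul_assoc, Real.mul_self_sqrt npos.le]
  have b5 : (1 : ℝ) / cd * n ≤ e * n := mul_le_mul_of_nonneg_right hcd' npos.le
  have b5' : 0 ≤ (1 : ℝ) / cd * n := by positivity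
  have b7 := hpen n Kc κr hKc hκ
  have b8 : 8 * (n : ℝ) / (2 ^ (20 * m)) ^ 3 ≤ e * n := by
    calc 8 * (n : ℝ) / (2 ^ (20 * m)) ^ 3 = 8 / (2 ^ (20 * m) : ℝ) ^ 3 * n := by ring
      _ ≤ e * n := mul_le_mul_of_nonneg_right h8 npos.le
  have hKn : Kc + 1 ≤ n := (Nat.le_mul_of_pos_left _ ha1).trans hKc
  have f1 := famN_le (k := k) (n := n) hcdN
  have f2 := famN_ge (k := k) (n := n) hcdN
  rw [← hJdef] at f1 f2
  set N : ℤ := famN k cd n with hN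
  have en : e * n ≤ 1 / 4 * n := mul_le_mul_of_nonneg_right he4 npos.le
  have ff : ((J : ℝ) / 2 - 1 / cd) * n = (n : ℝ) * (J : ℝ) / 2 - 1 / cd * n := by ring
  rw [ff] at f1 f2
  have hJn : (1 : ℝ) * n ≤ J * n := mul_le_mul_of_nonneg_right hJ1 npos.le
  refine ⟨hn3, ?_, ?_, b2, ?_, ?_⟩
  · have h0 : (0 : ℝ) ≤ (N : ℝ) := by linarith
    exact_mod_cast h0
  · linarith
  · exact last_scale2 hKn (by linarith) hS3
  · have hen : 0 ≤ e * n := by positivity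
    set P := (D1 : ℝ) * (2 / Real.log 2 * (Kc * Real.log 2 +
      2 * √(2 * n * (Kc * Real.log 2))) + (κr + 2)) with hP
    have g1 : (n : ℝ) * (J : ℝ) / 2 - (N : ℝ) ≤ e * n + 2 := by linarith
    have g2 : ((n : ℝ) * (J : ℝ) / 2 - (N : ℝ) + 16 ^ S * (m : ℝ) ^ 2) +
        (J : ℝ) * Real.sqrt n / 2 + P ≤ 5 * (e * n) := by linarith
    have g3 : (4 + e) * (((n : ℝ) * (J : ℝ) / 2 - (N : ℝ) + 16 ^ S * (m : ℝ) ^ 2) +
        (J : ℝ) * Real.sqrt n / 2 + P) ≤ 5 * (5 * (e * n)) := by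
      have k1 := mul_le_mul_of_nonneg_left g2 (by linarith : 0 ≤ 4 + e)
      have k2 : (4 + e) * (5 * (e * n)) ≤ 5 * (5 * (e * n)) :=
        mul_le_mul_of_nonneg_right (by linarith) (by positivity)
      linarith
    have g4 : 34 * (e * n) ≤ ε * n := by
      have h34 : 34 * e ≤ ε := by linarith
      calc 34 * (e * n) = 34 * e * n := by ring
        _ ≤ ε * n := mul_le_mul_of_nonneg_right h34 npos.le
    linarith

/-- **What the machines owe** for one choice of the parameters. -/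
def RowsQ2 (eps0 CL : ℝ) (m k cd D1 n S ℓ μ B w0 Kc κr : ℕ) : Prop :=
  ∀ (vis hid : Leaf) (S0 : ℕ → ℕ)
    (C : Chain (fam2 m k cd D1 n S ℓ μ B w0 Kc κr).P vis hid (fam2 m k cd D1 n S ℓ μ B w0 Kc κr).n)
    (_ : Inst2 (fam2 m k cd D1 n S ℓ μ B w0 Kc κr).P (20 * m) w0 Kc κr vis hid
      (fam2 m k cd D1 n S ℓ μ B w0 Kc κr).n S0 C)
    (K : Cut2 (fam2 m k cd D1 n S ℓ μ B w0 Kc κr) C)
    [Nonempty (Fin ((fam2 m k cd D1 n S ℓ μ B w0 Kc κr).P.M ^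
      (fam2 m k cd D1 n S ℓ μ B w0 Kc κr).n))],
    K.lo = famN k cd n - (16 ^ S * m ^ 2 : ℕ) → K.smax = S →
    K.NB = n * ((2 ^ k - 1) + D1 * (Kc + 3)) + 1 → K.D0 = m ^ 2 →
    K.qb = (2 ^ k - 1) + D1 * (Kc + 3) →
    RowsOK2 eps0 CL m (eps0 * n) (eps0 * n) K (goodU (20 * m) n C.lab)

/-- **What the machines owe** for the family of milestone 2: for every `eps0` the sums of the
capacities and of the failures are at most `eps0 n`, for all instances. -/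
def RowsFam2 (CL : ℝ) : Prop :=
  ∀ eps0 : ℝ, 0 < eps0 → eps0 ≤ 1 → ∀ K1 : ℕ, 1 ≤ K1 → ∀ᶠ m : ℕ in atTop,
    ∀ k cd D1 : ℕ, 2 ≤ k → 0 < cd → K1 * m ^ 2 * 2 ^ m ≤ 2 ^ k → 2 ^ k ≤ 2 * K1 * m ^ 2 * 2 ^ m →
    ∃ e₀ a₀ n₀ : ℕ, ∀ n S ℓ μ B w0 Kc κr : ℕ, n₀ ≤ n → 2 ^ S ∣ n →
      (n + 2) ^ 3 ≤ (2 ^ m) ^ 2 ^ S → 2 ^ S ≤ 6 * (Nat.log 2 (n + 2) + 2) → 0 < μ → 0 < w0 →
      2 ∣ ℓ → 2 ^ (e₀ * 2 ^ S) * μ ∣ w0 → w0 ∣ ℓ → a₀ * (Kc + 1) ≤ n → κr ≤ Kc + 3 →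
      2 * wd (20 * m) w0 n κr ≤ B → RowsQ2 eps0 CL m k cd D1 n S ℓ μ B w0 Kc κr

/-- **The query theorem of milestone 2 from the rows of the machines.** -/
theorem stmtQT2_of_rows {CL : ℝ} (hCL : 0 ≤ CL) (hrows : RowsFam2 CL) : StmtQT2 fam2 := by
  intro ε hε
  obtain ⟨eps0, he0, he1, cd, hcd, hnum⟩ := qt2_numbers hε CL
  obtain ⟨K1, hK1'⟩ := exists_nat_ge (max 1 (8 / eps0))
  have hK1 : 1 ≤ K1 := by exact_mod_cast (le_max_left _ _).trans hK1'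
  have hK1e : 4 ≤ eps0 / 2 * (K1 : ℝ) := by
    have := (le_max_right _ _).trans hK1'
    rw [div_le_iff₀ he0] at this
    linarith
  have h8 : ∀ᶠ m : ℕ in atTop, 8 / (2 ^ (20 * m) : ℝ) ^ 3 ≤ eps0 := by
    filter_upwards [H508.ev_pow_le 8 0 he0] with m hm
    rw [pow_zero, mul_one] at hm
    refine le_trans ?_ hm
    rw [div_eq_mul_one_div]
    refine mul_le_mul_of_nonneg_left ?_ (by norm_num)
    rw [one_div_pow, ← pow_mul]
    exact one_div_le_one_div_of_le (by positivity) (pow_le_pow_right₀ (by norm_num) (by omega))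
  have hall := (good2_of_rows he0 hCL).and ((H248.fam2_area' (2 * K1) (by omega) hcd).and
    ((hrows eps0 he0 he1 K1 hK1).and ((he_num2 (half_pos he0) hK1e).and
      (h8.and (eventually_ge_atTop 2)))))
  obtain ⟨m, hgood, harea, hRm, hHe, h8m, hm2⟩ := hall.exists
  have hm1 : 1 ≤ m := by omega
  obtain ⟨k, hk1, hk2, hk3⟩ := Par.exists_k (K1 := (K1 : ℝ)) (by exact_mod_cast hK1) hm1
  have hk2' : K1 * m ^ 2 * 2 ^ m ≤ 2 ^ k := by exact_mod_cast hk2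
  have hk3' : 2 ^ k ≤ 2 * K1 * m ^ 2 * 2 ^ m := by
    have : (2 : ℝ) ^ k ≤ 2 * K1 * m ^ 2 * 2 ^ m := by linarith
    exact_mod_cast this
  have hk : 2 ≤ k := by
    by_contra h
    have h1 : k = 1 := by omega
    rw [h1, pow_one] at hk2'
    have h2 : 2 ^ 2 ≤ m ^ 2 := Nat.pow_le_pow_left hm2 2
    have h3 : 1 ≤ 2 ^ m := Nat.one_le_two_pow
    have h4 : 4 ≤ K1 * m ^ 2 * 2 ^ m := by
      calc 4 = 1 * 2 ^ 2 * 1 := by norm_num
        _ ≤ K1 * m ^ 2 * 2 ^ m := by gcongr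
    omega
  have hJs : 2 ^ k - 1 + 1 = 2 ^ k := by
    have : 1 ≤ 2 ^ k := Nat.one_le_two_pow
    omega
  set D1 : ℕ := cd * 4 ^ k with hD1
  obtain ⟨e₀, aR, nR, hRk⟩ := hRm k cd D1 hk hcd hk2' hk3'
  obtain ⟨aN, nN, haN, hN⟩ := hnum m k D1 hk1 h8m
  obtain ⟨aC, hC⟩ := cls_num (half_pos he0)
  have hJ : (0 : ℝ) < ((2 ^ k - 1 : ℕ) : ℝ) := by
    have h2 : 4 ≤ 2 ^ k := by
      calc 4 = 2 ^ 2 := by norm_num
        _ ≤ 2 ^ k := Nat.pow_le_pow_right (by norm_num) hk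
    have : 0 < 2 ^ k - 1 := by omega
    exact_mod_cast this
  set a₀ : ℕ := max aR (max aN aC) with ha₀
  have a1 : aR ≤ a₀ := le_max_left _ _
  have a2 : aN ≤ a₀ := (le_max_left _ _).trans (le_max_right _ _)
  have a3 : aC ≤ a₀ := (le_max_right _ _).trans (le_max_right _ _)
  refine ⟨m, k, cd, D1, e₀, a₀, max nR nN, (1 / cd : ℝ) ^ 2 / ((2 ^ k - 1 : ℕ) : ℝ) ^ 2, 48,
    by omega, ?_, ?_⟩
  · have : (0 : ℝ) < cd := by exact_mod_cast hcd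
    positivity
  intro n S ℓ μ B w0 Kc κr hn hSn hS3 hSl hμ hw0 h2ℓ hdvd hwℓ haK hκ hB
  have haR : aR * (Kc + 1) ≤ n := (Nat.mul_le_mul_right _ a1).trans haK
  have haN' : aN * (Kc + 1) ≤ n := (Nat.mul_le_mul_right _ a2).trans haK
  obtain ⟨q1, q2, q3, q4, q5, q6⟩ := hN n S Kc κr ((le_max_right _ _).trans hn) hS3 hSl haN' hκ
  have hqpos : 0 < (fam2 m k cd D1 n S ℓ μ B w0 Kc κr).q := fam2_q_pos
  have hJq : 2 ^ k - 1 + 1 ∣ (fam2 m k cd D1 n S ℓ μ B w0 Kc κr).q := fam2_J_dvd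
  refine hgood (20 * m) ℓ μ B w0 (2 ^ k - 1) (S + 1) S (famH m n S) Kc D1 n
    (fam2 m k cd D1 n S ℓ μ B w0 Kc κr).Cn (fam2 m k cd D1 n S ℓ μ B w0 Kc κr).q κr
    (famMach m μ B w0 Kc) (famN k cd n) ε _
    (eps0 * n) (eps0 * n) (eps0 * n) (by omega) hqpos hJq q1 hSn q2 q3 q4 q5 q6 ?_ ?_
  · intro vis hid S0 C hI K hne k1 k2 k3 k4 k5
    refine ⟨fun o _ => ?_, ?_⟩
    · refine (he_row2 hI K (by omega) hJq k4 o).trans ?_
      obtain ⟨c1, _⟩ := hC a₀ a3 n Kc haK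
      have c2 := hHe (2 ^ k - 1) (by
        have : (((2 ^ k - 1 : ℕ) : ℝ)) + 1 = 2 ^ k := by exact_mod_cast hJs
        rw [this]
        exact hk2)
      have hn0 : (0 : ℝ) ≤ n := Nat.cast_nonneg _
      have c3 := mul_le_mul_of_nonneg_left c2 hn0
      have c4 : (1 : ℝ) ≤ 10 * m * Real.log 2 := by
        have l1 := Real.log_two_gt_d9
        have m1 : (1 : ℝ) ≤ m := by exact_mod_cast hm1
        nlinarith
      have c5 : (Kc * Real.log 2 + √(2 * n * (Kc * Real.log 2))) / (10 * m * Real.log 2) ≤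
          eps0 / 2 * n := by
        refine (div_le_self ?_ c4).trans c1
        have l1 := Real.log_two_gt_d9
        positivity
      linarith
    · have : Nonempty (Fin ((fam2 m k cd D1 n S ℓ μ B w0 Kc κr).P.M ^
          (fam2 m k cd D1 n S ℓ μ B w0 Kc κr).n)) := hne
      exact hRk n S ℓ μ B w0 Kc κr ((le_max_left _ _).trans hn) hSn hS3 hSl hμ hw0 h2ℓ hdvd hwℓ
        haR hκ hB vis hid S0 C hI K k1 k2 k3 k4 k5
  · intro vis hid
    have h := harea k hk hk3' D1 a₀ n S ℓ μ B w0 Kc κr vis hid (haN.trans a2)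
      (by rw [hD1]; omega) hκ
    refine h.trans (le_of_eq ?_)
    rw [neg_mul]

end Vale.Agent.P315.H784
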