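import Vale.Agent.P315.H784.Par

/-! The error sum of the accounting theorem. -/

set_option autoImplicit false

open Finset

namespace Vale.Agent.P315.Par

variable {D L N f : ℕ → ℝ} {D0 G c cL cN : ℝ}

theorem D_pos (h0 : 0 < D0) (hD : ∀ s, 16 ^ s * D0 ≤ D s) (s : ℕ) : 0 < D s :=
  lt_of_lt_of_le (by positivity) (hD s)

theorem Icc_sub_range (S : ℕ) : Icc 1 S ⊆ range (S + 1) := by
  intro s hs
  simp only [mem_Icc, mem_range] at hs ⊢
  omega

/-- Sum of `2^s f(s) G / D(s)`. -/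
theorem sum_range_div (h0 : 0 < D0) (hD : ∀ s, 16 ^ s * D0 ≤ D s) (hG : 0 ≤ G) (hc : 0 ≤ c)
    (hf0 : ∀ s, 0 ≤ f s) (hf : ∀ s, f s ≤ c * 2 ^ s) (S : ℕ) :
    ∑ s ∈ range S, 2 ^ s * f s * (G / D s) ≤ 4 / 3 * (c / D0) * G := by
  have h1 : ∑ s ∈ range S, 2 ^ s * f s * (G / D s) ≤
      (∑ s ∈ range S, 2 ^ s * f s / (16 ^ s * D0)) * G := by
    rw [sum_mul]
    refine sum_le_sum fun s _ => ?_
    have h2 : G / D s ≤ G / (16 ^ s * D0) :=
      div_le_div_of_nonneg_left hG (by positivity) (hD s)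
    calc 2 ^ s * f s * (G / D s) ≤ 2 ^ s * f s * (G / (16 ^ s * D0)) :=
          mul_le_mul_of_nonneg_left h2 (mul_nonneg (by positivity) (hf0 s))
      _ = _ := by ring
  exact h1.trans (mul_le_mul_of_nonneg_right (sum_div_D h0 hc hf S) hG)

theorem sum_Icc_div (h0 : 0 < D0) (hD : ∀ s, 16 ^ s * D0 ≤ D s) (hG : 0 ≤ G) (hc : 0 ≤ c)
    (hf0 : ∀ s, 0 ≤ f s) (hf : ∀ s, f s ≤ c * 2 ^ s) (S : ℕ) :
    ∑ s ∈ Icc 1 S, 2 ^ s * f s * (G / D s) ≤ 4 / 3 * (c / D0) * G := by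
  refine le_trans (sum_le_sum_of_subset_of_nonneg (Icc_sub_range S) fun s _ _ => ?_)
    (sum_range_div h0 hD hG hc hf0 hf (S + 1))
  exact mul_nonneg (mul_nonneg (by positivity) (hf0 s)) (div_nonneg hG (D_pos h0 hD s).le)

theorem sum_Icc_mul (hc : 0 ≤ c) (hf0 : ∀ s, 0 ≤ f s) (hf : ∀ s, f s ≤ c * 2 ^ s) (S : ℕ) :
    ∑ s ∈ Icc 1 S, 2 ^ s * f s ≤ 2 * c * 4 ^ S := by
  refine le_trans (sum_le_sum_of_subset_of_nonneg (Icc_sub_range S) fun s _ _ => ?_)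
    (sum_mul_le hc hf S)
  exact mul_nonneg (by positivity) (hf0 s)

/-- The blow-up budget of scale `s`. -/
noncomputable def U (D : ℕ → ℝ) (G : ℝ) (S s : ℕ) : ℝ :=
  ∑ t ∈ Icc (s + 2) S, 2 ^ (t - s + 1) * (1 + G / D t)

/-- The blow-up terms, summed over the scales. -/
theorem sum_U (h0 : 0 < D0) (hD : ∀ s, 16 ^ s * D0 ≤ D s) (hG : 0 ≤ G) (hc : 0 ≤ c)
    (hf0 : ∀ s, 0 ≤ f s) (hf : ∀ s, f s ≤ c * 2 ^ s) (S : ℕ) :
    ∑ s ∈ Icc 1 S, 2 ^ s * f s * U D G S s ≤ 2 * c * 4 ^ S + 4 / 3 * (c / D0) * G := by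
  have hnn : ∀ t, 0 ≤ 1 + G / D t := fun t => by
    have := div_nonneg hG (D_pos h0 hD t).le
    linarith
  -- exchange of the sums
  have h1 : ∑ s ∈ Icc 1 S, 2 ^ s * f s * U D G S s ≤
      ∑ s ∈ range (S + 1), ∑ t ∈ range (S + 1),
        if s + 2 ≤ t then 2 ^ s * f s * (2 ^ (t - s + 1) * (1 + G / D t)) else 0 := by
    refine le_trans (sum_le_sum_of_subset_of_nonneg (Icc_sub_range S) fun s _ _ => ?_) ?_
    · exact mul_nonneg (mul_nonneg (by positivity) (hf0 s))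
        (sum_nonneg fun t _ => mul_nonneg (by positivity) (hnn t))
    · refine sum_le_sum fun s _ => ?_
      unfold U
      rw [mul_sum, ← sum_filter]
      refine le_of_eq (sum_congr ?_ fun _ _ => rfl)
      ext t
      simp only [mem_Icc, mem_filter, mem_range]
      omega
  refine h1.trans ?_
  rw [sum_comm]
  have h2 : ∀ t ∈ range (S + 1), (∑ s ∈ range (S + 1),
      if s + 2 ≤ t then 2 ^ s * f s * (2 ^ (t - s + 1) * (1 + G / D t)) else 0) ≤
      2 ^ t * (c * 2 ^ t) * (1 + G / D t) := by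
    intro t _
    have h3 : ∀ s ∈ range (S + 1),
        (if s + 2 ≤ t then 2 ^ s * f s * (2 ^ (t - s + 1) * (1 + G / D t)) else 0) ≤
        2 ^ (t + 1) * (1 + G / D t) * (if s + 2 ≤ t then f s else 0) := by
      intro s _
      split_ifs with h
      · refine le_of_eq ?_
        have e : (2 : ℝ) ^ (t + 1) = 2 ^ s * 2 ^ (t - s + 1) := by
          rw [← pow_add]; congr 1; omega
        rw [e]; ring
      · simp
    refine (sum_le_sum h3).trans ?_
    rw [← mul_sum, ← sum_filter]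
    have h4 : ∑ s ∈ (range (S + 1)).filter (fun s => s + 2 ≤ t), f s ≤ c * 2 ^ (t - 1) := by
      refine le_trans (sum_le_sum_of_subset_of_nonneg (t := range (t - 1)) ?_
        (fun s _ _ => hf0 s)) (sum_lt_le hc hf (t - 1))
      intro s hs
      simp only [mem_filter, mem_range] at hs ⊢
      omega
    rcases Nat.eq_zero_or_pos t with ht | ht
    · subst ht
      have h5 : (range (S + 1)).filter (fun s => s + 2 ≤ 0) = ∅ := by
        ext s; simp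
      rw [h5, sum_empty, mul_zero]
      exact mul_nonneg (by positivity) (hnn 0)
    · calc 2 ^ (t + 1) * (1 + G / D t) * _ ≤ 2 ^ (t + 1) * (1 + G / D t) * (c * 2 ^ (t - 1)) :=
            mul_le_mul_of_nonneg_left h4 (mul_nonneg (by positivity) (hnn t))
        _ = 2 ^ t * (c * 2 ^ t) * (1 + G / D t) := by
            have e1 : (2 : ℝ) ^ (t + 1) * 2 ^ (t - 1) = 2 ^ t * 2 ^ t := by
              rw [← pow_add, ← pow_add]; congr 1; omega
            calc 2 ^ (t + 1) * (1 + G / D t) * (c * 2 ^ (t - 1))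
                = (2 ^ (t + 1) * 2 ^ (t - 1)) * c * (1 + G / D t) := by ring
              _ = _ := by rw [e1]; ring
  refine (sum_le_sum h2).trans ?_
  have h6 : ∑ t ∈ range (S + 1), (2 : ℝ) ^ t * (c * 2 ^ t) * (1 + G / D t) =
      ∑ t ∈ range (S + 1), 2 ^ t * (c * 2 ^ t) +
      ∑ t ∈ range (S + 1), 2 ^ t * (c * 2 ^ t) * (G / D t) := by
    rw [← sum_add_distrib]
    exact sum_congr rfl fun t _ => by ring
  rw [h6]
  exact add_le_add (sum_mul_le hc (fun s => le_rfl) S)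
    (sum_range_div h0 hD hG hc (fun s => by positivity) (fun s => le_rfl) (S + 1))

/-- Geometric sum of the relative losses. -/
theorem sum_eps {e x : ℝ} (he : 0 ≤ e) (hx : 0 ≤ x) (S : ℕ) :
    ∑ s ∈ Icc 1 S, e / 4 ^ s * x ≤ e * x := by
  have h1 : ∀ S : ℕ, ∑ s ∈ Icc 1 S, e / 4 ^ s * x ≤ e * x * (1 - (1 / 2) ^ S) := by
    intro S
    induction S with
    | zero => simp
    | succ S ih =>
      rw [sum_Icc_succ_top (by omega)]
      have h2 : e / 4 ^ (S + 1) * x ≤ e * x * (1 / 2) ^ (S + 1) := by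
        have h3 : (1 : ℝ) / 4 ^ (S + 1) ≤ (1 / 2) ^ (S + 1) := by
          rw [one_div_pow]
          exact one_div_le_one_div_of_le (by positivity)
            (pow_le_pow_left₀ (by norm_num) (by norm_num) _)
        calc e / 4 ^ (S + 1) * x = e * x * (1 / 4 ^ (S + 1)) := by ring
          _ ≤ _ := mul_le_mul_of_nonneg_left h3 (by positivity)
      have h4 : ((1 : ℝ) / 2) ^ S = 2 * (1 / 2) ^ (S + 1) := by rw [pow_succ]; ring
      rw [h4] at ih
      nlinarith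
  refine (h1 S).trans ?_
  have h5 : (0 : ℝ) ≤ (1 / 2) ^ S := by positivity
  have h6 : 0 ≤ e * x := by positivity
  nlinarith

/-- One term of the error sum of the accounting theorem (without capacities, failures and bad
units). -/
noncomputable def term (eps0 G n : ℝ) (D L N : ℕ → ℝ) (S s : ℕ) : ℝ :=
  eps0 / 4 ^ s * n + 2 ^ (s - 1) * G / D (s - 1) + 12 * 2 ^ s * G / D s +
    5 / 4 * 2 ^ s * U D G S s + 2 ^ s * L s * (12 * G / D s + 5 / 4 * U D G S s) +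
    2 ^ (s + 1) * N s * (1 + G / D s) + 2 * 2 ^ s * n / D s

/-- The sum of the error terms over the scales. -/
theorem sum_term_le {eps0 n : ℝ} (he : 0 ≤ eps0) (hn : 0 ≤ n) (h0 : 0 < D0)
    (hD : ∀ s, 16 ^ s * D0 ≤ D s) (hG : 0 ≤ G) (hcL : 0 ≤ cL) (hcN : 0 ≤ cN)
    (hL0 : ∀ s, 0 ≤ L s) (hL : ∀ s, L s ≤ cL * 2 ^ s)
    (hN0 : ∀ s, 0 ≤ N s) (hN : ∀ s, N s ≤ cN * 2 ^ s) (S : ℕ) :
    ∑ s ∈ Icc 1 S, term eps0 G n D L N S s ≤
      eps0 * n + 8 / 3 * (n / D0) + (19 + 18 * cL + 3 * cN) * (G / D0) +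
        (5 / 2 + 5 / 2 * cL + 4 * cN) * 4 ^ S := by
  have one : ∀ s : ℕ, (1 : ℝ) ≤ 1 * 2 ^ s := fun s => by
    rw [one_mul]; exact one_le_pow₀ (by norm_num)
  have zo : ∀ _ : ℕ, (0 : ℝ) ≤ 1 := fun _ => by norm_num
  -- the individual sums
  have a1 := sum_eps he hn S
  have a2 : ∑ s ∈ Icc 1 S, 2 ^ (s - 1) * G / D (s - 1) ≤ 4 / 3 * (1 / D0) * G := by
    have h1 := sum_range_div (f := fun _ => 1) h0 hD hG (by norm_num : (0 : ℝ) ≤ 1) zo one S
    refine le_trans (le_of_eq ?_) h1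
    rw [show Icc 1 S = Ico 1 (S + 1) by ext; simp, sum_Ico_eq_sum_range]
    refine sum_congr (by simp) fun s _ => ?_
    rw [show 1 + s - 1 = s by omega]
    ring
  have a3 := sum_Icc_div (f := fun _ => 1) h0 hD hG (by norm_num : (0 : ℝ) ≤ 1) zo one S
  have a4 := sum_U (f := fun _ => 1) h0 hD hG (by norm_num : (0 : ℝ) ≤ 1) zo one S
  have a5 := sum_Icc_div h0 hD hG hcL hL0 hL S
  have a6 := sum_U h0 hD hG hcL hL0 hL S
  have a7 := sum_Icc_mul hcN hN0 hN S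
  have a8 := sum_Icc_div h0 hD hG hcN hN0 hN S
  have a9 := sum_Icc_div (f := fun _ => 1) h0 hD hn (by norm_num : (0 : ℝ) ≤ 1) zo one S
  have split : ∑ s ∈ Icc 1 S, term eps0 G n D L N S s =
      ∑ s ∈ Icc 1 S, eps0 / 4 ^ s * n + ∑ s ∈ Icc 1 S, 2 ^ (s - 1) * G / D (s - 1) +
      12 * ∑ s ∈ Icc 1 S, 2 ^ s * 1 * (G / D s) + 5 / 4 * ∑ s ∈ Icc 1 S, 2 ^ s * 1 * U D G S s +
      12 * ∑ s ∈ Icc 1 S, 2 ^ s * L s * (G / D s) +
      5 / 4 * ∑ s ∈ Icc 1 S, 2 ^ s * L s * U D G S s +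
      2 * ∑ s ∈ Icc 1 S, 2 ^ s * N s + 2 * ∑ s ∈ Icc 1 S, 2 ^ s * N s * (G / D s) +
      2 * ∑ s ∈ Icc 1 S, 2 ^ s * 1 * (n / D s) := by
    simp only [mul_sum, ← sum_add_distrib]
    refine sum_congr rfl fun s _ => ?_
    unfold term
    rw [pow_succ]
    ring
  rw [split]
  have hGD : G / D0 = 1 / D0 * G := by ring
  have hnD : n / D0 = 1 / D0 * n := by ring
  have hcGD : ∀ c : ℝ, 4 / 3 * (c / D0) * G = 4 / 3 * c * (G / D0) := fun c => by ring
  have hcnD : ∀ c : ℝ, 4 / 3 * (c / D0) * n = 4 / 3 * c * (n / D0) := fun c => by ring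
  have hp : 0 ≤ G / D0 := by positivity
  rw [hcGD] at a2 a3 a5 a8
  rw [hcGD] at a4 a6
  rw [hcnD] at a9
  have hp1 : 0 ≤ cL * (G / D0) := by positivity
  have hp2 : 0 ≤ cN * (G / D0) := by positivity
  have h4S : (0 : ℝ) < 4 ^ S := by positivity
  nlinarith

end Vale.Agent.P315.Par
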